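import Mathlib

/-!
# The quantile map of the density `(1 + a s) / 2` on `[-1, 1]`
-/

open MeasureTheory

namespace Vale.Agent.P161

/-- The quantile map of the density `(1 + a s) / 2` on `[-1, 1]`. -/
noncomputable def T (a x : ℝ) : ℝ :=
  (2 * max (-1) (min 1 x) + a) / (1 + Real.sqrt (1 + 2 * a * max (-1) (min 1 x) + a ^ 2))

theorem T_zero (x : ℝ) : T 0 x = max (-1) (min 1 x) := by
  unfold T
  norm_num

theorem clamp_abs_le (x : ℝ) : |max (-1) (min 1 x)| ≤ 1 := by
  rw [abs_le]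
  exact ⟨le_max_left _ _, max_le (by norm_num) (min_le_left _ _)⟩

theorem clamp_eq {x : ℝ} (hx : |x| ≤ 1) : max (-1) (min 1 x) = x := by
  rw [abs_le] at hx
  rw [min_eq_right hx.2, max_eq_right hx.1]

theorem rad_nonneg {a y : ℝ} (_ha : |a| < 1) (hy : |y| ≤ 1) : 0 ≤ 1 + 2 * a * y + a ^ 2 := by
  have h1 : |a * y| ≤ |a| := by
    rw [abs_mul]
    nlinarith [abs_nonneg a, abs_nonneg y]
  have h2 := neg_abs_le (a * y)
  nlinarith [sq_abs a, sq_nonneg (1 - |a|)]

theorem T_clamp (a x : ℝ) : T a (max (-1) (min 1 x)) = T a x := by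
  unfold T
  rw [clamp_eq (clamp_abs_le x)]

theorem T_spec {a x : ℝ} (ha : |a| < 1) (hx : |x| ≤ 1) :
    T a x + a * ((T a x) ^ 2 - 1) / 2 = x := by
  have hr := rad_nonneg ha hx
  unfold T
  rw [clamp_eq hx]
  set R := Real.sqrt (1 + 2 * a * x + a ^ 2) with hR
  have hR0 : 0 ≤ R := Real.sqrt_nonneg _
  have hR2 : R ^ 2 = 1 + 2 * a * x + a ^ 2 := Real.sq_sqrt hr
  have h1 : (1 + R) ≠ 0 := by positivity
  set s := (2 * x + a) / (1 + R) with hs
  have h2 : s * (1 + R) = 2 * x + a := by rw [hs]; field_simp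
  have h3 : a * s = R - 1 := by
    have : a * s * (1 + R) = (R - 1) * (1 + R) := by
      calc a * s * (1 + R) = a * (s * (1 + R)) := by ring
        _ = a * (2 * x + a) := by rw [h2]
        _ = R ^ 2 - 1 := by rw [hR2]; ring
        _ = (R - 1) * (1 + R) := by ring
    exact mul_right_cancel₀ h1 this
  calc s + a * (s ^ 2 - 1) / 2 = s + (a * s) * s / 2 - a / 2 := by ring
    _ = s + (R - 1) * s / 2 - a / 2 := by rw [h3]
    _ = (s * (1 + R)) / 2 - a / 2 := by ring
    _ = x := by rw [h2]; ring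

theorem abs_T_le {a : ℝ} (ha : |a| < 1) (x : ℝ) : |T a x| ≤ 1 := by
  have hy := clamp_abs_le x
  unfold T
  set y := max (-1) (min 1 x) with hydef
  have hr := rad_nonneg ha hy
  set R := Real.sqrt (1 + 2 * a * y + a ^ 2) with hR
  have hR0 : 0 ≤ R := Real.sqrt_nonneg _
  have hR2 : R ^ 2 = 1 + 2 * a * y + a ^ 2 := Real.sq_sqrt hr
  rw [abs_le] at hy
  have hpos : 0 < 1 + R := by positivity
  rw [abs_le, le_div_iff₀ hpos, div_le_iff₀ hpos]
  constructor
  · by_contra hcon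
    have h1 : R < -2 * y - a - 1 := by linarith
    have h2 : 0 < -2 * y - a - 1 := lt_of_le_of_lt hR0 h1
    have h3 : R ^ 2 < (-2 * y - a - 1) ^ 2 := by nlinarith
    nlinarith [mul_nonneg (by linarith : (0 : ℝ) ≤ 1 + y) (by linarith : (0 : ℝ) ≤ -4 * y - 2 * a)]
  · by_contra hcon
    have h1 : R < 2 * y + a - 1 := by linarith
    have h2 : 0 < 2 * y + a - 1 := lt_of_le_of_lt hR0 h1
    have h3 : R ^ 2 < (2 * y + a - 1) ^ 2 := by nlinarith
    nlinarith [mul_nonneg (by linarith : (0 : ℝ) ≤ 1 - y) (by linarith : (0 : ℝ) ≤ 4 * y + 2 * a)]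

/-- The transformed point stays in `[-1, 1]`. -/
theorem abs_trans_le {a s : ℝ} (ha : |a| < 1) (hs : |s| ≤ 1) :
    |s + a * (s ^ 2 - 1) / 2| ≤ 1 := by
  rw [abs_le] at hs
  rw [abs_lt] at ha
  rw [abs_le]
  constructor
  · have h1 : 0 ≤ (s + 1) * (1 + a * (s - 1) / 2) := by
      apply mul_nonneg (by linarith)
      nlinarith
    nlinarith
  · have h1 : 0 ≤ (1 - s) * (1 + a * (s + 1) / 2) := by
      apply mul_nonneg (by linarith)
      nlinarith
    nlinarith

theorem T_inv {a s : ℝ} (ha : |a| < 1) (hs : |s| ≤ 1) :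
    T a (s + a * (s ^ 2 - 1) / 2) = s := by
  unfold T
  rw [clamp_eq (abs_trans_le ha hs)]
  have h1 : 1 + 2 * a * (s + a * (s ^ 2 - 1) / 2) + a ^ 2 = (1 + a * s) ^ 2 := by ring
  have h2 : 0 < 1 + a * s := by
    have : |a * s| < 1 := by
      rw [abs_mul]
      nlinarith [abs_nonneg a, abs_nonneg s]
    have := (abs_lt.1 this).1
    linarith
  rw [h1, Real.sqrt_sq h2.le, div_eq_iff (by positivity)]
  ring

theorem T_lipschitz {a a' c : ℝ} (hc : c < 1) (ha : |a| ≤ c) (ha' : |a'| ≤ c) (x : ℝ) :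
    |T a x - T a' x| ≤ |a - a'| / (2 * (1 - c)) := by
  have ha1 : |a| < 1 := lt_of_le_of_lt ha hc
  have ha1' : |a'| < 1 := lt_of_le_of_lt ha' hc
  rw [← T_clamp a x, ← T_clamp a' x]
  set y := max (-1) (min 1 x) with hydef
  have hy : |y| ≤ 1 := clamp_abs_le x
  have e1 := T_spec ha1 hy
  have e2 := T_spec ha1' hy
  have b1 := abs_T_le ha1 y
  have b2 := abs_T_le ha1' y
  set s := T a y
  set s' := T a' y
  have key : (s - s') * (1 + a * (s + s') / 2) = (a - a') * (1 - s' ^ 2) / 2 := by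
    linear_combination e1 - e2
  have hlow : 1 - c ≤ 1 + a * (s + s') / 2 := by
    have h1 : |a * ((s + s') / 2)| ≤ c := by
      rw [abs_mul]
      have h2 : |(s + s') / 2| ≤ 1 := by
        rw [abs_div, abs_of_pos (by norm_num : (0 : ℝ) < 2), div_le_one (by norm_num)]
        calc |s + s'| ≤ |s| + |s'| := abs_add_le _ _
          _ ≤ 2 := by linarith
      calc |a| * |(s + s') / 2| ≤ c * 1 :=
            mul_le_mul ha h2 (abs_nonneg _) ((abs_nonneg a).trans ha)
        _ = c := mul_one c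
    have h3 := (abs_le.1 h1).1
    linarith
  have hc0 : 0 < 1 - c := by linarith
  have hup : |(a - a') * (1 - s' ^ 2) / 2| ≤ |a - a'| / 2 := by
    rw [abs_div, abs_mul, abs_of_pos (by norm_num : (0 : ℝ) < 2)]
    have h4 : |1 - s' ^ 2| ≤ 1 := by
      rw [abs_le]
      have := sq_abs s'
      constructor <;> nlinarith [abs_nonneg s', sq_nonneg s']
    apply div_le_div_of_nonneg_right _ (by norm_num)
    calc |a - a'| * |1 - s' ^ 2| ≤ |a - a'| * 1 :=
          mul_le_mul_of_nonneg_left h4 (abs_nonneg _)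
      _ = _ := mul_one _
  rw [← key, abs_mul, abs_of_pos (lt_of_lt_of_le hc0 hlow)] at hup
  rw [le_div_iff₀ (by positivity)]
  have : |s - s'| * (1 - c) ≤ |s - s'| * (1 + a * (s + s') / 2) :=
    mul_le_mul_of_nonneg_left hlow (abs_nonneg _)
  linarith

theorem measurable_T : Measurable (Function.uncurry T) := by
  unfold T Function.uncurry
  fun_prop

end Vale.Agent.P161
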