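import Mathlib
import Vale.Agent.P161.AlgT

/-!
# The uniform distribution on `[-1, 1]` and the change of variables for `T`
-/

open MeasureTheory

namespace Vale.Agent.P161

/-- The uniform distribution on `[-1, 1]`. -/
noncomputable def unif : Measure ℝ := (2⁻¹ : ENNReal) • volume.restrict (Set.Icc (-1) 1)

instance instIsProbabilityMeasureUnif : IsProbabilityMeasure unif := by
  constructor
  simp only [unif, Measure.coe_smul, Pi.smul_apply, smul_eq_mul, Measure.restrict_apply_univ,
    Real.volume_Icc]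
  norm_num
  exact ENNReal.inv_mul_cancel (by norm_num) (by norm_num)

theorem ae_unif : ∀ᵐ x ∂unif, |x| ≤ 1 := by
  unfold unif
  apply Measure.ae_smul_measure
  filter_upwards [ae_restrict_mem measurableSet_Icc] with x hx
  exact abs_le.2 hx

theorem integral_unif (F : ℝ → ℝ) :
    ∫ x, F x ∂unif = 2⁻¹ * ∫ x in Set.Icc (-1 : ℝ) 1, F x := by
  unfold unif
  rw [integral_smul_measure]
  simp

theorem image_trans {a : ℝ} (ha : |a| < 1) :
    (fun s : ℝ => s + a * (s ^ 2 - 1) / 2) '' Set.Icc (-1) 1 = Set.Icc (-1) 1 := by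
  ext x
  constructor
  · rintro ⟨s, hs, rfl⟩
    exact abs_le.1 (abs_trans_le ha (abs_le.2 hs))
  · intro hx
    have hx' : |x| ≤ 1 := abs_le.2 hx
    exact ⟨T a x, abs_le.1 (abs_T_le ha x), T_spec ha hx'⟩

theorem integral_T {a : ℝ} (ha : |a| < 1) (F : ℝ → ℝ) :
    ∫ x, F (T a x) ∂unif = ∫ s, F s * (1 + a * s) ∂unif := by
  rw [integral_unif, integral_unif]
  congr 1
  have hinj : Set.InjOn (fun s : ℝ => s + a * (s ^ 2 - 1) / 2) (Set.Icc (-1) 1) := by
    intro s hs t ht hst
    rw [← T_inv ha (abs_le.2 hs), ← T_inv ha (abs_le.2 ht)]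
    exact congrArg (T a) hst
  have hder : ∀ s ∈ Set.Icc (-1 : ℝ) 1,
      HasDerivWithinAt (fun s : ℝ => s + a * (s ^ 2 - 1) / 2) (1 + a * s) (Set.Icc (-1) 1) s := by
    intro s _
    have h1 : HasDerivAt (fun s : ℝ => s + a * (s ^ 2 - 1) / 2) (1 + a * (2 * s) / 2) s := by
      have h2 : HasDerivAt (fun s : ℝ => s ^ 2 - 1) (2 * s) s := by
        simpa using (hasDerivAt_pow 2 s).sub_const 1
      exact (hasDerivAt_id s).add ((h2.const_mul a).div_const 2)
    have h3 : (1 + a * (2 * s) / 2) = 1 + a * s := by ring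
    rw [h3] at h1
    exact h1.hasDerivWithinAt
  have h := integral_image_eq_integral_abs_deriv_smul (s := Set.Icc (-1 : ℝ) 1)
    measurableSet_Icc hder hinj (fun x => F (T a x))
  rw [image_trans ha] at h
  rw [h]
  apply setIntegral_congr_fun measurableSet_Icc
  intro s hs
  have hs' : |s| ≤ 1 := abs_le.2 hs
  have hpos : 0 ≤ 1 + a * s := by
    have h2 : |a * s| ≤ 1 := by
      rw [abs_mul]
      nlinarith [abs_nonneg a, abs_nonneg s]
    have := (abs_le.1 h2).1
    linarith
  simp only [smul_eq_mul]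
  rw [abs_of_nonneg hpos, T_inv ha hs', mul_comm]

theorem integral_T_id {a : ℝ} (ha : |a| < 1) : ∫ x, T a x ∂unif = a / 3 := by
  rw [integral_T ha (fun x => x), integral_unif, integral_Icc_eq_integral_Ioc,
    ← intervalIntegral.integral_of_le (by norm_num)]
  have h : ∀ x : ℝ, x * (1 + a * x) = x + a * x ^ 2 := fun x => by ring
  simp_rw [h]
  rw [intervalIntegral.integral_add (by simp) (by
    apply Continuous.intervalIntegrable; fun_prop), intervalIntegral.integral_const_mul,
    integral_id, integral_pow]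
  norm_num
  ring

theorem integrable_T {a : ℝ} (ha : |a| < 1) : Integrable (T a) unif := by
  have hm : Measurable (T a) := measurable_T.comp (measurable_const.prodMk measurable_id)
  exact Integrable.of_bound hm.aestronglyMeasurable 1 (ae_of_all _ fun x => abs_T_le ha x)

theorem measurable_T_left (a : ℝ) : Measurable (T a) :=
  measurable_T.comp (measurable_const.prodMk measurable_id)

end Vale.Agent.P161
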