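import Mathlib
import Vale.Agent.P161.Alg

/-!
# Independent uniform labels on `[-1, 1]`
-/

open MeasureTheory

namespace Vale.Agent.P161

/-- Independent uniform labels on `[-1, 1]`. -/
noncomputable def Pu (ι : Type*) : Measure (ι → ℝ) := Measure.infinitePi fun _ : ι => unif

instance instIsProbabilityMeasurePu (ι : Type*) : IsProbabilityMeasure (Pu ι) := by
  unfold Pu
  infer_instance

theorem measurePreserving_eval_Pu {ι : Type*} (i : ι) :
    MeasurePreserving (fun u : ι → ℝ => u i) (Pu ι) unif :=
  measurePreserving_eval_infinitePi (fun _ : ι => unif) i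

theorem ae_Pu_abs_le {ι : Type*} (i : ι) : ∀ᵐ u ∂(Pu ι), |u i| ≤ 1 :=
  (measurePreserving_eval_Pu i).quasiMeasurePreserving.ae ae_unif

end Vale.Agent.P161
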