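import Mathlib
import Vale.Agent.P161.PuDef

/-!
# Producing the labels from `[0,1]`-valued labels; splitting off the order labels
-/

open MeasureTheory ProbabilityTheory Filter Topology

namespace Vale.Agent.P161

universe u

variable {V : Type u}

/-- From i.i.d. uniform labels on `[0,1]` at the vertices one can produce, by applying the same
measurable map at every vertex, a sequence of independent uniform labels on `[-1,1]`. -/
theorem exists_labels (V : Type u) :
    ∃ h : unitInterval → ℕ → ℝ, Measurable h ∧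
      (Measure.infinitePi fun _ : V => (volume : Measure unitInterval)).map
        (fun U (e : V × ℕ) => h (U e.1) e.2) = Pu (V × ℕ) := by
  obtain ⟨h, hm, hh⟩ := Measure.exists_measurable_map_eq (Pu ℕ)
  refine ⟨h, hm, ?_⟩
  have h1 := Measure.infinitePi_map_pi (fun _ : V => (volume : Measure unitInterval))
    (f := fun _ => h) (fun _ => hm)
  rw [hh] at h1
  have h2 := Measure.infinitePi_map_curry_symm (ι := V) (κ := ℕ) (X := ℝ) (fun _ _ => unif)
  have hmap : (fun (U : V → unitInterval) (e : V × ℕ) => h (U e.1) e.2) =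
      (MeasurableEquiv.curry V ℕ ℝ).symm ∘ (fun (U : V → unitInterval) i => h (U i)) := by
    ext U e
    rfl
  rw [hmap, ← Measure.map_map (by fun_prop) (by fun_prop), h1]
  exact h2

/-- The product of two families of independent labels. -/
theorem map_sumElim_Pu (α β : Type*) :
    ((Pu α).prod (Pu β)).map (fun p => (Sum.elim p.1 p.2 : α ⊕ β → ℝ)) = Pu (α ⊕ β) := by
  classical
  unfold Pu
  apply Measure.eq_infinitePi
  intro s t ht
  have hm : Measurable (fun p : (α → ℝ) × (β → ℝ) => (Sum.elim p.1 p.2 : α ⊕ β → ℝ)) := by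
    apply measurable_pi_lambda
    rintro (i | i)
    · exact (measurable_pi_apply i).comp measurable_fst
    · exact (measurable_pi_apply i).comp measurable_snd
  rw [Measure.map_apply hm (.pi s.countable_toSet fun _ _ => ht _)]
  have hpre : (fun p : (α → ℝ) × (β → ℝ) => (Sum.elim p.1 p.2 : α ⊕ β → ℝ)) ⁻¹'
      ((s : Set (α ⊕ β)).pi t) =
      ((s.toLeft : Set α).pi (fun i => t (Sum.inl i))) ×ˢ
        ((s.toRight : Set β).pi (fun i => t (Sum.inr i))) := by
    ext ⟨x, y⟩
    simp only [Set.mem_preimage, Set.mem_pi, Set.mem_prod, Finset.mem_coe, Finset.mem_toLeft,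
      Finset.mem_toRight]
    constructor
    · intro h
      exact ⟨fun i hi => h (Sum.inl i) hi, fun i hi => h (Sum.inr i) hi⟩
    · rintro ⟨h1, h2⟩ (i | i) hi
      · exact h1 i hi
      · exact h2 i hi
  rw [hpre, Measure.prod_prod, Measure.infinitePi_pi _ (fun i _ => ht _),
    Measure.infinitePi_pi _ (fun i _ => ht _)]
  conv_rhs => rw [← Finset.toLeft_disjSum_toRight (u := s), Finset.prod_disjSum]

/-- Put the order labels at index `0` and shift the other labels. -/
def joinLab (U : V → ℝ) (u : V × ℕ → ℝ) : V × ℕ → ℝ := fun e =>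
  match e.2 with
  | 0 => U e.1
  | k + 1 => u (e.1, k)

/-- The index bookkeeping of `joinLab`. -/
def joinIdx (e : V × ℕ) : V ⊕ (V × ℕ) :=
  match e.2 with
  | 0 => Sum.inl e.1
  | k + 1 => Sum.inr (e.1, k)

theorem joinIdx_injective : Function.Injective (joinIdx : V × ℕ → V ⊕ (V × ℕ)) := by
  rintro ⟨v, k⟩ ⟨w, l⟩ h
  cases k <;> cases l <;> simp_all [joinIdx]

theorem joinLab_eq (U : V → ℝ) (u : V × ℕ → ℝ) :
    joinLab U u = fun e => (Sum.elim U u : V ⊕ (V × ℕ) → ℝ) (joinIdx e) := by
  ext ⟨v, k⟩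
  cases k <;> rfl

theorem measurable_joinLab :
    Measurable (fun p : (V → ℝ) × (V × ℕ → ℝ) => joinLab p.1 p.2) := by
  apply measurable_pi_lambda
  rintro ⟨v, k⟩
  cases k with
  | zero => exact (measurable_pi_apply v).comp measurable_fst
  | succ k => exact (measurable_pi_apply (v, k)).comp measurable_snd

theorem map_joinLab :
    ((Pu V).prod (Pu (V × ℕ))).map (fun p => joinLab p.1 p.2) = Pu (V × ℕ) := by
  have h1 := map_sumElim_Pu V (V × ℕ)
  have hm : Measurable (fun p : (V → ℝ) × (V × ℕ → ℝ) =>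
      (Sum.elim p.1 p.2 : V ⊕ (V × ℕ) → ℝ)) := by
    apply measurable_pi_lambda
    rintro (i | i)
    · exact (measurable_pi_apply i).comp measurable_fst
    · exact (measurable_pi_apply i).comp measurable_snd
  have h2 := Measure.map_infinitePi_infinitePi_of_inj (P := fun _ : V ⊕ (V × ℕ) => unif)
    (f := (joinIdx : V × ℕ → V ⊕ (V × ℕ))) joinIdx_injective
  have h3 : (fun p : (V → ℝ) × (V × ℕ → ℝ) => joinLab p.1 p.2) =
      (fun (ω : V ⊕ (V × ℕ) → ℝ) (e : V × ℕ) => ω (joinIdx e)) ∘
        (fun p : (V → ℝ) × (V × ℕ → ℝ) => (Sum.elim p.1 p.2 : V ⊕ (V × ℕ) → ℝ)) := by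
    ext p e
    rw [joinLab_eq]
    rfl
  rw [h3, ← Measure.map_map (by fun_prop) hm, h1]
  exact h2

/-- The order labels. -/
def ordLab (om : V × ℕ → ℝ) : V → ℝ := fun v => om (v, 0)

/-- The driving labels. -/
def drvLab (om : V × ℕ → ℝ) : V × ℕ → ℝ := fun e => om (e.1, e.2 + 1)

theorem ordLab_joinLab (U : V → ℝ) (u : V × ℕ → ℝ) : ordLab (joinLab U u) = U := rfl

theorem drvLab_joinLab (U : V → ℝ) (u : V × ℕ → ℝ) : drvLab (joinLab U u) = u := rfl

theorem measurable_ordLab : Measurable (ordLab : (V × ℕ → ℝ) → (V → ℝ)) :=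
  measurable_pi_lambda _ fun _ => measurable_pi_apply _

theorem measurable_drvLab : Measurable (drvLab : (V × ℕ → ℝ) → (V × ℕ → ℝ)) :=
  measurable_pi_lambda _ fun _ => measurable_pi_apply _

theorem measurePreserving_joinLab :
    MeasurePreserving (fun p : (V → ℝ) × (V × ℕ → ℝ) => joinLab p.1 p.2)
      ((Pu V).prod (Pu (V × ℕ))) (Pu (V × ℕ)) :=
  ⟨measurable_joinLab, map_joinLab⟩

theorem measurePreserving_split :
    MeasurePreserving (fun om : V × ℕ → ℝ => (ordLab om, drvLab om))
      (Pu (V × ℕ)) ((Pu V).prod (Pu (V × ℕ))) := by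
  refine ⟨measurable_ordLab.prodMk measurable_drvLab, ?_⟩
  conv_lhs => rw [← map_joinLab (V := V)]
  rw [Measure.map_map (measurable_ordLab.prodMk measurable_drvLab) measurable_joinLab]
  have : ((fun om : V × ℕ → ℝ => (ordLab om, drvLab om)) ∘
      fun p : (V → ℝ) × (V × ℕ → ℝ) => joinLab p.1 p.2) = id := by
    ext p <;> rfl
  rw [this, Measure.map_id]

/-! ## The order labels are almost surely distinct -/

theorem unif_singleton (x : ℝ) : unif {x} = 0 := by
  unfold unif
  rw [Measure.smul_apply, smul_eq_mul, mul_eq_zero]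
  right
  refine nonpos_iff_eq_zero.1 ?_
  calc volume.restrict (Set.Icc (-1 : ℝ) 1) {x} ≤ volume {x} := Measure.restrict_apply_le _ _
    _ = 0 := Real.volume_singleton

theorem ae_ne_Pu {ι : Type*} {i j : ι} (hij : i ≠ j) : ∀ᵐ u ∂(Pu ι), u i ≠ u j := by
  have h := Measure.infinitePi_map_eval_prod (P := fun _ : ι => unif) hij
  have hdiag : MeasurableSet {p : ℝ × ℝ | p.1 = p.2} :=
    measurableSet_eq_fun measurable_fst measurable_snd
  have h2 : (unif.prod unif) {p : ℝ × ℝ | p.1 = p.2} = 0 := by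
    rw [Measure.measure_prod_null hdiag]
    filter_upwards with x
    have : Prod.mk x ⁻¹' {p : ℝ × ℝ | p.1 = p.2} = {x} := by
      ext y
      simp [eq_comm]
    rw [this, unif_singleton]
    rfl
  have h3 : (Pu ι) {u : ι → ℝ | u i = u j} = 0 := by
    rw [← h, Measure.map_apply (by fun_prop) hdiag] at h2
    exact h2
  rw [ae_iff]
  simpa using h3

theorem ae_injective_Pu {ι : Type*} [Countable ι] :
    ∀ᵐ u ∂(Pu ι), Function.Injective u := by
  have h : ∀ᵐ u ∂(Pu ι), ∀ i j : ι, i ≠ j → u i ≠ u j := by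
    rw [ae_all_iff]
    intro i
    rw [ae_all_iff]
    intro j
    by_cases hij : i = j
    · filter_upwards with u h
      exact absurd hij h
    · filter_upwards [ae_ne_Pu hij] with u h _
      exact h
  filter_upwards [h] with u hu i j hij
  by_contra hne
  exact hu i j hne hij

end Vale.Agent.P161
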