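import Mathlib

open MeasureTheory

namespace Vale.Agent.P161

universe u

/-- The value of a spin: `true` is `+1` and `false` is `-1`. -/
noncomputable def spin (b : Bool) : ℝ := if b then 1 else -1

/-- The factor `(1 + θ η_u η_v) / 2` of the edge `{u, v}`. -/
noncomputable def edgeWeight {V : Type u} (θ : ℝ) (η : V → Bool) : Sym2 V → ℝ :=
  Sym2.lift ⟨fun a b => (1 + θ * spin (η a) * spin (η b)) / 2, fun a b => by ring⟩

open Classical in
/-- `μ` is the free zero-field ferromagnetic Ising measure with parameter `θ` on the graph `G`:
for every finite connected set `D` of vertices and every spin configuration `η`, the probability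
that the random spins agree with `η` on `D` is `1/2` times the product over the edges `{u, v}`
of `G` inside `D` of `(1 + θ η_u η_v) / 2`. -/
def IsFreeIsing {V : Type u} (G : SimpleGraph V) (θ : ℝ) (μ : Measure (V → Bool)) : Prop :=
  ∀ D : Finset V, (G.induce (D : Set V)).Connected → ∀ η : V → Bool,
    μ {σ | ∀ v ∈ D, σ v = η v} =
      ENNReal.ofReal ((1 / 2) * ∏ e ∈ D.sym2 with e ∈ G.edgeSet, edgeWeight θ η e)

/-- The action of a graph automorphism `g` on configurations: `(g x)_v = x_{g⁻¹ v}`. -/
def act {V : Type u} {X : Type*} {G : SimpleGraph V} (g : G ≃g G) (x : V → X) : V → X :=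
  fun v => x (g.symm v)

/-- A measure `ν` on spin configurations is a factor of IID: it is the law of `Φ(U)`, where the
labels `U_v` are independent and uniform on `[0,1]`, `Φ` is measurable, and for every graph
automorphism `g` one has `Φ(g U) = g Φ(U)` almost surely. -/
def IsFactorOfIID {V : Type u} (G : SimpleGraph V) (ν : Measure (V → Bool)) : Prop :=
  ∃ Φ : (V → unitInterval) → (V → Bool), Measurable Φ ∧
    (∀ g : G ≃g G, ∀ᵐ U ∂(Measure.infinitePi fun _ : V => (volume : Measure unitInterval)),
      Φ (act g U) = act g (Φ U)) ∧
    Measure.map Φ (Measure.infinitePi fun _ : V => (volume : Measure unitInterval)) = ν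

end Vale.Agent.P161
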