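import Mathlib
import Vale.Agent.P161.Defs

/-!
# The Markov structure of the free Ising measure on a tree (interface)
-/

open MeasureTheory

namespace Vale.Agent.P161

universe u

/-- The Markov structure of the free Ising measure on a tree: the spins are symmetric, and for an
edge `v v'`, functions of finitely many spins on the two sides of the edge satisfy the two-state
Markov splitting formula with parameter `θ`. -/
structure IsTreeIsing {V : Type u} (G : SimpleGraph V) (θ : ℝ) (μ : Measure (V → Bool)) :
    Prop where
  isProb : IsProbabilityMeasure μ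
  mean_zero : ∀ v, ∫ s, spin (s v) ∂μ = 0
  edge_split : ∀ v v', G.Adj v v' → ∀ A B : Finset V,
    (∀ a ∈ A, G.dist v a < G.dist v' a) → (∀ b ∈ B, G.dist v' b < G.dist v b) →
    ∀ f g : (V → Bool) → ℝ, DependsOn f (A : Set V) → DependsOn g (B : Set V) →
      ∫ s, f s * g s ∂μ = (∫ s, f s ∂μ) * (∫ s, g s ∂μ) +
        θ * (∫ s, spin (s v) * f s ∂μ) * (∫ s, spin (s v') * g s ∂μ)

/-! ## Spins -/

theorem spin_true : spin true = 1 := by simp [spin]
theorem spin_false : spin false = -1 := by simp [spin]

theorem spin_eq_or (b : Bool) : spin b = 1 ∨ spin b = -1 := by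
  cases b <;> simp [spin]

theorem spin_sq (b : Bool) : spin b * spin b = 1 := by
  cases b <;> simp [spin]

theorem abs_spin (b : Bool) : |spin b| = 1 := by
  cases b <;> simp [spin]

/-! ## Functions of finitely many coordinates -/

variable {V : Type u}

theorem measurable_of_dependsOn {β : Type*} [MeasurableSpace β] [Nonempty β]
    (F : (V → Bool) → β) (I : Finset V) (hF : DependsOn F (I : Set V)) : Measurable F := by
  obtain ⟨g, rfl⟩ := dependsOn_iff_exists_comp.1 hF
  exact (measurable_of_finite g).comp (measurable_pi_lambda _ fun i => measurable_pi_apply _)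

theorem integrable_of_dependsOn (μ : Measure (V → Bool)) [IsFiniteMeasure μ]
    (F : (V → Bool) → ℝ) (I : Finset V) (hF : DependsOn F (I : Set V)) : Integrable F μ := by
  have hm := measurable_of_dependsOn F I hF
  obtain ⟨g, rfl⟩ := dependsOn_iff_exists_comp.1 hF
  obtain ⟨C, hC⟩ : ∃ C : ℝ, ∀ y, ‖g y‖ ≤ C := by
    have : (Set.range fun y => ‖g y‖).Finite := Set.finite_range _
    obtain ⟨C, hC⟩ := this.bddAbove
    exact ⟨C, fun y => hC ⟨y, rfl⟩⟩
  exact Integrable.of_bound hm.aestronglyMeasurable C (ae_of_all _ fun x => hC _)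

end Vale.Agent.P161
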