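import Mathlib
import Vale.Agent.P161.Defs
import Vale.Agent.P161.TreeIsing

open MeasureTheory

namespace Vale.Agent.P161

universe u

variable {V : Type u}

theorem meas_of_dep {f : (V → Bool) → ℝ} {A : Finset V}
    (hf : DependsOn f (A : Set V)) : Measurable f := by
  obtain ⟨g, rfl⟩ := dependsOn_iff_exists_comp.mp hf
  have h1 : Measurable g := measurable_of_finite g
  refine h1.comp ?_
  exact measurable_pi_lambda _ fun i => measurable_pi_apply _

theorem bounded_of_dep {f : (V → Bool) → ℝ} {A : Finset V}
    (hf : DependsOn f (A : Set V)) : ∃ C, ∀ σ, |f σ| ≤ C := by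
  obtain ⟨g, rfl⟩ := dependsOn_iff_exists_comp.mp hf
  obtain ⟨C, hC⟩ := (Set.finite_range fun x => |g x|).bddAbove
  exact ⟨C, fun σ => hC ⟨_, rfl⟩⟩

theorem integ_of_dep {μ : Measure (V → Bool)} [IsFiniteMeasure μ]
    {f : (V → Bool) → ℝ} {A : Finset V} (hf : DependsOn f (A : Set V)) : Integrable f μ := by
  obtain ⟨C, hC⟩ := bounded_of_dep hf
  exact Integrable.of_bound (meas_of_dep hf).aestronglyMeasurable C
    (Filter.Eventually.of_forall hC)

theorem spin_mul_self (b : Bool) : spin b * spin b = 1 := by
  cases b <;> simp [spin]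

theorem spin_le_one (b : Bool) : spin b ≤ 1 := by
  cases b <;> simp [spin]

theorem neg_one_le_spin (b : Bool) : -1 ≤ spin b := by
  cases b <;> simp [spin]

theorem dep_spin (v : V) : DependsOn (fun σ : V → Bool => spin (σ v)) ({v} : Finset V) := by
  intro x y h
  simp [h v (by simp)]

theorem measurable_spin_apply (v : V) : Measurable (fun σ : V → Bool => spin (σ v)) :=
  meas_of_dep (dep_spin v)

end Vale.Agent.P161
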