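import Mathlib

/-!
# Tree geometry used in the proof for P161

Distances in trees, finite balls in locally finite graphs, and the summability of
`(dist + 1)^2 * q^dist` over a `d`-regular graph when `(d - 1) * q < 1`.
-/

open Finset

namespace Vale.Agent.P161

universe u

variable {V : Type u} {G : SimpleGraph V}

/-! ## Elementary facts on distances -/

/-- (T1) In a tree the two ends of an edge are at different distances from every vertex. -/
theorem IsTree.dist_ne (hG : G.IsTree) {v v' : V} (h : G.Adj v v') (a : V) :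
    G.dist v a ≠ G.dist v' a := by
  rw [G.dist_comm (u := v), G.dist_comm (u := v')]
  exact hG.dist_ne_of_adj a h

theorem dist_le_add_one {v v' : V} (hG : G.Connected) (h : G.Adj v v') (a : V) :
    G.dist v a ≤ G.dist v' a + 1 := by
  have h1 := hG.dist_triangle (u := v) (v := v') (w := a)
  have h2 : G.dist v v' = 1 := SimpleGraph.dist_eq_one_iff_adj.2 h
  omega

theorem IsTree.dist_cases (hG : G.IsTree) {v v' : V} (h : G.Adj v v') (a : V) :
    G.dist v a = G.dist v' a + 1 ∨ G.dist v' a = G.dist v a + 1 := by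
  have h1 := dist_le_add_one hG.connected h a
  have h2 := dist_le_add_one hG.connected h.symm a
  have h3 := IsTree.dist_ne hG h a
  omega

/-- (T2) Every vertex `v ≠ w` has a neighbour closer to `w`. -/
theorem exists_adj_dist (hG : G.Connected) {v w : V} (hvw : v ≠ w) :
    ∃ v', G.Adj v v' ∧ G.dist v' w + 1 = G.dist v w := by
  obtain ⟨p, hp⟩ := hG.exists_walk_length_eq_dist v w
  cases p with
  | nil => exact absurd rfl hvw
  | cons h q =>
    rename_i v'
    refine ⟨v', h, ?_⟩
    have h1 : G.dist v' w ≤ q.length := SimpleGraph.dist_le q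
    have h2 := dist_le_add_one hG h w
    simp only [SimpleGraph.Walk.length_cons] at hp
    omega

/-- In a tree, the neighbour closer to `w` is unique. -/
theorem IsTree.parent_unique (hG : G.IsTree) {v w a b : V} (ha : G.Adj v a) (hb : G.Adj v b)
    (hda : G.dist a w + 1 = G.dist v w) (hdb : G.dist b w + 1 = G.dist v w) : a = b := by
  obtain ⟨p, hp⟩ := hG.connected.exists_walk_length_eq_dist a w
  obtain ⟨q, hq⟩ := hG.connected.exists_walk_length_eq_dist b w
  have h1 : (SimpleGraph.Walk.cons ha p).IsPath := by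
    apply SimpleGraph.Walk.isPath_of_length_eq_dist
    simp [hp, hda]
  have h2 : (SimpleGraph.Walk.cons hb q).IsPath := by
    apply SimpleGraph.Walk.isPath_of_length_eq_dist
    simp [hq, hdb]
  have h3 := (hG.existsUnique_path v w).unique h1 h2
  have h4 := congrArg (fun r => r.getVert 1) h3
  simpa using h4

/-- In a tree, an edge `x y` going from the `v'`-side to the `v`-side of the edge `v v'` is the
edge `v' v` itself. -/
theorem IsTree.cross (hG : G.IsTree) {v v' x y : V} (h : G.Adj v v') (hxy : G.Adj x y)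
    (hx : G.dist v' x < G.dist v x) (hy : G.dist v y < G.dist v' y) : x = v' ∧ y = v := by
  have c1 := IsTree.dist_cases hG h x
  have c2 := IsTree.dist_cases hG h y
  have c3 := IsTree.dist_cases hG hxy v
  have c4 := IsTree.dist_cases hG hxy v'
  rw [G.dist_comm (u := x), G.dist_comm (u := y)] at c3 c4
  have hconn := hG.connected
  have e1 : G.dist v x = G.dist v' x + 1 := by omega
  have e2 : G.dist v' y = G.dist v y + 1 := by omega
  have e3 : G.dist v y = G.dist v' x := by omega
  by_cases hxv : x = v'
  · subst hxv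
    refine ⟨rfl, ?_⟩
    have : G.dist v y = 0 := by rw [e3]; simp
    exact ((hconn.dist_eq_zero_iff).1 this).symm
  · exfalso
    obtain ⟨z, hz1, hz2⟩ := exists_adj_dist hconn hxv
    -- `z` is a neighbour of `x` closer to `v'`; it is then also closer to `v`.
    have f1 := IsTree.dist_cases hG hz1 v
    have f2 := dist_le_add_one hconn h z
    rw [G.dist_comm (u := x), G.dist_comm (u := z)] at f1 hz2
    have f3 : G.dist v z + 1 = G.dist v x := by
      omega
    have f4 : z = y := by
      apply IsTree.parent_unique hG (w := v) hz1 hxy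
      · rw [G.dist_comm (u := z), G.dist_comm (u := x)]; exact f3
      · rw [G.dist_comm (u := y), G.dist_comm (u := x)]; omega
    subst f4
    omega

/-! ## Automorphisms -/

theorem dist_iso (g : G ≃g G) (v w : V) : G.dist (g v) (g w) = G.dist v w := by
  have key : ∀ (g : G ≃g G) (v w : V), G.Reachable v w → G.dist (g v) (g w) ≤ G.dist v w := by
    intro g v w hr
    obtain ⟨p, hp⟩ := hr.exists_walk_length_eq_dist
    rw [← hp, ← SimpleGraph.Walk.length_map g.toHom p]
    exact SimpleGraph.dist_le _
  by_cases hr : G.Reachable v w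
  · refine le_antisymm (key g v w hr) ?_
    have hr' : G.Reachable (g v) (g w) := hr.map g.toHom
    have := key g.symm (g v) (g w) hr'
    simpa using this
  · have hr' : ¬ G.Reachable (g v) (g w) := by
      intro h
      apply hr
      have := h.map g.symm.toHom
      simpa using this
    rw [SimpleGraph.dist_eq_zero_of_not_reachable hr, SimpleGraph.dist_eq_zero_of_not_reachable hr']

/-! ## Balls -/

theorem finite_ball (hG : G.Connected) [G.LocallyFinite] (v : V) (n : ℕ) :
    {w | G.dist v w ≤ n}.Finite := by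
  classical
  induction n with
  | zero =>
    refine (Set.finite_singleton v).subset ?_
    intro w hw
    have : G.dist v w = 0 := by simpa using hw
    exact ((hG.dist_eq_zero_iff).1 this).symm
  | succ n ih =>
    have hfin : (⋃ u ∈ {w | G.dist v w ≤ n}, (insert u (G.neighborSet u))).Finite := by
      apply ih.biUnion
      intro u _
      exact (Set.toFinite (G.neighborSet u)).insert u
    refine hfin.subset ?_
    intro w hw
    simp only [Set.mem_ofPred_eq] at hw
    simp only [Set.mem_iUnion, Set.mem_ofPred_eq]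
    by_cases hwv : w = v
    · exact ⟨w, by simp [hwv], Set.mem_insert _ _⟩
    · obtain ⟨u, hu1, hu2⟩ := exists_adj_dist hG hwv
      refine ⟨u, ?_, Set.mem_insert_of_mem _ hu1.symm⟩
      rw [G.dist_comm (u := u), G.dist_comm (u := w)] at hu2
      omega

/-- The closed ball of radius `n` around `v`, as a `Finset` (empty if it is infinite). -/
noncomputable def ball (G : SimpleGraph V) (v : V) (n : ℕ) : Finset V :=
  open Classical in if h : {w | G.dist v w ≤ n}.Finite then h.toFinset else ∅

theorem mem_ball (hG : G.Connected) [G.LocallyFinite] {v w : V} {n : ℕ} :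
    w ∈ ball G v n ↔ G.dist v w ≤ n := by
  classical
  unfold ball
  rw [dif_pos (finite_ball hG v n)]
  simp

theorem mem_ball_iso (hG : G.Connected) [G.LocallyFinite] (g : G ≃g G) {v w : V} {n : ℕ} :
    w ∈ ball G (g v) n ↔ g.symm w ∈ ball G v n := by
  rw [mem_ball hG, mem_ball hG]
  have : G.dist (g v) w = G.dist v (g.symm w) := by
    conv_lhs => rw [← g.apply_symm_apply w]
    exact dist_iso g v (g.symm w)
  rw [this]

theorem ball_mono (hG : G.Connected) [G.LocallyFinite] {v : V} {m n : ℕ} (h : m ≤ n) :
    ball G v m ⊆ ball G v n := by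
  intro w hw
  rw [mem_ball hG] at hw ⊢
  exact hw.trans h

theorem self_mem_ball (hG : G.Connected) [G.LocallyFinite] (v : V) (n : ℕ) :
    v ∈ ball G v n := by
  rw [mem_ball hG]; simp

theorem countable_of_locallyFinite (hG : G.Connected) [G.LocallyFinite] : Countable V := by
  obtain ⟨v⟩ := hG.nonempty
  have h : (Set.univ : Set V) = ⋃ n : ℕ, {w | G.dist v w ≤ n} := by
    ext w
    simp only [Set.mem_univ, Set.mem_iUnion, Set.mem_ofPred_eq, true_iff]
    exact ⟨G.dist v w, le_rfl⟩
  rw [← Set.countable_univ_iff, h]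
  exact Set.countable_iUnion fun n => (finite_ball hG v n).countable

/-! ## Counting spheres -/

theorem card_sphere_le (hG : G.Connected) [G.LocallyFinite] {d : ℕ}
    (hd : G.IsRegularOfDegree d) (v : V) (n : ℕ) (W : Finset V)
    (hW : ∀ w ∈ W, G.dist v w = n + 1) : W.card ≤ d * (d - 1) ^ n := by
  classical
  induction n generalizing W with
  | zero =>
    have h1 : W ⊆ G.neighborFinset v := by
      intro w hw
      have := hW w hw
      rw [SimpleGraph.mem_neighborFinset]
      exact SimpleGraph.dist_eq_one_iff_adj.1 (by simpa using this)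
    calc W.card ≤ (G.neighborFinset v).card := Finset.card_le_card h1
      _ = d := by rw [SimpleGraph.card_neighborFinset_eq_degree]; exact hd v
      _ = d * (d - 1) ^ 0 := by simp
  | succ n ih =>
    set U : Finset V := (ball G v (n + 1)).filter (fun u => G.dist v u = n + 1) with hU
    have hUd : ∀ u ∈ U, G.dist v u = n + 1 := by
      intro u hu
      exact (Finset.mem_filter.1 hu).2
    have hpar : ∀ u ∈ U, ∃ p, G.Adj u p ∧ G.dist v p = n := by
      intro u hu
      have h1 := hUd u hu
      have hne : u ≠ v := by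
        rintro rfl
        simp at h1
      obtain ⟨p, hp1, hp2⟩ := exists_adj_dist hG hne
      refine ⟨p, hp1, ?_⟩
      rw [G.dist_comm (u := p), G.dist_comm (u := u)] at hp2
      omega
    have hsub : W ⊆ U.biUnion (fun u => (G.neighborFinset u).filter
        (fun w => G.dist v w = n + 2)) := by
      intro w hw
      have h1 := hW w hw
      have hne : w ≠ v := by
        rintro rfl
        simp at h1
      obtain ⟨p, hp1, hp2⟩ := exists_adj_dist hG hne
      rw [G.dist_comm (u := p), G.dist_comm (u := w)] at hp2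
      rw [Finset.mem_biUnion]
      refine ⟨p, ?_, ?_⟩
      · rw [hU, Finset.mem_filter, mem_ball hG]
        omega
      · rw [Finset.mem_filter, SimpleGraph.mem_neighborFinset]
        exact ⟨hp1.symm, by omega⟩
    have hcard : ∀ u ∈ U, ((G.neighborFinset u).filter (fun w => G.dist v w = n + 2)).card
        ≤ d - 1 := by
      intro u hu
      obtain ⟨p, hp1, hp2⟩ := hpar u hu
      have h2 : (G.neighborFinset u).filter (fun w => G.dist v w = n + 2) ⊆
          (G.neighborFinset u).erase p := by
        intro w hw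
        rw [Finset.mem_filter] at hw
        rw [Finset.mem_erase]
        refine ⟨?_, hw.1⟩
        rintro rfl
        omega
      calc _ ≤ ((G.neighborFinset u).erase p).card := Finset.card_le_card h2
        _ = (G.neighborFinset u).card - 1 := Finset.card_erase_of_mem (by simpa using hp1)
        _ = d - 1 := by rw [SimpleGraph.card_neighborFinset_eq_degree]; rw [hd u]
    calc W.card ≤ (U.biUnion (fun u => (G.neighborFinset u).filter
        (fun w => G.dist v w = n + 2))).card := Finset.card_le_card hsub
      _ ≤ U.card * (d - 1) := Finset.card_biUnion_le_card_mul _ _ _ hcard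
      _ ≤ d * (d - 1) ^ n * (d - 1) := Nat.mul_le_mul_right _ (ih U hUd)
      _ = d * (d - 1) ^ (n + 1) := by rw [pow_succ, mul_assoc]

theorem card_sphere_zero_le (hG : G.Connected) (v : V) (W : Finset V)
    (hW : ∀ w ∈ W, G.dist v w = 0) : W.card ≤ 1 := by
  rw [Finset.card_le_one]
  intro a ha b hb
  have h1 := (hG.dist_eq_zero_iff).1 (hW a ha)
  have h2 := (hG.dist_eq_zero_iff).1 (hW b hb)
  rw [← h1, ← h2]

/-- (T4) Summability of `(dist + 1)^2 * q^dist` in a `d`-regular graph with `(d-1) q < 1`,
uniformly in the centre. -/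
theorem exists_kernel_bound (hG : G.Connected) [G.LocallyFinite] {d : ℕ}
    (hd : G.IsRegularOfDegree d) {q : ℝ} (hq : 0 ≤ q) (hq1 : ((d : ℝ) - 1) * q < 1) :
    ∃ C : ℝ, 0 ≤ C ∧ ∀ (v : V) (W : Finset V),
      ∑ w ∈ W, ((G.dist v w : ℝ) + 1) ^ 2 * q ^ (G.dist v w) ≤ C := by
  classical
  set r : ℝ := ((d - 1 : ℕ) : ℝ) * q with hr
  have hr0 : 0 ≤ r := by positivity
  have hr1 : r < 1 := by
    rcases Nat.eq_zero_or_pos d with h | h
    · simp [hr, h]
    · rw [hr, Nat.cast_sub h]
      simpa using hq1
  -- bound for the `n`-th sphere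
  set F : ℕ → ℝ := fun n => ((n : ℝ) + 1) ^ 2 * q ^ n with hF
  have hF0 : ∀ n, 0 ≤ F n := fun n => by positivity
  set B : ℕ → ℝ := fun n => 4 * (d : ℝ) * q * (((n : ℝ) + 1) ^ 2 * r ^ n) with hB
  have hB0 : ∀ n, 0 ≤ B n := fun n => by positivity
  have hBsum : Summable B := by
    apply Summable.mul_left
    have hnorm : ‖r‖ < 1 := by rw [Real.norm_eq_abs, abs_of_nonneg hr0]; exact hr1
    have h2 := summable_pow_mul_geometric_of_norm_lt_one 2 hnorm
    have h1 := summable_pow_mul_geometric_of_norm_lt_one 1 hnorm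
    have h0 := summable_pow_mul_geometric_of_norm_lt_one 0 hnorm
    refine ((h2.add (h1.mul_left 2)).add h0).congr ?_
    intro n
    simp
    ring
  refine ⟨1 + ∑' n, B n, ?_, ?_⟩
  · have : 0 ≤ ∑' n, B n := tsum_nonneg hB0
    linarith
  intro v W
  set N : ℕ := W.sup (fun w => G.dist v w) with hN
  have hmaps : ∀ w ∈ W, G.dist v w ∈ Finset.range (N + 1) := by
    intro w hw
    rw [Finset.mem_range]
    exact Nat.lt_succ_of_le (Finset.le_sup (f := fun w => G.dist v w) hw)
  have hsplit : ∑ w ∈ W, F (G.dist v w) =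
      ∑ n ∈ Finset.range (N + 1), ((W.filter (fun w => G.dist v w = n)).card : ℝ) * F n := by
    rw [← Finset.sum_fiberwise_of_maps_to hmaps]
    apply Finset.sum_congr rfl
    intro n _
    rw [Finset.sum_congr rfl (g := fun _ => F n)]
    · simp
    · intro w hw
      rw [(Finset.mem_filter.1 hw).2]
  change ∑ w ∈ W, F (G.dist v w) ≤ _
  rw [hsplit, Finset.sum_range_succ']
  have h0 : ((W.filter (fun w => G.dist v w = 0)).card : ℝ) * F 0 ≤ 1 := by
    have h1 : (W.filter (fun w => G.dist v w = 0)).card ≤ 1 :=
      card_sphere_zero_le hG v _ (fun w hw => (Finset.mem_filter.1 hw).2)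
    have h2 : F 0 = 1 := by simp [hF]
    rw [h2, mul_one]
    exact_mod_cast h1
  have hn : ∀ n, ((W.filter (fun w => G.dist v w = n + 1)).card : ℝ) * F (n + 1) ≤ B n := by
    intro n
    have h1 : (W.filter (fun w => G.dist v w = n + 1)).card ≤ d * (d - 1) ^ n :=
      card_sphere_le hG hd v n _ (fun w hw => (Finset.mem_filter.1 hw).2)
    have h2 : ((W.filter (fun w => G.dist v w = n + 1)).card : ℝ) ≤
        (d : ℝ) * ((d - 1 : ℕ) : ℝ) ^ n := by
      exact_mod_cast h1
    calc ((W.filter (fun w => G.dist v w = n + 1)).card : ℝ) * F (n + 1)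
        ≤ (d : ℝ) * ((d - 1 : ℕ) : ℝ) ^ n * F (n + 1) :=
          mul_le_mul_of_nonneg_right h2 (hF0 _)
      _ = (d : ℝ) * q * (((n : ℝ) + 2) ^ 2 * r ^ n) := by
          simp only [hF, hr, mul_pow, pow_succ]
          push_cast
          ring
      _ ≤ (d : ℝ) * q * ((4 * ((n : ℝ) + 1) ^ 2) * r ^ n) := by
          apply mul_le_mul_of_nonneg_left _ (by positivity)
          apply mul_le_mul_of_nonneg_right _ (by positivity)
          have : (0 : ℝ) ≤ n := Nat.cast_nonneg n
          nlinarith
      _ = B n := by simp only [hB]; ring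
  have hs : ∑ n ∈ Finset.range N, ((W.filter (fun w => G.dist v w = n + 1)).card : ℝ) * F (n + 1)
      ≤ ∑' n, B n :=
    (Finset.sum_le_sum fun n _ => hn n).trans (hBsum.sum_le_tsum _ fun n _ => hB0 n)
  linarith

/-! ## Names used by the other files -/

theorem dist_ne_of_adj (hG : G.IsTree) {v v' : V} (h : G.Adj v v') (a : V) :
    G.dist v a ≠ G.dist v' a :=
  IsTree.dist_ne hG h a

theorem exists_adj_closer (hG : G.Connected) {v w : V} (h : v ≠ w) :
    ∃ v', G.Adj v v' ∧ G.dist v' w + 1 = G.dist v w :=
  exists_adj_dist hG h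

theorem sum_bound (hG : G.Connected) [G.LocallyFinite] {d : ℕ} (hd : G.IsRegularOfDegree d)
    {q : ℝ} (hq : 0 ≤ q) (hq1 : ((d : ℝ) - 1) * q < 1) :
    ∃ C : ℝ, 0 ≤ C ∧ ∀ (v : V) (W : Finset V),
      ∑ w ∈ W, ((G.dist v w : ℝ) + 1) ^ 2 * q ^ G.dist v w ≤ C :=
  exists_kernel_bound hG hd hq hq1

end Vale.Agent.P161
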