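import Mathlib
import Vale.Agent.P161.Tree
import Vale.Agent.P161.TreeIsing
import Vale.Agent.P161.DepFin

open MeasureTheory

namespace Vale.Agent.P161

universe u

variable {V : Type u} {ι : Type*}

/-- The likelihood of the observations `c i`, `i ∈ S`, of the spins at `site i`. -/
noncomputable def wt (site : ι → V) (S : Finset ι) (c : ι → ℝ) (σ : V → Bool) : ℝ :=
  ∏ i ∈ S, (1 + c i * spin (σ (site i)))

noncomputable def evid (μ : Measure (V → Bool)) (site : ι → V) (S : Finset ι) (c : ι → ℝ) : ℝ :=
  ∫ σ, wt site S c σ ∂μ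

/-- The posterior mean of the spin at `v`. -/
noncomputable def mag (μ : Measure (V → Bool)) (site : ι → V) (S : Finset ι) (c : ι → ℝ)
    (v : V) : ℝ :=
  (∫ σ, spin (σ v) * wt site S c σ ∂μ) / evid μ site S c

/-- The posterior mean of the product of the spins at `v` and `w`. -/
noncomputable def cor (μ : Measure (V → Bool)) (site : ι → V) (S : Finset ι) (c : ι → ℝ)
    (v w : V) : ℝ :=
  (∫ σ, spin (σ v) * spin (σ w) * wt site S c σ ∂μ) / evid μ site S c

noncomputable def cov (μ : Measure (V → Bool)) (site : ι → V) (S : Finset ι) (c : ι → ℝ)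
    (v w : V) : ℝ :=
  cor μ site S c v w - mag μ site S c v * mag μ site S c w

noncomputable def Cθ (θ : ℝ) : ℝ := 2 + 4 / (1 - θ) ^ 2

section basic

variable {site : ι → V} {S : Finset ι} {c c' : ι → ℝ}

theorem wt_congr (h : ∀ i ∈ S, c i = c' i) (σ : V → Bool) : wt site S c σ = wt site S c' σ := by
  unfold wt
  exact Finset.prod_congr rfl fun i hi => by rw [h i hi]

theorem evid_congr {μ : Measure (V → Bool)} (h : ∀ i ∈ S, c i = c' i) :
    evid μ site S c = evid μ site S c' := by
  unfold evid
  exact integral_congr_ae (Filter.Eventually.of_forall fun σ => wt_congr h σ)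

theorem mag_congr {μ : Measure (V → Bool)} (h : ∀ i ∈ S, c i = c' i) (v : V) :
    mag μ site S c v = mag μ site S c' v := by
  unfold mag
  rw [evid_congr h]
  congr 1
  exact integral_congr_ae (Filter.Eventually.of_forall fun σ => by simp only [wt_congr h σ])

theorem cor_congr {μ : Measure (V → Bool)} (h : ∀ i ∈ S, c i = c' i) (v w : V) :
    cor μ site S c v w = cor μ site S c' v w := by
  unfold cor
  rw [evid_congr h]
  congr 1
  exact integral_congr_ae (Filter.Eventually.of_forall fun σ => by simp only [wt_congr h σ])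

open Classical in
theorem dependsOn_wt : DependsOn (wt site S c) ((S.image site : Finset V) : Set V) := by
  intro x y h
  unfold wt
  refine Finset.prod_congr rfl fun i hi => ?_
  rw [h (site i) (by simpa using ⟨i, hi, rfl⟩)]

theorem exists_le_wt (hc : ∀ i ∈ S, |c i| < 1) : ∃ ε : ℝ, 0 < ε ∧ ∀ σ, ε ≤ wt site S c σ := by
  refine ⟨∏ i ∈ S, (1 - |c i|), Finset.prod_pos fun i hi => by linarith [hc i hi], fun σ => ?_⟩
  unfold wt
  refine Finset.prod_le_prod (fun i hi => by linarith [hc i hi]) fun i hi => ?_
  have h1 : |c i * spin (σ (site i))| = |c i| := by rw [abs_mul, abs_spin, mul_one]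
  have h2 := neg_abs_le (c i * spin (σ (site i)))
  rw [h1] at h2
  linarith

theorem wt_pos (hc : ∀ i ∈ S, |c i| < 1) (σ : V → Bool) : 0 < wt site S c σ := by
  obtain ⟨ε, hε, h⟩ := exists_le_wt (site := site) hc
  exact hε.trans_le (h σ)

variable {μ : Measure (V → Bool)} [IsProbabilityMeasure μ]

theorem integrable_wt : Integrable (wt site S c) μ := by
  classical exact integ_of_dep dependsOn_wt

omit [IsProbabilityMeasure μ] in
theorem integrable_spin_mul {f : (V → Bool) → ℝ} (hf : Integrable f μ) (v : V) :
    Integrable (fun σ => spin (σ v) * f σ) μ := by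
  refine hf.bdd_mul (c := 1) (measurable_spin_apply v).aestronglyMeasurable ?_
  exact Filter.Eventually.of_forall fun σ => by simp [abs_spin]

theorem evid_pos (hc : ∀ i ∈ S, |c i| < 1) : 0 < evid μ site S c := by
  obtain ⟨ε, hε, h⟩ := exists_le_wt (site := site) hc
  unfold evid
  calc 0 < ε := hε
    _ = ∫ _, ε ∂μ := by simp
    _ ≤ _ := integral_mono (integrable_const _) integrable_wt h

theorem abs_mag_le (hc : ∀ i ∈ S, |c i| < 1) (v : V) :
    |mag μ site S c v| ≤ 1 := by
  have hZ := evid_pos (μ := μ) (site := site) hc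
  unfold mag
  rw [abs_div, abs_of_pos hZ, div_le_one hZ]
  calc |∫ σ, spin (σ v) * wt site S c σ ∂μ| ≤ ∫ σ, |spin (σ v) * wt site S c σ| ∂μ :=
        abs_integral_le_integral_abs
    _ = evid μ site S c := by
        unfold evid
        refine integral_congr_ae (Filter.Eventually.of_forall fun σ => ?_)
        simp only [abs_mul, abs_spin, one_mul]
        exact abs_of_pos (wt_pos hc σ)

theorem abs_cor_le (hc : ∀ i ∈ S, |c i| < 1) (v w : V) :
    |cor μ site S c v w| ≤ 1 := by
  have hZ := evid_pos (μ := μ) (site := site) hc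
  unfold cor
  rw [abs_div, abs_of_pos hZ, div_le_one hZ]
  calc |∫ σ, spin (σ v) * spin (σ w) * wt site S c σ ∂μ|
      ≤ ∫ σ, |spin (σ v) * spin (σ w) * wt site S c σ| ∂μ :=
        abs_integral_le_integral_abs
    _ = evid μ site S c := by
        unfold evid
        refine integral_congr_ae (Filter.Eventually.of_forall fun σ => ?_)
        simp only [abs_mul, abs_spin, one_mul]
        exact abs_of_pos (wt_pos hc σ)

theorem abs_mag_lt (hmean : ∀ v, ∫ σ, spin (σ v) ∂μ = 0) (hc : ∀ i ∈ S, |c i| < 1) (v : V) :
    |mag μ site S c v| < 1 := by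
  have hZ := evid_pos (μ := μ) (site := site) hc
  obtain ⟨ε, hε, h⟩ := exists_le_wt (site := site) hc
  have hI : Integrable (fun σ : V → Bool => spin (σ v)) μ :=
    integ_of_dep (dep_spin v)
  have hW : Integrable (wt site S c) μ := integrable_wt
  have hSW := integrable_spin_mul hW v
  have key : ∀ t : ℝ, |t| = 1 → 0 < evid μ site S c - t * ∫ σ, spin (σ v) * wt site S c σ ∂μ := by
    intro t ht
    have e1 : evid μ site S c - t * ∫ σ, spin (σ v) * wt site S c σ ∂μ =
        ∫ σ, (1 - t * spin (σ v)) * wt site S c σ ∂μ := by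
      unfold evid
      rw [← integral_const_mul, ← integral_sub hW (hSW.const_mul t)]
      refine integral_congr_ae (Filter.Eventually.of_forall fun σ => ?_)
      simp only
      ring
    rw [e1]
    have e2 : ∫ σ, (1 - t * spin (σ v)) * ε ∂μ = ε := by
      rw [integral_mul_const, integral_sub (integrable_const _) (hI.const_mul t),
        integral_const_mul, hmean v]
      simp
    calc 0 < ε := hε
      _ = ∫ σ, (1 - t * spin (σ v)) * ε ∂μ := e2.symm
      _ ≤ _ := by
        refine integral_mono (((integrable_const _).sub (hI.const_mul t)).mul_const ε) ?_ ?_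
        · have : (fun σ => (1 - t * spin (σ v)) * wt site S c σ) =
              fun σ => wt site S c σ - t * (spin (σ v) * wt site S c σ) := by
            ext σ; ring
          rw [this]
          exact hW.sub (hSW.const_mul t)
        · intro σ
          refine mul_le_mul_of_nonneg_left (h σ) ?_
          have h1 : |t * spin (σ v)| = 1 := by rw [abs_mul, ht, abs_spin, one_mul]
          linarith [le_abs_self (t * spin (σ v))]
  unfold mag
  rw [abs_div, abs_of_pos hZ, div_lt_one hZ, abs_lt]
  constructor
  · have := key (-1) (by simp)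
    linarith
  · have := key 1 (by simp)
    linarith

theorem cor_self (hc : ∀ i ∈ S, |c i| < 1) (v : V) : cor μ site S c v v = 1 := by
  have hZ := evid_pos (μ := μ) (site := site) hc
  unfold cor
  simp only [spin_mul_self, one_mul]
  exact div_self hZ.ne'

end basic

end Vale.Agent.P161
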