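import Mathlib
import Vale.Agent.P161.Alg
import Vale.Agent.P161.Posterior

open MeasureTheory

namespace Vale.Agent.P161

universe u

section General

variable {V : Type u} {ι : Type*} {R : Type*} [LinearOrder R]

open Classical in
/-- The events of `S` that come strictly before `e`. -/
noncomputable def pre (r : ι → R) (S : Finset ι) (e : ι) : Finset ι :=
  S.filter (fun e' => r e' < r e)

/-- The iterates of the map whose fixed point is the sampler. -/
noncomputable def sampIter (μ : Measure (V → Bool)) (γ : ℝ) (site : ι → V) (r : ι → R)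
    (S : Finset ι) (u : ι → ℝ) : ℕ → ι → ℝ
  | 0 => fun _ => 0
  | n + 1 => fun e =>
      T (γ * mag μ site (pre r S e) (fun i => γ * sampIter μ γ site r S u n i) (site e)) (u e)

/-- The sequential sampler of noisy observations, driven by the labels `u`. -/
noncomputable def samp (μ : Measure (V → Bool)) (γ : ℝ) (site : ι → V) (r : ι → R)
    (S : Finset ι) (u : ι → ℝ) : ι → ℝ :=
  sampIter μ γ site r S u (S.card + 1)

variable {μ : Measure (V → Bool)} {γ : ℝ} {site : ι → V} {r : ι → R} {S S' : Finset ι}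
  {u u' : ι → ℝ}

theorem mem_pre {e i : ι} : i ∈ pre r S e ↔ i ∈ S ∧ r i < r e := by
  simp [pre]

theorem pre_pre {e i : ι} (h : r i ≤ r e) : pre r (pre r S e) i = pre r S i := by
  ext j
  simp only [mem_pre]
  exact ⟨fun h' => ⟨h'.1.1, h'.2⟩, fun h' => ⟨⟨h'.1, h'.2.trans_le h⟩, h'.2⟩⟩

theorem card_pre_lt {e i : ι} (hi : i ∈ pre r S e) : (pre r S i).card < (pre r S e).card := by
  refine Finset.card_lt_card ⟨fun j hj => ?_, fun h => ?_⟩
  · rw [mem_pre] at hj hi ⊢
    exact ⟨hj.1, hj.2.trans hi.2⟩
  · have := h hi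
    rw [mem_pre] at this
    exact lt_irrefl _ this.2

theorem sampIter_congr (μ : Measure (V → Bool)) (γ : ℝ) (site : ι → V) (m : ℕ) :
    ∀ (S S' : Finset ι) (e : ι) (n n' : ℕ), (pre r S e).card ≤ m →
      pre r S e = pre r S' e → (∀ i ∈ pre r S e, u i = u' i) → u e = u' e →
      (pre r S e).card < n → (pre r S e).card < n' →
      sampIter μ γ site r S u n e = sampIter μ γ site r S' u' n' e := by
  induction m with
  | zero =>
    intro S S' e n n' h0 h hu hue hn hn'
    obtain ⟨k, rfl⟩ : ∃ k, n = k + 1 := ⟨n - 1, by omega⟩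
    obtain ⟨k', rfl⟩ : ∃ k', n' = k' + 1 := ⟨n' - 1, by omega⟩
    simp only [sampIter]
    rw [← h, hue]
    congr 2
    refine mag_congr (fun i hi => ?_) _
    have : (pre r S e).card = 0 := by omega
    rw [Finset.card_eq_zero] at this
    rw [this] at hi
    simp at hi
  | succ m ih =>
    intro S S' e n n' h0 h hu hue hn hn'
    obtain ⟨k, rfl⟩ : ∃ k, n = k + 1 := ⟨n - 1, by omega⟩
    obtain ⟨k', rfl⟩ : ∃ k', n' = k' + 1 := ⟨n' - 1, by omega⟩
    simp only [sampIter]
    rw [← h, hue]
    congr 2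
    refine mag_congr (fun i hi => ?_) _
    congr 1
    have hi' := mem_pre.mp hi
    have hc := card_pre_lt hi
    refine ih S S' i k k' (by omega) ?_ (fun j hj => ?_) (hu i hi) (by omega) (by omega)
    · rw [← pre_pre (S := S) hi'.2.le, ← pre_pre (S := S') hi'.2.le, h]
    · refine hu j ?_
      rw [mem_pre] at hj ⊢
      exact ⟨hj.1, hj.2.trans hi'.2⟩

theorem card_pre_le (r : ι → R) (S : Finset ι) (e : ι) : (pre r S e).card ≤ S.card :=
  Finset.card_le_card (Finset.filter_subset _ _)

theorem samp_congr (μ : Measure (V → Bool)) (γ : ℝ) (site : ι → V) {e : ι}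
    (h : pre r S e = pre r S' e) (hu : ∀ i ∈ pre r S e, u i = u' i) (hue : u e = u' e) :
    samp μ γ site r S u e = samp μ γ site r S' u' e := by
  refine sampIter_congr μ γ site _ S S' e _ _ le_rfl h hu hue ?_ ?_
  · exact Nat.lt_succ_of_le (card_pre_le r S e)
  · rw [h]; exact Nat.lt_succ_of_le (card_pre_le r S' e)

theorem samp_eq (μ : Measure (V → Bool)) (γ : ℝ) (site : ι → V) (r : ι → R)
    (S : Finset ι) (u : ι → ℝ) (e : ι) :
    samp μ γ site r S u e =
      T (γ * mag μ site (pre r S e) (fun i => γ * samp μ γ site r S u i) (site e)) (u e) := by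
  have h1 : samp μ γ site r S u e = sampIter μ γ site r S u (S.card + 1 + 1) e := by
    refine sampIter_congr μ γ site _ S S e _ _ le_rfl rfl (fun _ _ => rfl) rfl ?_ ?_
    · exact Nat.lt_succ_of_le (card_pre_le r S e)
    · exact (Nat.lt_succ_of_le (card_pre_le r S e)).trans (Nat.lt_succ_self _)
  rw [h1]
  rfl

theorem abs_samp_le [IsProbabilityMeasure μ] (h0 : 0 ≤ γ) (h1 : γ < 1) (e : ι) :
    |samp μ γ site r S u e| ≤ 1 := by
  have key : ∀ n i, |sampIter μ γ site r S u n i| ≤ 1 := by
    intro n
    induction n with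
    | zero => intro i; simp [sampIter]
    | succ n ih =>
      intro i
      simp only [sampIter]
      refine abs_T_le ?_ _
      have h2 : |mag μ site (pre r S i) (fun i => γ * sampIter μ γ site r S u n i) (site i)| ≤ 1 := by
        refine abs_mag_le (fun j _ => ?_) _
        rw [abs_mul, abs_of_nonneg h0]
        calc γ * |sampIter μ γ site r S u n j| ≤ γ * 1 := mul_le_mul_of_nonneg_left (ih j) h0
          _ < 1 := by linarith
      rw [abs_mul, abs_of_nonneg h0]
      calc γ * _ ≤ γ * 1 := mul_le_mul_of_nonneg_left h2 h0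
        _ < 1 := by linarith
  exact key _ e

theorem wt_pre_eq (r : ι → R) (S : Finset ι) (e : ι) (c : ι → ℝ) (σ : V → Bool) :
    wt site (pre r S e) c σ =
      ∏ i ∈ S, (if r i < r e then (1 + c i * spin (σ (site i))) else 1) := by
  classical
  unfold wt pre
  rw [Finset.prod_filter]

theorem measurable_sampIter [Countable V] [IsProbabilityMeasure μ] {Ω : Type*}
    [MeasurableSpace Ω] {r : Ω → ι → R} {u : Ω → ι → ℝ}
    (hr : ∀ i j, MeasurableSet {ω | r ω i < r ω j}) (hu : ∀ i, Measurable fun ω => u ω i)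
    (n : ℕ) : ∀ e : ι, Measurable fun ω => sampIter μ γ site (r ω) S (u ω) n e := by
  induction n with
  | zero => intro e; simp only [sampIter]; exact measurable_const
  | succ n ih =>
    intro e
    simp only [sampIter]
    have hwt : Measurable (fun p : Ω × (V → Bool) => wt site (pre (r p.1) S e)
        (fun i => γ * sampIter μ γ site (r p.1) S (u p.1) n i) p.2) := by
      simp only [wt_pre_eq]
      refine Finset.measurable_fun_prod _ fun i _ => ?_
      refine Measurable.ite ?_ ?_ measurable_const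
      · exact (hr i e).preimage measurable_fst
      · refine measurable_const.add (((measurable_const.mul ((ih i).comp measurable_fst))).mul ?_)
        exact (measurable_spin_apply (site i)).comp measurable_snd
    have hmag : Measurable (fun ω => mag μ site (pre (r ω) S e)
        (fun i => γ * sampIter μ γ site (r ω) S (u ω) n i) (site e)) := by
      unfold mag evid
      refine Measurable.div ?_ ?_
      · have h1 : Measurable (fun p : Ω × (V → Bool) => spin (p.2 (site e)) *
            wt site (pre (r p.1) S e)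
              (fun i => γ * sampIter μ γ site (r p.1) S (u p.1) n i) p.2) :=
          ((measurable_spin_apply (site e)).comp measurable_snd).mul hwt
        exact (h1.stronglyMeasurable.integral_prod_right (ν := μ)).measurable
      · exact (hwt.stronglyMeasurable.integral_prod_right (ν := μ)).measurable
    exact measurable_T.comp ((measurable_const.mul hmag).prodMk (hu e))

theorem measurable_samp [Countable V] [IsProbabilityMeasure μ] {Ω : Type*} [MeasurableSpace Ω]
    {r : Ω → ι → R} {u : Ω → ι → ℝ} (hr : ∀ i j, MeasurableSet {ω | r ω i < r ω j})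
    (hu : ∀ i, Measurable fun ω => u ω i) (e : ι) :
    Measurable fun ω => samp μ γ site (r ω) S (u ω) e :=
  measurable_sampIter hr hu _ e

theorem wt_map (φ : ι ≃ ι) (g : V ≃ V) (hφ : ∀ i, site (φ i) = g (site i)) (P : Finset ι)
    (c : ι → ℝ) (σ : V → Bool) :
    wt site (P.map φ.toEmbedding) c (fun v => σ (g.symm v)) = wt site P (c ∘ φ) σ := by
  unfold wt
  rw [Finset.prod_map]
  refine Finset.prod_congr rfl fun i _ => ?_
  simp [hφ]

theorem mag_map (φ : ι ≃ ι) (g : V ≃ V) (hφ : ∀ i, site (φ i) = g (site i))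
    (hμ : μ.map (fun σ v => σ (g.symm v)) = μ) (P : Finset ι) (c : ι → ℝ) (v : V) :
    mag μ site (P.map φ.toEmbedding) c (g v) = mag μ site P (c ∘ φ) v := by
  have hm : Measurable (fun (σ : V → Bool) (v : V) => σ (g.symm v)) :=
    measurable_pi_lambda _ fun v => measurable_pi_apply _
  unfold mag evid
  rw [← hμ]
  classical
  congr 1
  · rw [hμ, ← hμ, integral_map hm.aemeasurable, hμ]
    · refine integral_congr_ae (Filter.Eventually.of_forall fun σ => ?_)
      simp only [wt_map φ g hφ, Equiv.symm_apply_apply]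
    · exact ((measurable_spin_apply (g v)).mul
        (meas_of_dep dependsOn_wt)).aestronglyMeasurable
  · rw [hμ, ← hμ, integral_map hm.aemeasurable, hμ]
    · refine integral_congr_ae (Filter.Eventually.of_forall fun σ => ?_)
      simp only [wt_map φ g hφ]
    · exact (meas_of_dep dependsOn_wt).aestronglyMeasurable

theorem pre_map (φ : ι ≃ ι) (r : ι → R) (S : Finset ι) (e : ι) :
    pre r (S.map φ.toEmbedding) (φ e) = (pre (r ∘ φ) S e).map φ.toEmbedding := by
  ext j
  simp only [mem_pre, Finset.mem_map, Equiv.coe_toEmbedding, Function.comp_apply]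
  constructor
  · rintro ⟨⟨i, hi, rfl⟩, h⟩
    exact ⟨i, ⟨hi, h⟩, rfl⟩
  · rintro ⟨i, ⟨hi, h⟩, rfl⟩
    exact ⟨⟨i, hi, rfl⟩, h⟩

theorem sampIter_equivariant (φ : ι ≃ ι) (g : V ≃ V) (hφ : ∀ i, site (φ i) = g (site i))
    (hμ : μ.map (fun σ v => σ (g.symm v)) = μ) (n : ℕ) : ∀ e : ι,
    sampIter μ γ site r (S.map φ.toEmbedding) u n (φ e) =
      sampIter μ γ site (r ∘ φ) S (u ∘ φ) n e := by
  induction n with
  | zero => intro e; rfl
  | succ n ih =>
    intro e
    simp only [sampIter]
    rw [pre_map, hφ, mag_map φ g hφ hμ]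
    congr 2
    congr 1
    funext i
    simp only [Function.comp_apply, ih]

theorem samp_equivariant (φ : ι ≃ ι) (g : V ≃ V) (hφ : ∀ i, site (φ i) = g (site i))
    (hμ : μ.map (fun σ v => σ (g.symm v)) = μ) (e : ι) :
    samp μ γ site r (S.map φ.toEmbedding) u (φ e) =
      samp μ γ site (r ∘ φ) S (u ∘ φ) e := by
  unfold samp
  rw [Finset.card_map]
  exact sampIter_equivariant φ g hφ hμ _ e

end General

section Events

variable {V : Type u}

/-- The order of the updates: first by the round, then by the label of the vertex. -/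
noncomputable def rk (U : V → ℝ) (e : V × ℕ) : ℕ ×ₗ ℝ := toLex (e.2, U e.1)

theorem rk_lt {U : V → ℝ} {e e' : V × ℕ} :
    rk U e < rk U e' ↔ e.2 < e'.2 ∨ (e.2 = e'.2 ∧ U e.1 < U e'.1) := by
  simp [rk, Prod.Lex.toLex_lt_toLex]

/-- The observation `e = (v, k)` produced by the sampler on the finite set `D` of vertices. -/
noncomputable def ssamp (μ : Measure (V → Bool)) (γ : ℝ) (D : Finset V) (U : V → ℝ)
    (u : V × ℕ → ℝ) (e : V × ℕ) : ℝ :=
  samp μ γ Prod.fst (rk U) (D ×ˢ Finset.range (e.2 + 1)) u e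

theorem ssamp_eq (μ : Measure (V → Bool)) (γ : ℝ) (D : Finset V) (U : V → ℝ)
    (u : V × ℕ → ℝ) {e : V × ℕ} {K : ℕ} (hK : e.2 < K) :
    ssamp μ γ D U u e = samp μ γ Prod.fst (rk U) (D ×ˢ Finset.range K) u e := by
  unfold ssamp
  refine samp_congr μ γ Prod.fst ?_ (fun _ _ => rfl) rfl
  ext j
  simp only [mem_pre, Finset.mem_product, Finset.mem_range, rk_lt]
  constructor
  · rintro ⟨⟨h1, h2⟩, h3⟩
    exact ⟨⟨h1, by omega⟩, h3⟩
  · rintro ⟨⟨h1, h2⟩, h3⟩
    refine ⟨⟨h1, ?_⟩, h3⟩
    rcases h3 with h3 | h3 <;> omega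

end Events

end Vale.Agent.P161
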