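import Mathlib
import Vale.Agent.P161.Ising
import Vale.Agent.P161.Sampler
import Vale.Agent.P161.Labels

/-!
# The infinite-volume observations: measurability and equivariance
-/

open MeasureTheory Filter Topology

namespace Vale.Agent.P161

universe u

variable {V : Type u} {G : SimpleGraph V} {θ γ : ℝ} {μ : Measure (V → Bool)}

/-- The action of an automorphism on families of labels. -/
def actLab (g : G ≃g G) (om : V × ℕ → ℝ) : V × ℕ → ℝ := fun e => om (g.symm e.1, e.2)

theorem measurable_actLab (g : G ≃g G) : Measurable (actLab g) :=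
  measurable_pi_lambda _ fun _ => measurable_pi_apply _

/-- The limit of the observation `e` produced by the samplers on large balls. -/
noncomputable def slim (G : SimpleGraph V) (μ : Measure (V → Bool)) (γ : ℝ)
    (om : V × ℕ → ℝ) (e : V × ℕ) : ℝ :=
  limsup (fun n : ℕ => ssamp μ γ (ball G e.1 n) (ordLab om) (drvLab om) e) atTop

open Classical in
theorem map_ball (hG : G.Connected) [G.LocallyFinite] (g : G ≃g G) (v : V) (n : ℕ) (K : ℕ)
    (φ : (V × ℕ) ≃ (V × ℕ)) (hφ : ∀ e, φ e = (g e.1, e.2)) :
    (ball G v n ×ˢ Finset.range K).map φ.toEmbedding = ball G (g v) n ×ˢ Finset.range K := by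
  ext ⟨w, k⟩
  simp only [Finset.mem_map, Finset.mem_product, Equiv.coe_toEmbedding]
  constructor
  · rintro ⟨⟨w', k'⟩, ⟨h1, h2⟩, h3⟩
    rw [hφ] at h3
    simp only [Prod.mk.injEq] at h3
    obtain ⟨rfl, rfl⟩ := h3
    refine ⟨?_, h2⟩
    rw [mem_ball_iso hG g]
    simpa using h1
  · rintro ⟨h1, h2⟩
    refine ⟨(g.symm w, k), ⟨?_, h2⟩, ?_⟩
    · exact (mem_ball_iso hG g).1 h1
    · rw [hφ]
      simp

/-- Finite-volume equivariance. -/
theorem ssamp_act (hG : G.IsTree) [G.LocallyFinite] (hμ : IsTreeIsing G θ μ) (g : G ≃g G)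
    (om : V × ℕ → ℝ) (v : V) (n k : ℕ) :
    ssamp μ γ (ball G v n) (ordLab (actLab g om)) (drvLab (actLab g om)) (v, k) =
      ssamp μ γ (ball G (g.symm v) n) (ordLab om) (drvLab om) (g.symm v, k) := by
  classical
  set φ : (V × ℕ) ≃ (V × ℕ) := Equiv.prodCongr g.symm.toEquiv (Equiv.refl ℕ) with hφdef
  have hφ : ∀ e : V × ℕ, φ e = (g.symm e.1, e.2) := fun e => rfl
  have h := samp_equivariant (μ := μ) (γ := γ) (site := (Prod.fst : V × ℕ → V))
    (r := rk (ordLab om)) (S := ball G v n ×ˢ Finset.range (k + 1)) (u := drvLab om)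
    φ g.symm.toEquiv (fun i => rfl) (by
      have := hμ.map_act hG g.symm
      exact this) (v, k)
  rw [map_ball hG.connected g.symm v n (k + 1) φ hφ] at h
  exact h.symm

theorem slim_act (hG : G.IsTree) [G.LocallyFinite] (hμ : IsTreeIsing G θ μ) (g : G ≃g G)
    (om : V × ℕ → ℝ) (v : V) (k : ℕ) :
    slim G μ γ (actLab g om) (v, k) = slim G μ γ om (g.symm v, k) := by
  unfold slim
  congr 1
  funext n
  exact ssamp_act hG hμ g om v n k

theorem measurable_ssamp [Countable V] [IsProbabilityMeasure μ] (D : Finset V) (e : V × ℕ) :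
    Measurable fun om : V × ℕ → ℝ => ssamp μ γ D (ordLab om) (drvLab om) e := by
  unfold ssamp
  apply measurable_samp (r := fun om : V × ℕ → ℝ => rk (ordLab om))
    (u := fun om : V × ℕ → ℝ => drvLab om)
  · intro i j
    simp only [rk_lt]
    have h1 : Measurable (fun om : V × ℕ → ℝ => ordLab om i.1) :=
      (measurable_pi_apply i.1).comp measurable_ordLab
    have h2 : Measurable (fun om : V × ℕ → ℝ => ordLab om j.1) :=
      (measurable_pi_apply j.1).comp measurable_ordLab
    exact (MeasurableSet.const _).union ((MeasurableSet.const _).inter (measurableSet_lt h1 h2))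
  · intro i
    exact (measurable_pi_apply i).comp measurable_drvLab

theorem measurable_slim [Countable V] [IsProbabilityMeasure μ] (e : V × ℕ) :
    Measurable fun om : V × ℕ → ℝ => slim G μ γ om e := by
  unfold slim
  exact Measurable.limsup fun n => measurable_ssamp (ball G e.1 n) e

/-- The spin read off from the observations: the sign of the asymptotic average. -/
noncomputable def decode (s : V × ℕ → ℝ) (v : V) : Bool :=
  decide (0 < limsup (fun K : ℕ => (∑ k ∈ Finset.range K, s (v, k)) / (K : ℝ)) atTop)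

theorem measurable_decode : Measurable (decode : (V × ℕ → ℝ) → (V → Bool)) := by
  apply measurable_pi_lambda
  intro v
  unfold decode
  have h1 : Measurable fun s : V × ℕ → ℝ =>
      limsup (fun K : ℕ => (∑ k ∈ Finset.range K, s (v, k)) / (K : ℝ)) atTop := by
    apply Measurable.limsup
    intro K
    apply Measurable.div_const
    exact Finset.measurable_fun_sum _ fun k _ => measurable_pi_apply _
  apply measurable_to_bool
  have h2 : (fun s : V × ℕ → ℝ => decide (0 <
      limsup (fun K : ℕ => (∑ k ∈ Finset.range K, s (v, k)) / (K : ℝ)) atTop)) ⁻¹' {true} =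
      {s | 0 < limsup (fun K : ℕ => (∑ k ∈ Finset.range K, s (v, k)) / (K : ℝ)) atTop} := by
    ext s
    simp
  rw [h2]
  exact measurableSet_lt measurable_const h1

end Vale.Agent.P161
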