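import Mathlib
import Vale.Agent.P161.Equiv

/-!
# From the law of the decoded observations to the factor of IID property
-/

open MeasureTheory Filter Topology

namespace Vale.Agent.P161

universe u

variable {V : Type u} {G : SimpleGraph V} {θ γ : ℝ} {μ : Measure (V → Bool)}

theorem measurable_slim_pi [Countable V] [IsProbabilityMeasure μ] :
    Measurable (slim G μ γ : (V × ℕ → ℝ) → (V × ℕ → ℝ)) :=
  measurable_pi_lambda _ fun e => measurable_slim e

/-- If decoding the infinite-volume observations produces the law `μ`, then `μ` is a factor of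
IID. -/
theorem isFactorOfIID_of_law (hG : G.IsTree) [G.LocallyFinite] (hμ : IsTreeIsing G θ μ)
    (hlaw : (Pu (V × ℕ)).map (fun om => decode (slim G μ γ om)) = μ) :
    IsFactorOfIID G μ := by
  have hc : Countable V := countable_of_locallyFinite hG.connected
  have hp := hμ.isProb
  obtain ⟨h, hm, hh⟩ := exists_labels V
  have hlab : Measurable (fun (U : V → unitInterval) (e : V × ℕ) => h (U e.1) e.2) := by
    apply measurable_pi_lambda
    intro e
    exact (measurable_pi_apply e.2).comp (hm.comp (measurable_pi_apply e.1))
  have hdec : Measurable (fun om : V × ℕ → ℝ => decode (slim G μ γ om)) :=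
    measurable_decode.comp measurable_slim_pi
  refine ⟨fun U => decode (slim G μ γ (fun e => h (U e.1) e.2)), hdec.comp hlab, ?_, ?_⟩
  · intro g
    refine ae_of_all _ fun U => ?_
    funext v
    have h1 : (fun e : V × ℕ => h (act g U e.1) e.2) =
        actLab g (fun e : V × ℕ => h (U e.1) e.2) := rfl
    change decode (slim G μ γ (fun e : V × ℕ => h (act g U e.1) e.2)) v =
      decode (slim G μ γ (fun e : V × ℕ => h (U e.1) e.2)) (g.symm v)
    rw [h1]
    unfold decode
    simp_rw [slim_act hG hμ]
  · have h2 : (fun U : V → unitInterval => decode (slim G μ γ (fun e => h (U e.1) e.2))) =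
        (fun om : V × ℕ → ℝ => decode (slim G μ γ om)) ∘
          (fun (U : V → unitInterval) (e : V × ℕ) => h (U e.1) e.2) := rfl
    rw [h2, ← Measure.map_map hdec hlab, hh, hlaw]

end Vale.Agent.P161
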