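import Mathlib
import Vale.Agent.P161.Sampler
import Vale.Agent.P161.PuDef

open MeasureTheory

namespace Vale.Agent.P161

universe u

open Classical in
theorem map_update_Pu {ι : Type*} (i : ι) :
    ((Pu ι).prod unif).map (fun p => Function.update p.1 i p.2) = Pu ι := by
  unfold Pu
  refine Measure.eq_infinitePi _ fun s t ht => ?_
  rw [Measure.map_apply measurable_update' (.pi s.countable_toSet fun _ _ => ht _)]
  by_cases hi : i ∈ s
  · have h1 : (fun p : (ι → ℝ) × ℝ => Function.update p.1 i p.2) ⁻¹' ((s : Set ι).pi t) =
        (((s.erase i : Finset ι) : Set ι).pi t) ×ˢ (t i) := by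
      ext p
      simp only [Set.mem_preimage, Set.mem_pi, Set.mem_prod, Finset.coe_erase, Set.mem_sdiff,
        Set.mem_singleton_iff, Finset.mem_coe]
      constructor
      · intro h
        refine ⟨fun j hj => ?_, ?_⟩
        · have := h j hj.1
          rwa [Function.update_of_ne hj.2] at this
        · have := h i hi
          rwa [Function.update_self] at this
      · rintro ⟨h2, h3⟩ j hj
        by_cases hji : j = i
        · subst hji; rwa [Function.update_self]
        · rw [Function.update_of_ne hji]; exact h2 j ⟨hj, hji⟩
    rw [h1, Measure.prod_prod, Measure.infinitePi_pi _ (fun j _ => ht j), mul_comm,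
      ← Finset.mul_prod_erase s (fun j => unif (t j)) hi]
  · have h1 : (fun p : (ι → ℝ) × ℝ => Function.update p.1 i p.2) ⁻¹' ((s : Set ι).pi t) =
        ((s : Set ι).pi t) ×ˢ Set.univ := by
      ext p
      simp only [Set.mem_preimage, Set.mem_pi, Set.mem_prod, Finset.mem_coe, Set.mem_univ, and_true]
      refine forall_congr' fun j => forall_congr' fun hj => ?_
      rw [Function.update_of_ne (by rintro rfl; exact hi hj)]
    rw [h1, Measure.prod_prod, Measure.infinitePi_pi _ (fun j _ => ht j), measure_univ, mul_one]

open Classical in
/-- Resampling one coordinate does not change the law. -/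
theorem integral_resample {ι : Type*} (i : ι) {F : (ι → ℝ) → ℝ} (hF : Measurable F)
    (hb : ∃ C, ∀ x, |F x| ≤ C) :
    ∫ u, F u ∂(Pu ι) = ∫ u, ∫ x, F (Function.update u i x) ∂unif ∂(Pu ι) := by
  obtain ⟨C, hC⟩ := hb
  conv_lhs => rw [← map_update_Pu i]
  rw [integral_map measurable_update'.aemeasurable hF.aestronglyMeasurable, integral_prod]
  exact Integrable.of_bound (hF.comp measurable_update').aestronglyMeasurable C
    (Filter.Eventually.of_forall fun p => hC _)

/-- Truncation to `[-1, 1]`. -/
noncomputable def clamp (x : ℝ) : ℝ := max (-1) (min 1 x)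

theorem abs_clamp_le (x : ℝ) : |clamp x| ≤ 1 := by
  unfold clamp
  rw [abs_le]
  exact ⟨le_max_left _ _, max_le (by norm_num) (min_le_left _ _)⟩

theorem clamp_of_abs_le {x : ℝ} (hx : |x| ≤ 1) : clamp x = x := by
  unfold clamp
  rw [abs_le] at hx
  rw [min_eq_right hx.2, max_eq_right hx.1]

theorem measurable_clamp : Measurable clamp := by
  unfold clamp; fun_prop

variable {V : Type u} {ι : Type*} {R : Type*} [LinearOrder R]
  {μ : Measure (V → Bool)} {γ : ℝ} {site : ι → V} {r : ι → R} {S : Finset ι}

theorem wt_insert [DecidableEq ι] {e : ι} (he : e ∉ S) (c : ι → ℝ) (σ : V → Bool) :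
    wt site (insert e S) c σ = (1 + c e * spin (σ (site e))) * wt site S c σ := by
  unfold wt
  rw [Finset.prod_insert he]

theorem evid_insert [DecidableEq ι] [IsProbabilityMeasure μ] {e : ι} (he : e ∉ S) (c : ι → ℝ)
    (hc : ∀ i ∈ S, |c i| < 1) :
    evid μ site (insert e S) c = evid μ site S c * (1 + c e * mag μ site S c (site e)) := by
  have hZ := evid_pos (μ := μ) (site := site) hc
  have h1 : evid μ site (insert e S) c = evid μ site S c +
      c e * ∫ σ, spin (σ (site e)) * wt site S c σ ∂μ := by
    unfold evid
    rw [← integral_const_mul, ← integral_add integrable_wt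
      ((integrable_spin_mul integrable_wt _).const_mul _)]
    refine integral_congr_ae (Filter.Eventually.of_forall fun σ => ?_)
    simp only [wt_insert he]
    ring
  rw [h1]
  unfold mag
  field_simp

theorem measurable_wt_joint [Countable V] (S : Finset ι) :
    Measurable (fun p : (ι → ℝ) × (V → Bool) => wt site S (fun i => γ * clamp (p.1 i)) p.2) := by
  unfold wt
  refine Finset.measurable_fun_prod _ fun i _ => ?_
  refine measurable_const.add ((measurable_const.mul (measurable_clamp.comp
    ((measurable_pi_apply i).comp measurable_fst))).mul ?_)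
  exact (measurable_spin_apply (site i)).comp measurable_snd

theorem measurable_evid [Countable V] [IsProbabilityMeasure μ] (S : Finset ι) :
    Measurable (fun u : ι → ℝ => evid μ site S (fun i => γ * clamp (u i))) := by
  unfold evid
  exact ((measurable_wt_joint S).stronglyMeasurable.integral_prod_right (ν := μ)).measurable

theorem measurable_mag_clamp [Countable V] [IsProbabilityMeasure μ] (S : Finset ι) (v : V) :
    Measurable (fun u : ι → ℝ => mag μ site S (fun i => γ * clamp (u i)) v) := by
  unfold mag
  refine Measurable.div ?_ (measurable_evid S)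
  have h1 : Measurable (fun p : (ι → ℝ) × (V → Bool) => spin (p.2 v) *
      wt site S (fun i => γ * clamp (p.1 i)) p.2) :=
    ((measurable_spin_apply v).comp measurable_snd).mul (measurable_wt_joint S)
  exact (h1.stronglyMeasurable.integral_prod_right (ν := μ)).measurable

theorem abs_gclamp_lt (h0 : 0 ≤ γ) (h1 : γ < 1) (x : ℝ) : |γ * clamp x| < 1 := by
  rw [abs_mul, abs_of_nonneg h0]
  calc γ * |clamp x| ≤ γ * 1 := mul_le_mul_of_nonneg_left (abs_clamp_le x) h0
    _ < 1 := by linarith

theorem evid_le [IsProbabilityMeasure μ] (h0 : 0 ≤ γ) (h1 : γ < 1) (u : ι → ℝ) :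
    |evid μ site S (fun i => γ * clamp (u i))| ≤ 2 ^ S.card := by
  have hZ := evid_pos (μ := μ) (site := site) (S := S) (c := fun i => γ * clamp (u i))
    (fun i _ => abs_gclamp_lt h0 h1 _)
  rw [abs_of_pos hZ]
  unfold evid
  calc ∫ σ, wt site S (fun i => γ * clamp (u i)) σ ∂μ ≤ ∫ _, (2 : ℝ) ^ S.card ∂μ := by
        refine integral_mono integrable_wt (integrable_const _) fun σ => ?_
        unfold wt
        calc ∏ i ∈ S, (1 + γ * clamp (u i) * spin (σ (site i))) ≤ ∏ _i ∈ S, (2 : ℝ) := by
              refine Finset.prod_le_prod (fun i _ => ?_) fun i _ => ?_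
              · have h2 : |γ * clamp (u i) * spin (σ (site i))| < 1 := by
                  rw [abs_mul, abs_spin, mul_one]; exact abs_gclamp_lt h0 h1 _
                linarith [(abs_lt.1 h2).1]
              · have h2 : |γ * clamp (u i) * spin (σ (site i))| < 1 := by
                  rw [abs_mul, abs_spin, mul_one]; exact abs_gclamp_lt h0 h1 _
                linarith [(abs_lt.1 h2).2]
          _ = 2 ^ S.card := by simp
    _ = 2 ^ S.card := by simp

open Classical in
/-- Density form of the law of the sampler. -/
theorem law_density [Countable V] [IsProbabilityMeasure μ] (h0 : 0 ≤ γ) (h1 : γ < 1)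
    (S : Finset ι) (hr : Set.InjOn r (S : Set ι)) :
    ∀ {F : (ι → ℝ) → ℝ}, Measurable F → (∃ C, ∀ x, |F x| ≤ C) → DependsOn F (S : Set ι) →
    ∫ u, F (samp μ γ site r S u) ∂(Pu ι) =
      ∫ u, F u * evid μ site S (fun i => γ * clamp (u i)) ∂(Pu ι) := by
  induction S using Finset.induction_on_max_value r with
  | empty =>
    intro F hF hb hS
    refine integral_congr_ae (Filter.Eventually.of_forall fun u => ?_)
    have e1 : evid μ site (∅ : Finset ι) (fun i => γ * clamp (u i)) = 1 := by
      unfold evid wt; simp
    simp only [e1, mul_one]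
    exact hS (fun i hi => by simp at hi)
  | insert e S heS hmax ih =>
    intro F hF hb hS
    obtain ⟨C, hC⟩ := hb
    have hr' : Set.InjOn r (S : Set ι) := hr.mono (by simp)
    have hlt : ∀ i ∈ S, r i < r e := by
      intro i hi
      refine lt_of_le_of_ne (hmax i hi) fun h => ?_
      have := hr (by simp [hi]) (by simp) h
      subst this
      exact heS hi
    have hpree : pre r (insert e S) e = S := by
      ext j
      rw [mem_pre, Finset.mem_insert]
      constructor
      · rintro ⟨h | h, h'⟩
        · subst h; exact absurd h' (lt_irrefl _)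
        · exact h
      · intro h; exact ⟨Or.inr h, hlt j h⟩
    have hprei : ∀ i ∈ S, pre r (insert e S) i = pre r S i := by
      intro i hi
      ext j
      rw [mem_pre, mem_pre, Finset.mem_insert]
      constructor
      · rintro ⟨h | h, h'⟩
        · subst h; exact absurd h' (hlt i hi).asymm
        · exact ⟨h, h'⟩
      · rintro ⟨h, h'⟩; exact ⟨Or.inr h, h'⟩
    -- value of the sampler after updating the label of `e`
    have hsamp : ∀ (u : ι → ℝ) (x : ℝ), F (samp μ γ site r (insert e S) (Function.update u e x)) =
        F (Function.update (samp μ γ site r S u) e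
          (T (γ * mag μ site S (fun i => γ * samp μ γ site r S u i) (site e)) x)) := by
      intro u x
      refine hS fun i hi => ?_
      rw [Finset.mem_coe, Finset.mem_insert] at hi
      have hS' : ∀ i ∈ S, samp μ γ site r (insert e S) (Function.update u e x) i =
          samp μ γ site r S u i := by
        intro k hk
        refine samp_congr μ γ site (hprei k hk) (fun j hj => ?_) ?_
        · rw [hprei k hk, mem_pre] at hj
          rw [Function.update_of_ne]
          intro hje; rw [hje] at hj; exact heS hj.1
        · rw [Function.update_of_ne]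
          intro hje; rw [hje] at hk; exact heS hk
      by_cases hie : i = e
      · subst hie
        rw [Function.update_self, samp_eq, hpree, Function.update_self]
        congr 2
        refine mag_congr (fun j hj => ?_) _
        rw [hS' j hj]
      · rw [Function.update_of_ne hie]
        rcases hi with h | h
        · exact absurd h hie
        · exact hS' i h
    have hmeas_samp : ∀ (S : Finset ι), Measurable (fun u : ι → ℝ => samp μ γ site r S u) := by
      intro S
      refine measurable_pi_lambda _ fun i => ?_
      exact measurable_samp (r := fun _ => r) (u := fun u : ι → ℝ => u)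
        (fun i j => MeasurableSet.const _) (fun i => measurable_pi_apply i) i
    -- the integrated function
    set F' : (ι → ℝ) → ℝ := fun v => ∫ s, F (Function.update v e s) *
      (1 + γ * mag μ site S (fun i => γ * clamp (v i)) (site e) * clamp s) ∂unif with hF'
    have hmagle : ∀ v : ι → ℝ, |mag μ site S (fun i => γ * clamp (v i)) (site e)| ≤ 1 :=
      fun v => abs_mag_le (fun i _ => abs_gclamp_lt h0 h1 _) _
    have hfac : ∀ (v : ι → ℝ) (s : ℝ),
        |1 + γ * mag μ site S (fun i => γ * clamp (v i)) (site e) * clamp s| ≤ 2 := by
      intro v s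
      have h2 : |γ * mag μ site S (fun i => γ * clamp (v i)) (site e) * clamp s| ≤ 1 := by
        rw [abs_mul, abs_mul, abs_of_nonneg h0]
        have := mul_le_mul (mul_le_mul h1.le (hmagle v) (abs_nonneg _) zero_le_one)
          (abs_clamp_le s) (abs_nonneg _) (by norm_num)
        simpa using this
      calc |1 + γ * mag μ site S (fun i => γ * clamp (v i)) (site e) * clamp s|
          ≤ |(1 : ℝ)| + |γ * mag μ site S (fun i => γ * clamp (v i)) (site e) * clamp s| :=
            abs_add_le _ _
        _ ≤ 2 := by rw [abs_one]; linarith
    have hC0 : 0 ≤ C := (abs_nonneg _).trans (hC 0)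
    have hjoint : Measurable (fun p : (ι → ℝ) × ℝ => F (Function.update p.1 e p.2) *
      (1 + γ * mag μ site S (fun i => γ * clamp (p.1 i)) (site e) * clamp p.2)) := by
      refine (hF.comp measurable_update').mul (measurable_const.add ?_)
      exact ((measurable_const.mul ((measurable_mag_clamp S (site e)).comp measurable_fst))).mul
        (measurable_clamp.comp measurable_snd)
    have hF'm : Measurable F' := (hjoint.stronglyMeasurable.integral_prod_right (ν := unif)).measurable
    have hF'b : ∃ C, ∀ x, |F' x| ≤ C := by
      refine ⟨C * 2, fun v => ?_⟩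
      rw [hF', ← Real.norm_eq_abs]
      refine (norm_integral_le_of_norm_le_const (C := C * 2)
        (Filter.Eventually.of_forall fun s => ?_)).trans (by simp)
      rw [Real.norm_eq_abs, abs_mul]
      exact mul_le_mul (hC _) (hfac v s) (abs_nonneg _) hC0
    have hF'dep : DependsOn F' (S : Set ι) := by
      intro v v' h
      rw [hF']
      refine integral_congr_ae (Filter.Eventually.of_forall fun s => ?_)
      simp only
      congr 1
      · refine hS fun i hi => ?_
        by_cases hie : i = e
        · subst hie; simp
        · rw [Function.update_of_ne hie, Function.update_of_ne hie]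
          rw [Finset.mem_coe, Finset.mem_insert] at hi
          exact h i (hi.resolve_left hie)
      · congr 3
        exact mag_congr (fun i hi => by rw [h i hi]) _
    have hstep1 : ∫ u, F (samp μ γ site r (insert e S) u) ∂(Pu ι) =
        ∫ u, F' (samp μ γ site r S u) ∂(Pu ι) := by
      refine (integral_resample (F := fun u => F (samp μ γ site r (insert e S) u)) e
        (hF.comp (hmeas_samp (insert e S))) ⟨C, fun x => hC _⟩).trans ?_
      refine integral_congr_ae (Filter.Eventually.of_forall fun u => ?_)
      simp only
      have hsm : ∀ i, clamp (samp μ γ site r S u i) = samp μ γ site r S u i :=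
        fun i => clamp_of_abs_le (abs_samp_le h0 h1 i)
      have ha : |γ * mag μ site S (fun i => γ * samp μ γ site r S u i) (site e)| < 1 := by
        rw [abs_mul, abs_of_nonneg h0]
        have h3 : |mag μ site S (fun i => γ * samp μ γ site r S u i) (site e)| ≤ 1 := by
          refine abs_mag_le (fun i _ => ?_) _
          rw [← hsm i]; exact abs_gclamp_lt h0 h1 _
        calc γ * _ ≤ γ * 1 := mul_le_mul_of_nonneg_left h3 h0
          _ < 1 := by linarith
      calc ∫ x, F (samp μ γ site r (insert e S) (Function.update u e x)) ∂unif
          = ∫ x, (fun s => F (Function.update (samp μ γ site r S u) e s))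
              (T (γ * mag μ site S (fun i => γ * samp μ γ site r S u i) (site e)) x) ∂unif := by
            refine integral_congr_ae (Filter.Eventually.of_forall fun x => ?_)
            exact hsamp u x
        _ = ∫ s, (fun s => F (Function.update (samp μ γ site r S u) e s)) s *
              (1 + γ * mag μ site S (fun i => γ * samp μ γ site r S u i) (site e) * s) ∂unif :=
            integral_T ha (fun s => F (Function.update (samp μ γ site r S u) e s))
        _ = F' (samp μ γ site r S u) := by
            rw [hF']
            refine integral_congr_ae ?_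
            filter_upwards [ae_unif] with s hs
            simp only [hsm, clamp_of_abs_le hs]
    have hstep2 : ∫ u, F u * evid μ site (insert e S) (fun i => γ * clamp (u i)) ∂(Pu ι) =
        ∫ u, F' u * evid μ site S (fun i => γ * clamp (u i)) ∂(Pu ι) := by
      have hbd : ∃ C', ∀ x : ι → ℝ, |F x * evid μ site (insert e S) (fun i => γ * clamp (x i))| ≤ C' :=
        ⟨C * 2 ^ (insert e S).card, fun x => by
          rw [abs_mul]
          exact mul_le_mul (hC x) (evid_le h0 h1 x) (abs_nonneg _) hC0⟩
      refine (integral_resample (F := fun u => F u * evid μ site (insert e S)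
        (fun i => γ * clamp (u i))) e (hF.mul (measurable_evid (insert e S))) hbd).trans ?_
      · refine integral_congr_ae (Filter.Eventually.of_forall fun u => ?_)
        simp only
        rw [hF', ← integral_mul_const]
        refine integral_congr_ae (Filter.Eventually.of_forall fun s => ?_)
        simp only
        rw [evid_insert heS _ (fun i _ => abs_gclamp_lt h0 h1 _), Function.update_self]
        have e1 : evid μ site S (fun i => γ * clamp (Function.update u e s i)) =
            evid μ site S (fun i => γ * clamp (u i)) := by
          refine evid_congr fun i hi => ?_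
          rw [Function.update_of_ne]; rintro rfl; exact heS hi
        have e2 : mag μ site S (fun i => γ * clamp (Function.update u e s i)) (site e) =
            mag μ site S (fun i => γ * clamp (u i)) (site e) := by
          refine mag_congr (fun i hi => ?_) _
          rw [Function.update_of_ne]; rintro rfl; exact heS hi
        rw [e1, e2]
        ring
    rw [hstep1, hstep2]
    exact ih hr' hF'm hF'b hF'dep

theorem mag_dirac [Countable V] (σ : V → Bool) {c : ι → ℝ} (hc : ∀ i ∈ S, |c i| < 1) (v : V) :
    mag (Measure.dirac σ) site S c v = spin (σ v) := by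
  have hm : Measurable (wt site S c) := by
    classical exact meas_of_dep dependsOn_wt
  unfold mag evid
  have h2 : ∫ σ', spin (σ' v) * wt site S c σ' ∂(Measure.dirac σ) = spin (σ v) * wt site S c σ :=
    integral_dirac' _ _ ((measurable_spin_apply v).mul hm).stronglyMeasurable
  rw [integral_dirac' _ _ hm.stronglyMeasurable, h2]
  exact mul_div_cancel_right₀ _ (wt_pos hc σ).ne'

theorem samp_dirac [Countable V] (h0 : 0 ≤ γ) (h1 : γ < 1) (σ : V → Bool) (u : ι → ℝ) (e : ι) :
    samp (Measure.dirac σ) γ site r S u e = T (γ * spin (σ (site e))) (u e) := by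
  rw [samp_eq, mag_dirac]
  intro i _
  rw [abs_mul, abs_of_nonneg h0]
  calc γ * |samp (Measure.dirac σ) γ site r S u i| ≤ γ * 1 :=
        mul_le_mul_of_nonneg_left (abs_samp_le h0 h1 i) h0
    _ < 1 := by linarith

theorem law_samp [Countable V] [IsProbabilityMeasure μ] (h0 : 0 ≤ γ) (h1 : γ < 1)
    (hr : Set.InjOn r (S : Set ι)) {F : (ι → ℝ) → ℝ} (hF : Measurable F)
    (hb : ∃ C, ∀ x, |F x| ≤ C) (hS : DependsOn F (S : Set ι)) :
    ∫ u, F (samp μ γ site r S u) ∂(Pu ι) =
      ∫ σ, ∫ u, F (fun e => T (γ * spin (σ (site e))) (u e)) ∂(Pu ι) ∂μ := by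
  obtain ⟨C, hC⟩ := hb
  have hC0 : 0 ≤ C := (abs_nonneg _).trans (hC 0)
  rw [law_density h0 h1 S hr hF ⟨C, hC⟩ hS]
  have h2 : ∀ σ : V → Bool, ∫ u, F (fun e => T (γ * spin (σ (site e))) (u e)) ∂(Pu ι) =
      ∫ u, F u * wt site S (fun i => γ * clamp (u i)) σ ∂(Pu ι) := by
    intro σ
    have h3 := law_density (μ := Measure.dirac σ) (site := site) h0 h1 S hr hF ⟨C, hC⟩ hS
    have h4 : ∀ u : ι → ℝ, samp (Measure.dirac σ) γ site r S u =
        fun e => T (γ * spin (σ (site e))) (u e) := fun u => funext fun e => samp_dirac h0 h1 σ u e
    simp only [h4] at h3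
    rw [h3]
    refine integral_congr_ae (Filter.Eventually.of_forall fun u => ?_)
    simp only
    congr 1
    unfold evid
    have hm : Measurable (wt site S (fun i => γ * clamp (u i))) := by
      classical exact meas_of_dep dependsOn_wt
    rw [integral_dirac' _ _ hm.stronglyMeasurable]
  simp only [h2]
  have hint : Integrable (Function.uncurry fun (u : ι → ℝ) (σ : V → Bool) =>
      F u * wt site S (fun i => γ * clamp (u i)) σ) ((Pu ι).prod μ) := by
    refine Integrable.of_bound (C := C * 2 ^ S.card) ?_ (Filter.Eventually.of_forall fun p => ?_)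
    · exact ((hF.comp measurable_fst).mul (measurable_wt_joint S)).aestronglyMeasurable
    · rw [Function.uncurry, Real.norm_eq_abs, abs_mul]
      refine mul_le_mul (hC _) ?_ (abs_nonneg _) hC0
      have := evid_le (μ := Measure.dirac p.2) (site := site) (S := S) h0 h1 p.1
      unfold evid at this
      have hm : Measurable (wt site S (fun i => γ * clamp (p.1 i))) := by
        classical exact meas_of_dep dependsOn_wt
      rwa [integral_dirac' _ _ hm.stronglyMeasurable] at this
  rw [integral_integral_swap (μ := Pu ι) (ν := μ) hint |>.symm]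
  refine integral_congr_ae (Filter.Eventually.of_forall fun u => ?_)
  simp only
  rw [integral_const_mul]
  rfl

end Vale.Agent.P161
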