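import Mathlib

namespace Vale.Agent.P161

/-- The derivative of the magnetisation along an edge. -/
noncomputable def lam (θ M : ℝ) : ℝ := θ * (1 - M ^ 2) / (1 - θ ^ 2 * M ^ 2)

/-- The magnetisation at one end of an edge in terms of the one at the other end `m` and of the
cavity field `M`. -/
noncomputable def Gf (θ m M : ℝ) : ℝ :=
  ((1 - θ ^ 2) * M + θ * m * (1 - M ^ 2)) / (1 - θ ^ 2 * M ^ 2)

section

variable {θ M M' m m' : ℝ}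

theorem den_pos (_h0 : 0 ≤ θ) (_h1 : θ < 1) (hM : |M| ≤ 1) : 1 - θ ^ 2 ≤ 1 - θ ^ 2 * M ^ 2 := by
  have : M ^ 2 ≤ 1 := by rw [sq_le_one_iff_abs_le_one]; exact hM
  nlinarith [sq_nonneg θ]

theorem one_sub_sq_pos (h0 : 0 ≤ θ) (h1 : θ < 1) : 0 < 1 - θ ^ 2 := by nlinarith

theorem lam_nonneg (h0 : 0 ≤ θ) (h1 : θ < 1) (hM : |M| ≤ 1) : 0 ≤ lam θ M := by
  have h2 := den_pos h0 h1 hM
  have h3 := one_sub_sq_pos h0 h1
  have : M ^ 2 ≤ 1 := by rw [sq_le_one_iff_abs_le_one]; exact hM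
  unfold lam
  refine div_nonneg (mul_nonneg h0 (by linarith)) (by linarith)

theorem lam_le (h0 : 0 ≤ θ) (h1 : θ < 1) (hM : |M| ≤ 1) : lam θ M ≤ θ := by
  have h2 := den_pos h0 h1 hM
  have h3 := one_sub_sq_pos h0 h1
  unfold lam
  rw [div_le_iff₀ (by linarith)]
  nlinarith [sq_nonneg M, mul_nonneg h0 (sq_nonneg M), mul_nonneg (mul_nonneg h0 (sq_nonneg M)) h3.le]

theorem Gf_sub_m (h0 : 0 ≤ θ) (h1 : θ < 1) (hM : |M| ≤ 1) :
    |Gf θ m M - Gf θ m' M| ≤ θ * |m - m'| := by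
  have h2 := lam_nonneg h0 h1 hM
  have h3 := lam_le h0 h1 hM
  have e : Gf θ m M - Gf θ m' M = lam θ M * (m - m') := by
    unfold Gf lam
    ring
  rw [e, abs_mul, abs_of_nonneg h2]
  exact mul_le_mul_of_nonneg_right h3 (abs_nonneg _)

theorem Gf_sub_M (h0 : 0 ≤ θ) (h1 : θ < 1) (hM : |M| ≤ 1) (hM' : |M'| ≤ 1) (hm : |m| ≤ 1) :
    (1 - θ) * |M - M'| ≤ (1 + θ) * |Gf θ m M - Gf θ m M'| := by
  have h2 := den_pos h0 h1 hM
  have h2' := den_pos h0 h1 hM'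
  have h3 := one_sub_sq_pos h0 h1
  have d1 : 0 < 1 - θ ^ 2 * M ^ 2 := by linarith
  have d2 : 0 < 1 - θ ^ 2 * M' ^ 2 := by linarith
  set B := 1 + θ ^ 2 * M * M' - θ * m * (M + M') with hB
  have e : Gf θ m M - Gf θ m M' =
      (1 - θ ^ 2) * (M - M') * B / ((1 - θ ^ 2 * M ^ 2) * (1 - θ ^ 2 * M' ^ 2)) := by
    unfold Gf
    rw [div_sub_div _ _ d1.ne' d2.ne']
    congr 1
    rw [hB]
    ring
  obtain ⟨hm1, hm2⟩ := abs_le.mp hm
  obtain ⟨hM1, hM2⟩ := abs_le.mp hM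
  obtain ⟨hM1', hM2'⟩ := abs_le.mp hM'
  have p1 : 0 < 1 - θ * M := by nlinarith
  have p2 : 0 < 1 + θ * M := by nlinarith
  have p1' : 0 < 1 - θ * M' := by nlinarith
  have p2' : 0 < 1 + θ * M' := by nlinarith
  have hBlow : (1 - θ ^ 2 * M ^ 2) * (1 - θ ^ 2 * M' ^ 2) ≤ (1 + θ) ^ 2 * B := by
    have eB : B = (1 + m) / 2 * ((1 - θ * M) * (1 - θ * M')) +
        (1 - m) / 2 * ((1 + θ * M) * (1 + θ * M')) := by
      rw [hB]; ring
    have f1 : (1 + θ * M) * (1 + θ * M') ≤ (1 + θ) ^ 2 := by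
      have a1 : 1 + θ * M ≤ 1 + θ := by nlinarith
      have a2 : 1 + θ * M' ≤ 1 + θ := by nlinarith
      rw [sq]
      exact mul_le_mul a1 a2 p2'.le (by linarith)
    have f2 : (1 - θ * M) * (1 - θ * M') ≤ (1 + θ) ^ 2 := by
      have a1 : 1 - θ * M ≤ 1 + θ := by nlinarith
      have a2 : 1 - θ * M' ≤ 1 + θ := by nlinarith
      rw [sq]
      exact mul_le_mul a1 a2 p1'.le (by linarith)
    have q1 : 0 < (1 - θ * M) * (1 - θ * M') := mul_pos p1 p1'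
    have q2 : 0 < (1 + θ * M) * (1 + θ * M') := mul_pos p2 p2'
    have g1 : (1 - θ * M) * (1 - θ * M') * ((1 + θ * M) * (1 + θ * M')) ≤
        (1 + θ) ^ 2 * ((1 - θ * M) * (1 - θ * M')) := by
      rw [mul_comm ((1 + θ) ^ 2)]
      exact mul_le_mul_of_nonneg_left f1 q1.le
    have g2 : (1 - θ * M) * (1 - θ * M') * ((1 + θ * M) * (1 + θ * M')) ≤
        (1 + θ) ^ 2 * ((1 + θ * M) * (1 + θ * M')) :=
      mul_le_mul_of_nonneg_right f2 q2.le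
    have g3 : (1 - θ ^ 2 * M ^ 2) * (1 - θ ^ 2 * M' ^ 2) =
        (1 + m) / 2 * ((1 - θ * M) * (1 - θ * M') * ((1 + θ * M) * (1 + θ * M'))) +
        (1 - m) / 2 * ((1 - θ * M) * (1 - θ * M') * ((1 + θ * M) * (1 + θ * M'))) := by ring
    rw [g3, eB]
    have k1 := mul_le_mul_of_nonneg_left g1 (show 0 ≤ (1 + m) / 2 by linarith)
    have k2 := mul_le_mul_of_nonneg_left g2 (show 0 ≤ (1 - m) / 2 by linarith)
    linarith
  have hBpos : 0 ≤ B := by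
    have : 0 ≤ (1 - θ ^ 2 * M ^ 2) * (1 - θ ^ 2 * M' ^ 2) := (mul_pos d1 d2).le
    have : 0 ≤ (1 + θ) ^ 2 * B := this.trans hBlow
    have h5 : 0 < (1 + θ) ^ 2 := by positivity
    exact nonneg_of_mul_nonneg_right (by linarith) h5
  rw [e, abs_div, abs_mul, abs_mul, abs_of_pos h3, abs_of_nonneg hBpos, abs_of_pos (mul_pos d1 d2),
    ← mul_div_assoc, le_div_iff₀ (mul_pos d1 d2)]
  have h6 : 0 ≤ (1 - θ) * |M - M'| := mul_nonneg (by linarith) (abs_nonneg _)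
  calc (1 - θ) * |M - M'| * ((1 - θ ^ 2 * M ^ 2) * (1 - θ ^ 2 * M' ^ 2))
      ≤ (1 - θ) * |M - M'| * ((1 + θ) ^ 2 * B) := mul_le_mul_of_nonneg_left hBlow h6
    _ = (1 + θ) * ((1 - θ ^ 2) * |M - M'| * B) := by ring

theorem M_lipschitz (h0 : 0 ≤ θ) (h1 : θ < 1) (hM : |M| ≤ 1) (hM' : |M'| ≤ 1) (hm : |m| ≤ 1) :
    (1 - θ) * |M - M'| ≤ (1 + θ) * (|Gf θ m M - Gf θ m' M'| + θ * |m - m'|) := by
  refine (Gf_sub_M h0 h1 hM hM' hm).trans (mul_le_mul_of_nonneg_left ?_ (by linarith))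
  have h2 := Gf_sub_m (m := m) (m' := m') h0 h1 hM'
  have h3 : Gf θ m M - Gf θ m M' =
      (Gf θ m M - Gf θ m' M') - (Gf θ m M' - Gf θ m' M') := by ring
  rw [h3]
  exact (abs_sub _ _).trans (by linarith)

theorem lam_lipschitz (h0 : 0 ≤ θ) (h1 : θ < 1) (hM : |M| ≤ 1) (hM' : |M'| ≤ 1) (hm : |m| ≤ 1) :
    |lam θ M - lam θ M'| ≤
      2 * θ / (1 - θ) ^ 2 * (|m - m'| + |Gf θ m M - Gf θ m' M'|) := by
  have h2 := den_pos h0 h1 hM
  have h2' := den_pos h0 h1 hM'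
  have h3 := one_sub_sq_pos h0 h1
  have d1 : 0 < 1 - θ ^ 2 * M ^ 2 := by linarith
  have d2 : 0 < 1 - θ ^ 2 * M' ^ 2 := by linarith
  have hθ : 0 < 1 - θ := by linarith
  have e : lam θ M - lam θ M' =
      -(θ * (1 - θ ^ 2) * (M + M') * (M - M')) /
        ((1 - θ ^ 2 * M ^ 2) * (1 - θ ^ 2 * M' ^ 2)) := by
    unfold lam
    rw [div_sub_div _ _ d1.ne' d2.ne']
    congr 1
    ring
  have hMM : |M + M'| ≤ 2 := (abs_add_le _ _).trans (by linarith)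
  have s1 : |lam θ M - lam θ M'| ≤ 2 * θ / (1 - θ ^ 2) * |M - M'| := by
    rw [e, abs_div, abs_neg, abs_mul, abs_mul, abs_mul, abs_of_nonneg h0, abs_of_pos h3,
      abs_of_pos (mul_pos d1 d2), div_le_iff₀ (mul_pos d1 d2)]
    have k1 : (1 - θ ^ 2) * (1 - θ ^ 2) ≤ (1 - θ ^ 2 * M ^ 2) * (1 - θ ^ 2 * M' ^ 2) :=
      mul_le_mul h2 h2' h3.le d1.le
    have k2 : 0 ≤ 2 * θ / (1 - θ ^ 2) * |M - M'| := by positivity
    calc θ * (1 - θ ^ 2) * |M + M'| * |M - M'| ≤ θ * (1 - θ ^ 2) * 2 * |M - M'| := by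
          refine mul_le_mul_of_nonneg_right (mul_le_mul_of_nonneg_left hMM ?_) (abs_nonneg _)
          exact mul_nonneg h0 h3.le
      _ = 2 * θ / (1 - θ ^ 2) * |M - M'| * ((1 - θ ^ 2) * (1 - θ ^ 2)) := by
          field_simp
      _ ≤ _ := mul_le_mul_of_nonneg_left k1 k2
  refine s1.trans ?_
  have s2 := M_lipschitz (m' := m') h0 h1 hM hM' hm
  have s3 : |M - M'| ≤ (1 + θ) / (1 - θ) * (|Gf θ m M - Gf θ m' M'| + θ * |m - m'|) := by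
    rw [div_mul_eq_mul_div, le_div_iff₀ hθ]
    linarith
  have k3 : 0 ≤ 2 * θ / (1 - θ ^ 2) := by positivity
  calc 2 * θ / (1 - θ ^ 2) * |M - M'|
      ≤ 2 * θ / (1 - θ ^ 2) * ((1 + θ) / (1 - θ) *
          (|Gf θ m M - Gf θ m' M'| + θ * |m - m'|)) := mul_le_mul_of_nonneg_left s3 k3
    _ = 2 * θ / (1 - θ) ^ 2 * (|Gf θ m M - Gf θ m' M'| + θ * |m - m'|) := by
        have : 1 - θ ^ 2 = (1 - θ) * (1 + θ) := by ring
        rw [this]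
        have h5 : 1 + θ ≠ 0 := by linarith
        field_simp
    _ ≤ _ := by
        refine mul_le_mul_of_nonneg_left ?_ (by positivity)
        nlinarith [abs_nonneg (m - m')]

/-- The algebra of the splitting of the Ising measure at an edge. -/
theorem edge_alg {a0 a1 b0 b1 n0 n1 : ℝ} (h0 : 0 ≤ θ) (h1 : θ < 1) (ha : 0 < a0)
    (ha1 : |a1| < a0) (hb : 0 < b0) (hb1 : |b1| < b0) {Z mv mv' cvw cv'w : ℝ}
    (hZ : Z = a0 * b0 + θ * a1 * b1) (hmv : mv = (a1 * b0 + θ * a0 * b1) / Z)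
    (hmv' : mv' = (a0 * b1 + θ * a1 * b0) / Z)
    (hcvw : cvw = (a1 * n0 + θ * a0 * n1) / Z - mv * ((a0 * n0 + θ * a1 * n1) / Z))
    (hcv'w : cv'w = (a0 * n1 + θ * a1 * n0) / Z - mv' * ((a0 * n0 + θ * a1 * n1) / Z)) :
    0 < Z ∧ mv' = Gf θ mv (b1 / b0) ∧
      cvw / (1 - mv ^ 2) = lam θ (b1 / b0) * (cv'w / (1 - mv' ^ 2)) := by
  have hZpos : 0 < Z := by
    rw [hZ]
    have h3 : |θ * a1 * b1| ≤ a0 * |b1| := by
      rw [abs_mul, abs_mul, abs_of_nonneg h0]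
      have : θ * |a1| ≤ a0 := by nlinarith [abs_nonneg a1]
      exact mul_le_mul_of_nonneg_right this (abs_nonneg _)
    have h4 : a0 * |b1| < a0 * b0 := mul_lt_mul_of_pos_left hb1 ha
    have := neg_abs_le (θ * a1 * b1)
    linarith
  have A1 : 0 < a0 ^ 2 - a1 ^ 2 := by
    have := sq_lt_sq' (by linarith [neg_abs_le a1, le_abs_self a1]) (lt_of_le_of_lt (le_abs_self a1) ha1)
    linarith
  have hθ2 : θ ^ 2 ≤ 1 := by nlinarith
  have A2 : 0 < a0 ^ 2 - θ ^ 2 * a1 ^ 2 := by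
    have := mul_le_of_le_one_left (sq_nonneg a1) hθ2
    linarith
  have B1 : 0 < b0 ^ 2 - b1 ^ 2 := by
    have := sq_lt_sq' (by linarith [neg_abs_le b1, le_abs_self b1]) (lt_of_le_of_lt (le_abs_self b1) hb1)
    linarith
  have B2 : 0 < b0 ^ 2 - θ ^ 2 * b1 ^ 2 := by
    have := mul_le_of_le_one_left (sq_nonneg b1) hθ2
    linarith
  have e1 : 1 - mv ^ 2 = (a0 ^ 2 - a1 ^ 2) * (b0 ^ 2 - θ ^ 2 * b1 ^ 2) / Z ^ 2 := by
    rw [hmv]
    field_simp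
    rw [hZ]
    ring
  have e2 : 1 - mv' ^ 2 = (a0 ^ 2 - θ ^ 2 * a1 ^ 2) * (b0 ^ 2 - b1 ^ 2) / Z ^ 2 := by
    rw [hmv']
    field_simp
    rw [hZ]
    ring
  have e3 : cvw = θ * (a0 ^ 2 - a1 ^ 2) * (n1 * b0 - n0 * b1) / Z ^ 2 := by
    rw [hcvw, hmv]
    field_simp
    rw [hZ]
    ring
  have e4 : cv'w = (a0 ^ 2 - θ ^ 2 * a1 ^ 2) * (n1 * b0 - n0 * b1) / Z ^ 2 := by
    rw [hcv'w, hmv']
    field_simp
    rw [hZ]
    ring
  have e5 : lam θ (b1 / b0) = θ * (b0 ^ 2 - b1 ^ 2) / (b0 ^ 2 - θ ^ 2 * b1 ^ 2) := by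
    unfold lam
    have : 1 - θ ^ 2 * (b1 / b0) ^ 2 ≠ 0 := by
      have : 1 - θ ^ 2 * (b1 / b0) ^ 2 = (b0 ^ 2 - θ ^ 2 * b1 ^ 2) / b0 ^ 2 := by
        field_simp
      rw [this]
      positivity
    rw [div_eq_div_iff this B2.ne']
    field_simp
  refine ⟨hZpos, ?_, ?_⟩
  · have hden : 1 - θ ^ 2 * (b1 / b0) ^ 2 = (b0 ^ 2 - θ ^ 2 * b1 ^ 2) / b0 ^ 2 := by
      field_simp
    unfold Gf
    rw [hden, hmv', hmv, div_eq_div_iff hZpos.ne' (by positivity)]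
    field_simp
    rw [hZ]
    ring
  · rw [e1, e2, e3, e4, e5]
    field_simp

end

end Vale.Agent.P161
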