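import Mathlib
import Vale.Agent.P161.Posterior
import Vale.Agent.P161.EdgeAlg

open MeasureTheory

namespace Vale.Agent.P161

universe u

variable {V : Type u} {ι : Type*}

theorem dependsOn_wt' {site : ι → V} {S : Finset ι} {c : ι → ℝ} {A : Set V}
    (h : ∀ i ∈ S, site i ∈ A) : DependsOn (wt site S c) A := by
  intro x y hxy
  unfold wt
  refine Finset.prod_congr rfl fun i hi => ?_
  rw [hxy (site i) (h i hi)]

theorem edge_relation {G : SimpleGraph V} {θ : ℝ} {μ : Measure (V → Bool)}
    (hG : G.IsTree) (hμ : IsTreeIsing G θ μ) (h0 : 0 ≤ θ) (h1 : θ < 1)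
    (site : ι → V) {v v' w : V} (hv : G.Adj v v') (hw : G.dist v' w < G.dist v w)
    (S : Finset ι) (c : ι → ℝ) (hc : ∀ i ∈ S, |c i| < 1) :
    ∃ M : ℝ, |M| ≤ 1 ∧ mag μ site S c v' = Gf θ (mag μ site S c v) M ∧
      cov μ site S c v w / (1 - mag μ site S c v ^ 2) =
        lam θ M * (cov μ site S c v' w / (1 - mag μ site S c v' ^ 2)) := by
  classical
  have := hμ.isProb
  set SA := S.filter (fun i => G.dist v (site i) < G.dist v' (site i)) with hSA
  set SB := S.filter (fun i => ¬ G.dist v (site i) < G.dist v' (site i)) with hSB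
  have hcA : ∀ i ∈ SA, |c i| < 1 := fun i hi => hc i (Finset.mem_filter.mp hi).1
  have hcB : ∀ i ∈ SB, |c i| < 1 := fun i hi => hc i (Finset.mem_filter.mp hi).1
  have hsplit : ∀ σ, wt site S c σ = wt site SA c σ * wt site SB c σ := by
    intro σ
    unfold wt
    exact (Finset.prod_filter_mul_prod_filter_not S _ _).symm
  set A : Finset V := insert v (SA.image site) with hA
  set B : Finset V := insert v' (insert w (SB.image site)) with hB
  have hdv : G.dist v v' = 1 := SimpleGraph.dist_eq_one_iff_adj.mpr hv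
  have hdv' : G.dist v' v = 1 := SimpleGraph.dist_eq_one_iff_adj.mpr hv.symm
  have hAd : ∀ a ∈ A, G.dist v a < G.dist v' a := by
    intro a ha
    rw [hA, Finset.mem_insert, Finset.mem_image] at ha
    rcases ha with rfl | ⟨i, hi, rfl⟩
    · rw [hdv', SimpleGraph.dist_self]; exact one_pos
    · exact (Finset.mem_filter.mp hi).2
  have hBd : ∀ b ∈ B, G.dist v' b < G.dist v b := by
    intro b hb
    rw [hB, Finset.mem_insert, Finset.mem_insert, Finset.mem_image] at hb
    rcases hb with rfl | rfl | ⟨i, hi, rfl⟩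
    · rw [hdv, SimpleGraph.dist_self]; exact one_pos
    · exact hw
    · have h3 := (Finset.mem_filter.mp hi).2
      exact lt_of_le_of_ne (not_lt.mp h3) (dist_ne_of_adj hG hv _).symm
  have key := hμ.edge_split v v' hv A B hAd hBd
  have dA : DependsOn (wt site SA c) (A : Set V) := dependsOn_wt' fun i hi => by
    simp only [hA, Finset.coe_insert, Finset.coe_image, Set.mem_insert_iff, Set.mem_image,
      Finset.mem_coe]
    exact Or.inr ⟨i, hi, rfl⟩
  have dB : DependsOn (wt site SB c) (B : Set V) := dependsOn_wt' fun i hi => by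
    simp only [hB, Finset.coe_insert, Finset.coe_image, Set.mem_insert_iff, Set.mem_image,
      Finset.mem_coe]
    exact Or.inr (Or.inr ⟨i, hi, rfl⟩)
  have hvA : v ∈ (A : Set V) := by simp [hA]
  have hvB : v' ∈ (B : Set V) := by simp [hB]
  have hwB : w ∈ (B : Set V) := by simp [hB]
  have dvA : DependsOn (fun σ => spin (σ v) * wt site SA c σ) (A : Set V) := by
    intro x y h
    simp only
    rw [h v hvA, dA h]
  have dvB : DependsOn (fun σ => spin (σ v') * wt site SB c σ) (B : Set V) := by
    intro x y h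
    simp only
    rw [h v' hvB, dB h]
  have dwB : DependsOn (fun σ => spin (σ w) * wt site SB c σ) (B : Set V) := by
    intro x y h
    simp only
    rw [h w hwB, dB h]
  have dvwB : DependsOn (fun σ => spin (σ v') * (spin (σ w) * wt site SB c σ)) (B : Set V) := by
    intro x y h
    simp only
    rw [h v' hvB, h w hwB, dB h]
  set a0 := ∫ σ, wt site SA c σ ∂μ with ha0
  set a1 := ∫ σ, spin (σ v) * wt site SA c σ ∂μ with ha1
  set b0 := ∫ σ, wt site SB c σ ∂μ with hb0
  set b1 := ∫ σ, spin (σ v') * wt site SB c σ ∂μ with hb1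
  set n0 := ∫ σ, spin (σ w) * wt site SB c σ ∂μ with hn0
  set n1 := ∫ σ, spin (σ v') * (spin (σ w) * wt site SB c σ) ∂μ with hn1
  have sA : ∫ σ, spin (σ v) * (spin (σ v) * wt site SA c σ) ∂μ = a0 := by
    rw [ha0]
    refine integral_congr_ae (Filter.Eventually.of_forall fun σ => ?_)
    simp only [← mul_assoc, spin_mul_self, one_mul]
  have sB : ∫ σ, spin (σ v') * (spin (σ v') * wt site SB c σ) ∂μ = b0 := by
    rw [hb0]
    refine integral_congr_ae (Filter.Eventually.of_forall fun σ => ?_)
    simp only [← mul_assoc, spin_mul_self, one_mul]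
  have sB' : ∫ σ, spin (σ v') * (spin (σ v') * (spin (σ w) * wt site SB c σ)) ∂μ = n0 := by
    rw [hn0]
    refine integral_congr_ae (Filter.Eventually.of_forall fun σ => ?_)
    simp only [← mul_assoc, spin_mul_self, one_mul]
  have e0 : evid μ site S c = a0 * b0 + θ * a1 * b1 := by
    have := key _ _ dA dB
    rw [← this]
    unfold evid
    exact integral_congr_ae (Filter.Eventually.of_forall fun σ => hsplit σ)
  have e1 : ∫ σ, spin (σ v) * wt site S c σ ∂μ = a1 * b0 + θ * a0 * b1 := by
    have := key _ _ dvA dB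
    rw [sA] at this
    rw [← this]
    refine integral_congr_ae (Filter.Eventually.of_forall fun σ => ?_)
    simp only [hsplit σ]
    ring
  have e2 : ∫ σ, spin (σ v') * wt site S c σ ∂μ = a0 * b1 + θ * a1 * b0 := by
    have := key _ _ dA dvB
    rw [sB] at this
    rw [← this]
    refine integral_congr_ae (Filter.Eventually.of_forall fun σ => ?_)
    simp only [hsplit σ]
    ring
  have e3 : ∫ σ, spin (σ w) * wt site S c σ ∂μ = a0 * n0 + θ * a1 * n1 := by
    have := key _ _ dA dwB
    rw [← this]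
    refine integral_congr_ae (Filter.Eventually.of_forall fun σ => ?_)
    simp only [hsplit σ]
    ring
  have e4 : ∫ σ, spin (σ v) * spin (σ w) * wt site S c σ ∂μ = a1 * n0 + θ * a0 * n1 := by
    have := key _ _ dvA dwB
    rw [sA] at this
    rw [← this]
    refine integral_congr_ae (Filter.Eventually.of_forall fun σ => ?_)
    simp only [hsplit σ]
    ring
  have e5 : ∫ σ, spin (σ v') * spin (σ w) * wt site S c σ ∂μ = a0 * n1 + θ * a1 * n0 := by
    have := key _ _ dA dvwB
    rw [sB'] at this
    rw [← this]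
    refine integral_congr_ae (Filter.Eventually.of_forall fun σ => ?_)
    simp only [hsplit σ]
    ring
  have pa : 0 < a0 := evid_pos hcA
  have pb : 0 < b0 := evid_pos hcB
  have qa : |a1| < a0 := by
    have := abs_mag_lt (μ := μ) (site := site) hμ.mean_zero hcA v
    unfold mag at this
    rw [abs_div] at this
    change |a1| / |a0| < 1 at this
    rwa [abs_of_pos pa, div_lt_one pa] at this
  have qb : |b1| < b0 := by
    have := abs_mag_lt (μ := μ) (site := site) hμ.mean_zero hcB v'
    unfold mag at this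
    rw [abs_div] at this
    change |b1| / |b0| < 1 at this
    rwa [abs_of_pos pb, div_lt_one pb] at this
  obtain ⟨-, h5, h6⟩ := edge_alg (n0 := n0) (n1 := n1) h0 h1 pa qa pb qb rfl rfl rfl rfl rfl
  refine ⟨b1 / b0, ?_, ?_, ?_⟩
  · rw [abs_div, abs_of_pos pb, div_le_one pb]
    exact qb.le
  · unfold mag
    rw [e0, e1, e2]
    exact h5
  · unfold cov mag cor
    rw [e0, e1, e2, e3, e4, e5]
    exact h6

theorem cov_self {μ : Measure (V → Bool)} [IsProbabilityMeasure μ] {site : ι → V}
    {S : Finset ι} {c : ι → ℝ} (hc : ∀ i ∈ S, |c i| < 1) (v : V) :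
    cov μ site S c v v = 1 - mag μ site S c v ^ 2 := by
  unfold cov
  rw [cor_self hc]
  ring

theorem one_sub_mag_sq_pos {G : SimpleGraph V} {θ : ℝ} {μ : Measure (V → Bool)}
    (hμ : IsTreeIsing G θ μ) {site : ι → V}
    {S : Finset ι} {c : ι → ℝ} (hc : ∀ i ∈ S, |c i| < 1) (v : V) :
    0 < 1 - mag μ site S c v ^ 2 := by
  have := hμ.isProb
  have := abs_mag_lt (μ := μ) (site := site) hμ.mean_zero hc v
  have h2 := sq_lt_one_iff_abs_lt_one (mag μ site S c v) |>.mpr this
  linarith

theorem exists_path_aux {G : SimpleGraph V} {θ : ℝ} {μ : Measure (V → Bool)}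
    (hG : G.IsTree) (hμ : IsTreeIsing G θ μ) (h0 : 0 ≤ θ) (h1 : θ < 1)
    (site : ι → V) (w : V) (n : ℕ) : ∀ v : V, G.dist v w = n →
    ∃ p : ℕ → V, p 0 = v ∧ p n = w ∧ (∀ j ≤ n, G.dist v (p j) ≤ n) ∧
      (∀ (S : Finset ι) (c : ι → ℝ), (∀ i ∈ S, |c i| < 1) →
        |cov μ site S c v w / (1 - mag μ site S c v ^ 2)| ≤ θ ^ n) ∧
      (∀ (S : Finset ι) (c : ι → ℝ) (S' : Finset ι) (c' : ι → ℝ),
        (∀ i ∈ S, |c i| < 1) → (∀ i ∈ S', |c' i| < 1) →
        |cov μ site S c v w / (1 - mag μ site S c v ^ 2) -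
            cov μ site S' c' v w / (1 - mag μ site S' c' v ^ 2)| ≤
          2 / (1 - θ) ^ 2 * θ ^ n *
            (2 * ∑ j ∈ Finset.range (n + 1), |mag μ site S c (p j) - mag μ site S' c' (p j)| -
              |mag μ site S c v - mag μ site S' c' v|)) := by
  have := hμ.isProb
  induction n with
  | zero =>
    intro v hv
    have hvw : v = w := by
      rwa [hG.connected.dist_eq_zero_iff] at hv
    subst hvw
    refine ⟨fun _ => v, rfl, rfl, fun j _ => by simp, fun S c hc => ?_, fun S c S' c' hc hc' => ?_⟩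
    · rw [cov_self hc, div_self (one_sub_mag_sq_pos hμ hc v).ne']
      simp
    · rw [cov_self hc, cov_self hc', div_self (one_sub_mag_sq_pos hμ hc v).ne',
        div_self (one_sub_mag_sq_pos hμ hc' v).ne', sub_self, abs_zero]
      simp only [pow_zero, mul_one, zero_add, Finset.range_one, Finset.sum_singleton]
      have : 0 ≤ 2 / (1 - θ) ^ 2 := by positivity
      refine mul_nonneg this ?_
      linarith [abs_nonneg (mag μ site S c v - mag μ site S' c' v)]
  | succ n ih =>
    intro v hv
    have hne : v ≠ w := by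
      rintro rfl
      simp at hv
    obtain ⟨v', hadj, hv'⟩ := exists_adj_closer hG.connected hne
    have hd' : G.dist v' w = n := by omega
    obtain ⟨p, hp0, hpn, hpd, hb1, hb2⟩ := ih v' hd'
    refine ⟨fun j => Nat.casesOn j v p, rfl, hpn, ?_, ?_, ?_⟩
    · intro j hj
      cases j with
      | zero => simp
      | succ j =>
        have h3 := hpd j (by omega)
        have h4 : G.dist v (p j) ≤ G.dist v v' + G.dist v' (p j) :=
          hG.connected.dist_triangle
        have h5 : G.dist v v' = 1 := SimpleGraph.dist_eq_one_iff_adj.mpr hadj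
        change G.dist v (p j) ≤ n + 1
        omega
    · intro S c hc
      obtain ⟨M, hM, -, hrel⟩ := edge_relation (w := w) hG hμ h0 h1 site hadj (by omega) S c hc
      rw [hrel, abs_mul, pow_succ' θ n]
      refine mul_le_mul ?_ (hb1 S c hc) (abs_nonneg _) h0
      rw [abs_of_nonneg (lam_nonneg h0 h1 hM)]
      exact lam_le h0 h1 hM
    · intro S c S' c' hc hc'
      obtain ⟨M, hM, hG1, hrel⟩ := edge_relation (w := w) hG hμ h0 h1 site hadj (by omega) S c hc
      obtain ⟨M', hM', hG1', hrel'⟩ := edge_relation (w := w) hG hμ h0 h1 site hadj (by omega) S' c' hc'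
      rw [hrel, hrel']
      set K := cov μ site S c v' w / (1 - mag μ site S c v' ^ 2) with hK
      set K' := cov μ site S' c' v' w / (1 - mag μ site S' c' v' ^ 2) with hK'
      have hsum : ∑ j ∈ Finset.range (n + 1 + 1),
            |mag μ site S c (Nat.casesOn j v p) - mag μ site S' c' (Nat.casesOn j v p)| =
          |mag μ site S c v - mag μ site S' c' v| +
          ∑ j ∈ Finset.range (n + 1), |mag μ site S c (p j) - mag μ site S' c' (p j)| := by
        rw [Finset.sum_range_succ', add_comm]
        rfl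
      rw [hsum]
      set Sp := ∑ j ∈ Finset.range (n + 1), |mag μ site S c (p j) - mag μ site S' c' (p j)|
      have hlip := lam_lipschitz (M := M) (M' := M') (m := mag μ site S c v)
        (m' := mag μ site S' c' v) h0 h1 hM hM' (abs_mag_le hc v)
      rw [← hG1, ← hG1'] at hlip
      have hK1 : |K| ≤ θ ^ n := hb1 S c hc
      have hK2 := hb2 S c S' c' hc hc'
      have hlam : |lam θ M'| ≤ θ := by
        rw [abs_of_nonneg (lam_nonneg h0 h1 hM')]
        exact lam_le h0 h1 hM'
      have hdec : lam θ M * K - lam θ M' * K' = (lam θ M - lam θ M') * K + lam θ M' * (K - K') := by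
        ring
      rw [hdec]
      set δv := |mag μ site S c v - mag μ site S' c' v|
      set δv' := |mag μ site S c v' - mag μ site S' c' v'|
      have hθn : 0 ≤ θ ^ n := pow_nonneg h0 n
      calc |(lam θ M - lam θ M') * K + lam θ M' * (K - K')|
          ≤ |lam θ M - lam θ M'| * |K| + |lam θ M'| * |K - K'| := by
            rw [← abs_mul, ← abs_mul]
            exact abs_add_le _ _
        _ ≤ 2 * θ / (1 - θ) ^ 2 * (δv + δv') * θ ^ n +
            θ * (2 / (1 - θ) ^ 2 * θ ^ n * (2 * Sp - δv')) := by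
            refine add_le_add (mul_le_mul hlip hK1 (abs_nonneg _) ?_)
              (mul_le_mul hlam hK2 (abs_nonneg _) h0)
            exact (abs_nonneg _).trans hlip
        _ = 2 / (1 - θ) ^ 2 * θ ^ (n + 1) * (2 * (δv + Sp) - δv) := by ring

theorem exists_path_bound {G : SimpleGraph V} {θ : ℝ} {μ : Measure (V → Bool)}
    (hG : G.IsTree) (hμ : IsTreeIsing G θ μ) (h0 : 0 ≤ θ) (h1 : θ < 1)
    (site : ι → V) (v w : V) :
    ∃ p : ℕ → V, p 0 = v ∧ p (G.dist v w) = w ∧
      (∀ j ≤ G.dist v w, G.dist v (p j) ≤ G.dist v w) ∧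
      (∀ (S : Finset ι) (c : ι → ℝ), (∀ i ∈ S, |c i| < 1) →
        |cov μ site S c v w| ≤ θ ^ G.dist v w) ∧
      (∀ (S : Finset ι) (c : ι → ℝ) (S' : Finset ι) (c' : ι → ℝ),
        (∀ i ∈ S, |c i| < 1) → (∀ i ∈ S', |c' i| < 1) →
        |cov μ site S c v w - cov μ site S' c' v w| ≤
          Cθ θ * θ ^ G.dist v w *
            ∑ j ∈ Finset.range (G.dist v w + 1),
              |mag μ site S c (p j) - mag μ site S' c' (p j)|) := by
  have := hμ.isProb
  obtain ⟨p, hp0, hpn, hpd, hb1, hb2⟩ :=
    exists_path_aux hG hμ h0 h1 site w (G.dist v w) v rfl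
  refine ⟨p, hp0, hpn, hpd, fun S c hc => ?_, fun S c S' c' hc hc' => ?_⟩
  · have hpos := one_sub_mag_sq_pos hμ (site := site) hc v
    have h2 := hb1 S c hc
    rw [abs_div, abs_of_pos hpos, div_le_iff₀ hpos] at h2
    refine h2.trans (mul_le_of_le_one_right (pow_nonneg h0 _) ?_)
    nlinarith [sq_nonneg (mag μ site S c v)]
  · have hpos := one_sub_mag_sq_pos hμ (site := site) hc v
    have hpos' := one_sub_mag_sq_pos hμ (site := site) hc' v
    have h2 := hb1 S c hc
    have h3 := hb2 S c S' c' hc hc'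
    set m := mag μ site S c v with hm
    set m' := mag μ site S' c' v with hm'
    set n := G.dist v w with hn
    set Sg := ∑ j ∈ Finset.range (n + 1), |mag μ site S c (p j) - mag μ site S' c' (p j)| with hSg
    have hθn : 0 ≤ θ ^ n := pow_nonneg h0 n
    have hδ : |m - m'| ≤ Sg := by
      rw [hSg]
      have h4 : |m - m'| = |mag μ site S c (p 0) - mag μ site S' c' (p 0)| := by rw [hp0]
      rw [h4]
      exact Finset.single_le_sum (f := fun j => |mag μ site S c (p j) - mag μ site S' c' (p j)|)
        (fun j _ => abs_nonneg _) (Finset.mem_range.mpr (Nat.succ_pos n))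
    have hSg0 : 0 ≤ Sg := (abs_nonneg _).trans hδ
    have e1 : cov μ site S c v w = (1 - m ^ 2) * (cov μ site S c v w / (1 - m ^ 2)) := by
      field_simp
    have e2 : cov μ site S' c' v w = (1 - m' ^ 2) * (cov μ site S' c' v w / (1 - m' ^ 2)) := by
      field_simp
    set K := cov μ site S c v w / (1 - m ^ 2)
    set K' := cov μ site S' c' v w / (1 - m' ^ 2)
    rw [e1, e2]
    have e3 : (1 - m ^ 2) * K - (1 - m' ^ 2) * K' =
        -((m - m') * (m + m')) * K + (1 - m' ^ 2) * (K - K') := by ring
    rw [e3]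
    have hmm : |m + m'| ≤ 2 := by
      have a1 : |m| ≤ 1 := abs_mag_le hc v
      have a2 : |m'| ≤ 1 := abs_mag_le hc' v
      exact (abs_add_le _ _).trans (by linarith)
    have hp' : |1 - m' ^ 2| ≤ 1 := by
      rw [abs_of_pos hpos']
      nlinarith [sq_nonneg m']
    have hC : 0 ≤ 2 / (1 - θ) ^ 2 * θ ^ n := by positivity
    calc |-((m - m') * (m + m')) * K + (1 - m' ^ 2) * (K - K')|
        ≤ |m - m'| * |m + m'| * |K| + |1 - m' ^ 2| * |K - K'| := by
          have a1 : |m - m'| * |m + m'| * |K| = |-((m - m') * (m + m')) * K| := by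
            rw [abs_mul, abs_neg, abs_mul]
          rw [a1, ← abs_mul]
          exact abs_add_le _ _
      _ ≤ Sg * 2 * θ ^ n + 1 * (2 / (1 - θ) ^ 2 * θ ^ n * (2 * Sg - |m - m'|)) := by
          refine add_le_add ?_ (mul_le_mul hp' h3 (abs_nonneg _) zero_le_one)
          refine mul_le_mul (mul_le_mul hδ hmm (abs_nonneg _) hSg0) h2 (abs_nonneg _) ?_
          linarith
      _ ≤ Sg * 2 * θ ^ n + 1 * (2 / (1 - θ) ^ 2 * θ ^ n * (2 * Sg)) := by
          have : 2 * Sg - |m - m'| ≤ 2 * Sg := by linarith [abs_nonneg (m - m')]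
          have := mul_le_mul_of_nonneg_left this hC
          linarith
      _ = Cθ θ * θ ^ n * Sg := by
          unfold Cθ
          ring

end Vale.Agent.P161
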