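import Mathlib
import Vale.Agent.P161.Alg
import Vale.Agent.P161.PathBound

open MeasureTheory

namespace Vale.Agent.P161

universe u

variable {V : Type u} {ι : Type*}

section update

variable {μ : Measure (V → Bool)} [IsProbabilityMeasure μ] {site : ι → V} {S : Finset ι}
  {c c' : ι → ℝ}

open Classical in
theorem wt_cons {e : ι} (he : e ∉ S) (σ : V → Bool) :
    wt site (insert e S) c σ = (1 + c e * spin (σ (site e))) * wt site S c σ := by
  unfold wt
  rw [Finset.prod_insert he]

open Classical in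
theorem evid_cons {e : ι} (he : e ∉ S) (hc : ∀ i ∈ S, |c i| < 1) :
    evid μ site (insert e S) c = evid μ site S c * (1 + c e * mag μ site S c (site e)) := by
  have hZ := evid_pos (μ := μ) (site := site) hc
  have hW : Integrable (wt site S c) μ := integrable_wt
  have hSW := integrable_spin_mul hW (site e)
  have h1 : evid μ site (insert e S) c =
      evid μ site S c + c e * ∫ σ, spin (σ (site e)) * wt site S c σ ∂μ := by
    unfold evid
    rw [← integral_const_mul, ← integral_add hW (hSW.const_mul _)]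
    refine integral_congr_ae (Filter.Eventually.of_forall fun σ => ?_)
    simp only [wt_cons he]
    ring
  rw [h1]
  unfold mag
  field_simp

open Classical in
theorem mag_cons {e : ι} (he : e ∉ S) (hc : ∀ i ∈ S, |c i| < 1) (v : V) :
    mag μ site (insert e S) c v =
      (mag μ site S c v + c e * cor μ site S c v (site e)) /
        (1 + c e * mag μ site S c (site e)) := by
  have hZ := evid_pos (μ := μ) (site := site) hc
  have hW : Integrable (wt site S c) μ := integrable_wt
  have hSW := integrable_spin_mul hW v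
  have hSSW := integrable_spin_mul (integrable_spin_mul hW (site e)) v
  have h1 : ∫ σ, spin (σ v) * wt site (insert e S) c σ ∂μ =
      ∫ σ, spin (σ v) * wt site S c σ ∂μ +
        c e * ∫ σ, spin (σ v) * spin (σ (site e)) * wt site S c σ ∂μ := by
    have h2 : ∫ σ, spin (σ v) * spin (σ (site e)) * wt site S c σ ∂μ =
        ∫ σ, spin (σ v) * (spin (σ (site e)) * wt site S c σ) ∂μ := by
      refine integral_congr_ae (Filter.Eventually.of_forall fun σ => ?_)
      simp only
      ring
    rw [h2, ← integral_const_mul, ← integral_add hSW (hSSW.const_mul _)]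
    refine integral_congr_ae (Filter.Eventually.of_forall fun σ => ?_)
    simp only [wt_cons he]
    ring
  have h3 : ∫ σ, spin (σ v) * wt site S c σ ∂μ = mag μ site S c v * evid μ site S c := by
    unfold mag
    field_simp
  have h4 : ∫ σ, spin (σ v) * spin (σ (site e)) * wt site S c σ ∂μ =
      cor μ site S c v (site e) * evid μ site S c := by
    unfold cor
    field_simp
  have h5 : mag μ site (insert e S) c v =
      (∫ σ, spin (σ v) * wt site (insert e S) c σ ∂μ) / evid μ site (insert e S) c := rfl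
  rw [h5, h1, evid_cons he hc, h3, h4]
  by_cases h6 : 1 + c e * mag μ site S c (site e) = 0
  · rw [h6]; simp
  · field_simp

end update

section real

/-- The increment of the posterior mean when an observation of a spin with posterior mean `m` and
covariance `J` is made. -/
noncomputable def incr (g m J x : ℝ) : ℝ := g * T (g * m) x * J / (1 + g * T (g * m) x * m)

variable {g m m' J J' x : ℝ}

theorem gT_mul_le (g0 : 0 ≤ g) (g1 : g ≤ 1 / 2) (hm : |m| ≤ 1) (x : ℝ) :
    1 / 2 ≤ 1 + g * T (g * m) x * m := by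
  have hT : |T (g * m) x| ≤ 1 := by
    refine abs_T_le ?_ x
    rw [abs_mul, abs_of_nonneg g0]
    nlinarith [abs_nonneg m]
  have h1 : |g * T (g * m) x * m| ≤ 1 / 2 := by
    rw [abs_mul, abs_mul, abs_of_nonneg g0]
    calc g * |T (g * m) x| * |m| ≤ (1 / 2) * 1 * 1 := by
          refine mul_le_mul (mul_le_mul g1 hT (abs_nonneg _) (by norm_num)) hm (abs_nonneg _)
            (by norm_num)
      _ = 1 / 2 := by norm_num
  have := neg_abs_le (g * T (g * m) x * m)
  linarith

theorem abs_gm_lt (g0 : 0 ≤ g) (g1 : g ≤ 1 / 2) (hm : |m| ≤ 1) : |g * m| ≤ 1 / 2 := by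
  rw [abs_mul, abs_of_nonneg g0]
  nlinarith [abs_nonneg m]

theorem measurable_incr (g m J : ℝ) : Measurable (incr g m J) := by
  have h1 : Measurable (fun x => T (g * m) x) := measurable_T.comp (measurable_const.prodMk measurable_id)
  unfold incr
  exact ((measurable_const.mul h1).mul measurable_const).div
    (measurable_const.add ((measurable_const.mul h1).mul measurable_const))

theorem abs_incr_le (g0 : 0 ≤ g) (g1 : g ≤ 1 / 2) (hm : |m| ≤ 1) (x : ℝ) :
    |incr g m J x| ≤ 2 * g * |J| := by
  have h1 := gT_mul_le g0 g1 hm x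
  have hT : |T (g * m) x| ≤ 1 := abs_T_le ((abs_gm_lt g0 g1 hm).trans_lt (by norm_num)) x
  unfold incr
  rw [abs_div, abs_of_pos (show 0 < 1 + g * T (g * m) x * m by linarith), div_le_iff₀ (by linarith),
    abs_mul, abs_mul, abs_of_nonneg g0]
  have h2 : g * |T (g * m) x| * |J| ≤ g * |J| := by
    have := mul_le_mul_of_nonneg_left hT g0
    have := mul_le_mul_of_nonneg_right this (abs_nonneg J)
    linarith
  have h3 : 0 ≤ g * |J| := mul_nonneg g0 (abs_nonneg _)
  nlinarith

theorem integrable_incr (g0 : 0 ≤ g) (g1 : g ≤ 1 / 2) (hm : |m| ≤ 1) :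
    Integrable (incr g m J) unif :=
  Integrable.of_bound (measurable_incr g m J).aestronglyMeasurable (2 * g * |J|)
    (Filter.Eventually.of_forall fun x => abs_incr_le g0 g1 hm x)

theorem integral_id_unif : ∫ s, s ∂unif = 0 := by
  unfold unif
  rw [integral_smul_measure, integral_Icc_eq_integral_Ioc,
    ← intervalIntegral.integral_of_le (by norm_num), integral_id]
  simp

theorem integral_incr (g0 : 0 ≤ g) (g1 : g ≤ 1 / 2) (hm : |m| ≤ 1) :
    ∫ x, incr g m J x ∂unif = 0 := by
  have ha : |g * m| < 1 := (abs_gm_lt g0 g1 hm).trans_lt (by norm_num)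
  have h1 := integral_T ha (fun s => g * s * J / (1 + g * s * m))
  unfold incr
  rw [h1]
  have h2 : ∫ s, g * s * J / (1 + g * s * m) * (1 + g * m * s) ∂unif = ∫ s, (g * J) * s ∂unif := by
    refine integral_congr_ae ?_
    filter_upwards [ae_unif] with s hs
    have h3 : 0 < 1 + g * s * m := by
      have h4 : |g * s * m| ≤ 1 / 2 := by
        rw [abs_mul, abs_mul, abs_of_nonneg g0]
        calc g * |s| * |m| ≤ (1 / 2) * 1 * 1 := by
              refine mul_le_mul (mul_le_mul g1 hs (abs_nonneg _) (by norm_num)) hm (abs_nonneg _)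
                (by norm_num)
          _ = 1 / 2 := by norm_num
      have := neg_abs_le (g * s * m)
      linarith
    have h5 : g * m * s = g * s * m := by ring
    rw [h5]
    field_simp
  rw [h2, integral_const_mul, integral_id_unif, mul_zero]

theorem abs_incr_sub_le (g0 : 0 ≤ g) (g1 : g ≤ 1 / 2) (hm : |m| ≤ 1) (hm' : |m'| ≤ 1) (x : ℝ) :
    |incr g m J x - incr g m' J' x| ≤ 2 * g * |J - J'| + 4 * g * |J'| * |m - m'| := by
  have h1 := gT_mul_le g0 g1 hm x
  have h1' := gT_mul_le g0 g1 hm' x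
  have hT : |T (g * m) x| ≤ 1 := abs_T_le ((abs_gm_lt g0 g1 hm).trans_lt (by norm_num)) x
  have hT' : |T (g * m') x| ≤ 1 := abs_T_le ((abs_gm_lt g0 g1 hm').trans_lt (by norm_num)) x
  have hTT : |T (g * m) x - T (g * m') x| ≤ g * |m - m'| := by
    have := T_lipschitz (c := 1 / 2) (by norm_num) (abs_gm_lt g0 g1 hm) (abs_gm_lt g0 g1 hm') x
    have h2 : |g * m - g * m'| = g * |m - m'| := by rw [← mul_sub, abs_mul, abs_of_nonneg g0]
    rw [h2] at this
    norm_num at this
    exact this
  unfold incr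
  set t := T (g * m) x
  set t' := T (g * m') x
  have d1 : 0 < 1 + g * t * m := by linarith
  have d2 : 0 < 1 + g * t' * m' := by linarith
  have e : g * t * J / (1 + g * t * m) - g * t' * J' / (1 + g * t' * m') =
      g * t * (J - J') / (1 + g * t * m) +
      J' * (g * (t - t' + g * t * t' * (m' - m)) / ((1 + g * t * m) * (1 + g * t' * m'))) := by
    field_simp
    ring
  rw [e]
  have b1 : |g * t * (J - J') / (1 + g * t * m)| ≤ 2 * g * |J - J'| := by
    rw [abs_div, abs_of_pos d1, div_le_iff₀ d1, abs_mul, abs_mul, abs_of_nonneg g0]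
    have h2 : g * |t| * |J - J'| ≤ g * |J - J'| := by
      have := mul_le_mul_of_nonneg_left hT g0
      have := mul_le_mul_of_nonneg_right this (abs_nonneg (J - J'))
      linarith
    have h3 : 0 ≤ g * |J - J'| := mul_nonneg g0 (abs_nonneg _)
    nlinarith
  have b2 : |g * (t - t' + g * t * t' * (m' - m)) / ((1 + g * t * m) * (1 + g * t' * m'))| ≤
      4 * g * |m - m'| := by
    rw [abs_div, abs_of_pos (mul_pos d1 d2), div_le_iff₀ (mul_pos d1 d2), abs_mul, abs_of_nonneg g0]
    have h3 : |t - t' + g * t * t' * (m' - m)| ≤ |m - m'| := by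
      have h4 : |g * t * t' * (m' - m)| ≤ g * |m - m'| := by
        rw [abs_mul, abs_mul, abs_mul, abs_of_nonneg g0, abs_sub_comm m' m]
        have h5 : g * |t| * |t'| ≤ g := by
          calc g * |t| * |t'| ≤ g * 1 * 1 :=
                mul_le_mul (mul_le_mul_of_nonneg_left hT g0) hT' (abs_nonneg _) (by linarith)
            _ = g := by ring
        exact mul_le_mul_of_nonneg_right h5 (abs_nonneg _)
      calc |t - t' + g * t * t' * (m' - m)| ≤ |t - t'| + |g * t * t' * (m' - m)| := abs_add_le _ _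
        _ ≤ g * |m - m'| + g * |m - m'| := add_le_add hTT h4
        _ ≤ |m - m'| := by nlinarith [abs_nonneg (m - m')]
    have h6 : 1 / 4 ≤ (1 + g * t * m) * (1 + g * t' * m') := by nlinarith
    have h7 : g * |t - t' + g * t * t' * (m' - m)| ≤ g * |m - m'| :=
      mul_le_mul_of_nonneg_left h3 g0
    have h8 : 0 ≤ g * |m - m'| := mul_nonneg g0 (abs_nonneg _)
    nlinarith
  calc |g * t * (J - J') / (1 + g * t * m) +
      J' * (g * (t - t' + g * t * t' * (m' - m)) / ((1 + g * t * m) * (1 + g * t' * m')))|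
      ≤ |g * t * (J - J') / (1 + g * t * m)| +
        |J'| * |g * (t - t' + g * t * t' * (m' - m)) / ((1 + g * t * m) * (1 + g * t' * m'))| := by
        rw [← abs_mul]
        exact abs_add_le _ _
    _ ≤ 2 * g * |J - J'| + |J'| * (4 * g * |m - m'|) :=
        add_le_add b1 (mul_le_mul_of_nonneg_left b2 (abs_nonneg _))
    _ = _ := by ring

theorem integral_sq_add {X : ℝ → ℝ} (hX : Integrable X unif)
    (hX2 : Integrable (fun x => X x ^ 2) unif) (h0 : ∫ x, X x ∂unif = 0) (a : ℝ) :
    ∫ x, (a + X x) ^ 2 ∂unif = a ^ 2 + ∫ x, X x ^ 2 ∂unif := by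
  have e : ∀ x, (a + X x) ^ 2 = a ^ 2 + (2 * a * X x + X x ^ 2) := fun x => by ring
  simp only [e]
  have h1 : Integrable (fun x => 2 * a * X x) unif := hX.const_mul _
  have h2 : Integrable (fun x => 2 * a * X x + X x ^ 2) unif := h1.add hX2
  rw [integral_add (integrable_const _) h2, integral_add h1 hX2, integral_const_mul, h0]
  simp

end real

section step

variable {μ : Measure (V → Bool)} {site : ι → V}

/-- The path bound of `exists_path_bound` for a given path `p`. -/
structure PathData (G : SimpleGraph V) (θ : ℝ) (μ : Measure (V → Bool)) (site : ι → V)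
    (v w : V) (p : ℕ → V) : Prop where
  zero : p 0 = v
  last : p (G.dist v w) = w
  dist_le : ∀ j ≤ G.dist v w, G.dist v (p j) ≤ G.dist v w
  cov_le : ∀ (S : Finset ι) (c : ι → ℝ), (∀ i ∈ S, |c i| < 1) →
    |cov μ site S c v w| ≤ θ ^ G.dist v w
  cov_sub_le : ∀ (S : Finset ι) (c : ι → ℝ) (S' : Finset ι) (c' : ι → ℝ),
    (∀ i ∈ S, |c i| < 1) → (∀ i ∈ S', |c' i| < 1) →
    |cov μ site S c v w - cov μ site S' c' v w| ≤
      Cθ θ * θ ^ G.dist v w *
        ∑ j ∈ Finset.range (G.dist v w + 1), |mag μ site S c (p j) - mag μ site S' c' (p j)|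

theorem exists_pathData {G : SimpleGraph V} {θ : ℝ}
    (hG : G.IsTree) (hμ : IsTreeIsing G θ μ) (h0 : 0 ≤ θ) (h1 : θ < 1)
    (site : ι → V) (v w : V) : ∃ p : ℕ → V, PathData G θ μ site v w p := by
  obtain ⟨p, h1, h2, h3, h4, h5⟩ := exists_path_bound hG hμ h0 h1 site v w
  exact ⟨p, h1, h2, h3, h4, h5⟩

open Classical in
theorem mag_step [IsProbabilityMeasure μ] {g : ℝ} (g0 : 0 ≤ g) (g1 : g ≤ 1 / 2)
    {S : Finset ι} {c : ι → ℝ} (hc : ∀ i ∈ S, |c i| < 1) {e : ι} (he : e ∉ S) (v : V) (x : ℝ) :
    mag μ site (insert e S)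
        (Function.update c e (g * T (g * mag μ site S c (site e)) x)) v =
      mag μ site S c v + incr g (mag μ site S c (site e)) (cov μ site S c v (site e)) x := by
  set m := mag μ site S c (site e) with hm
  have hm1 : |m| ≤ 1 := abs_mag_le hc _
  have h1 : ∀ i ∈ S, (Function.update c e (g * T (g * m) x)) i = c i := by
    intro i hi
    rw [Function.update_of_ne]
    rintro rfl
    exact he hi
  have h2 : ∀ i ∈ S, |(Function.update c e (g * T (g * m) x)) i| < 1 := fun i hi => by
    rw [h1 i hi]; exact hc i hi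
  rw [mag_cons he h2, mag_congr h1 v, mag_congr h1 (site e), cor_congr h1, ← hm,
    Function.update_self]
  have h3 := gT_mul_le g0 g1 hm1 x
  have h4 : 1 + g * T (g * m) x * m ≠ 0 := by linarith
  unfold incr cov
  rw [← hm, div_eq_iff h4, add_mul, div_mul_cancel₀ _ h4]
  ring

/-- The constant in the one-step inequality. -/
noncomputable def C1 (θ : ℝ) : ℝ := (2 * Cθ θ + 4) ^ 2

theorem one_le_C1 (θ : ℝ) : 1 ≤ C1 θ := by
  have h : 0 ≤ 4 / (1 - θ) ^ 2 := by positivity
  unfold C1 Cθ
  nlinarith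

open Classical in
theorem step_two {G : SimpleGraph V} {θ : ℝ} [IsProbabilityMeasure μ] (h0 : 0 ≤ θ)
    {g : ℝ} (g0 : 0 ≤ g) (g1 : g ≤ 1 / 2)
    {S S' : Finset ι} {c c' : ι → ℝ} (hc : ∀ i ∈ S, |c i| < 1) (hc' : ∀ i ∈ S', |c' i| < 1)
    {e : ι} (he : e ∉ S) (he' : e ∉ S') {v : V} {p : ℕ → V}
    (hp : PathData G θ μ site v (site e) p) :
    (mag μ site S c v - mag μ site S' c' v) ^ 2 ≤
      ∫ x, (mag μ site (insert e S)
            (Function.update c e (g * T (g * mag μ site S c (site e)) x)) v -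
          mag μ site (insert e S')
            (Function.update c' e (g * T (g * mag μ site S' c' (site e)) x)) v) ^ 2 ∂unif ∧
    ∫ x, (mag μ site (insert e S)
            (Function.update c e (g * T (g * mag μ site S c (site e)) x)) v -
          mag μ site (insert e S')
            (Function.update c' e (g * T (g * mag μ site S' c' (site e)) x)) v) ^ 2 ∂unif ≤
      (mag μ site S c v - mag μ site S' c' v) ^ 2 +
        g ^ 2 * C1 θ * ((G.dist v (site e) : ℝ) + 1) * θ ^ (2 * G.dist v (site e)) *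
          ∑ j ∈ Finset.range (G.dist v (site e) + 1),
            (mag μ site S c (p j) - mag μ site S' c' (p j)) ^ 2 := by
  simp only [mag_step g0 g1 hc he, mag_step g0 g1 hc' he']
  set m := mag μ site S c (site e) with hm
  set m' := mag μ site S' c' (site e) with hm'
  set J := cov μ site S c v (site e) with hJ
  set J' := cov μ site S' c' v (site e) with hJ'
  set n := G.dist v (site e) with hn
  have hm1 : |m| ≤ 1 := abs_mag_le hc _
  have hm1' : |m'| ≤ 1 := abs_mag_le hc' _
  set X : ℝ → ℝ := fun x => incr g m J x - incr g m' J' x with hX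
  have hXm : Measurable X := (measurable_incr g m J).sub (measurable_incr g m' J')
  have hXb : ∀ x, |X x| ≤ 2 * g * |J - J'| + 4 * g * |J'| * |m - m'| :=
    fun x => abs_incr_sub_le g0 g1 hm1 hm1' x
  have hXi : Integrable X unif := (integrable_incr g0 g1 hm1).sub (integrable_incr g0 g1 hm1')
  have hX0 : ∫ x, X x ∂unif = 0 := by
    rw [hX, integral_sub (integrable_incr g0 g1 hm1) (integrable_incr g0 g1 hm1'),
      integral_incr g0 g1 hm1, integral_incr g0 g1 hm1', sub_zero]
  have hXi2 : Integrable (fun x => X x ^ 2) unif := by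
    refine Integrable.of_bound (hXm.pow_const 2).aestronglyMeasurable
      ((2 * g * |J - J'| + 4 * g * |J'| * |m - m'|) ^ 2) (Filter.Eventually.of_forall fun x => ?_)
    rw [Real.norm_eq_abs, abs_pow]
    exact pow_le_pow_left₀ (abs_nonneg _) (hXb x) 2
  have e1 : ∀ x, mag μ site S c v + incr g m J x - (mag μ site S' c' v + incr g m' J' x) =
      (mag μ site S c v - mag μ site S' c' v) + X x := fun x => by rw [hX]; ring
  simp only [e1]
  rw [integral_sq_add hXi hXi2 hX0]
  have hX2nn : 0 ≤ ∫ x, X x ^ 2 ∂unif := integral_nonneg fun x => sq_nonneg _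
  refine ⟨by linarith, ?_⟩
  set Sg := ∑ j ∈ Finset.range (n + 1), |mag μ site S c (p j) - mag μ site S' c' (p j)| with hSg
  have hθn : 0 ≤ θ ^ n := pow_nonneg h0 n
  have hmSg : |m - m'| ≤ Sg := by
    have h4 : |m - m'| = |mag μ site S c (p n) - mag μ site S' c' (p n)| := by
      rw [hn, hp.last]
    rw [h4, hSg]
    exact Finset.single_le_sum (f := fun j => |mag μ site S c (p j) - mag μ site S' c' (p j)|)
      (fun j _ => abs_nonneg _) (Finset.mem_range.mpr (Nat.lt_succ_self n))
  have hSg0 : 0 ≤ Sg := (abs_nonneg _).trans hmSg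
  have hB : ∀ x, |X x| ≤ g * (2 * Cθ θ + 4) * θ ^ n * Sg := by
    intro x
    refine (hXb x).trans ?_
    have k1 := hp.cov_sub_le S c S' c' hc hc'
    have k2 := hp.cov_le S' c' hc'
    have k3 : 2 * g * |J - J'| ≤ 2 * g * (Cθ θ * θ ^ n * Sg) :=
      mul_le_mul_of_nonneg_left k1 (by linarith)
    have k4 : 4 * g * |J'| * |m - m'| ≤ 4 * g * θ ^ n * Sg :=
      mul_le_mul (mul_le_mul_of_nonneg_left k2 (by linarith)) hmSg (abs_nonneg _)
        (mul_nonneg (by linarith) hθn)
    calc 2 * g * |J - J'| + 4 * g * |J'| * |m - m'|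
        ≤ 2 * g * (Cθ θ * θ ^ n * Sg) + 4 * g * θ ^ n * Sg := add_le_add k3 k4
      _ = _ := by ring
  have hint : ∫ x, X x ^ 2 ∂unif ≤ (g * (2 * Cθ θ + 4) * θ ^ n * Sg) ^ 2 := by
    calc ∫ x, X x ^ 2 ∂unif ≤ ∫ _, (g * (2 * Cθ θ + 4) * θ ^ n * Sg) ^ 2 ∂unif := by
          refine integral_mono hXi2 (integrable_const _) fun x => ?_
          simp only
          rw [← sq_abs (X x)]
          exact pow_le_pow_left₀ (abs_nonneg _) (hB x) 2
      _ = _ := by simp
  have hCS : Sg ^ 2 ≤ ((n : ℝ) + 1) * ∑ j ∈ Finset.range (n + 1),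
      (mag μ site S c (p j) - mag μ site S' c' (p j)) ^ 2 := by
    have := sq_sum_le_card_mul_sum_sq (s := Finset.range (n + 1))
      (f := fun j => |mag μ site S c (p j) - mag μ site S' c' (p j)|)
    simp only [Finset.card_range, sq_abs] at this
    rw [hSg]
    push_cast at this
    exact this
  have hfin : (g * (2 * Cθ θ + 4) * θ ^ n * Sg) ^ 2 ≤
      g ^ 2 * C1 θ * ((n : ℝ) + 1) * θ ^ (2 * n) *
          ∑ j ∈ Finset.range (n + 1), (mag μ site S c (p j) - mag μ site S' c' (p j)) ^ 2 := by
    have e5 : (g * (2 * Cθ θ + 4) * θ ^ n * Sg) ^ 2 = g ^ 2 * C1 θ * θ ^ (2 * n) * Sg ^ 2 := by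
      unfold C1
      rw [mul_comm 2 n, pow_mul]
      ring
    rw [e5]
    have hC : 0 ≤ g ^ 2 * C1 θ * θ ^ (2 * n) := by
      have : 0 ≤ C1 θ := by unfold C1; positivity
      positivity
    have := mul_le_mul_of_nonneg_left hCS hC
    linarith
  linarith

open Classical in
theorem step_one {G : SimpleGraph V} {θ : ℝ} [IsProbabilityMeasure μ]
    {g : ℝ} (g0 : 0 ≤ g) (g1 : g ≤ 1 / 2)
    {S' : Finset ι} {c' : ι → ℝ} (hc' : ∀ i ∈ S', |c' i| < 1)
    {e : ι} (he' : e ∉ S') {v : V} {p : ℕ → V}
    (hp : PathData G θ μ site v (site e) p) (a : ℝ) :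
    (a - mag μ site S' c' v) ^ 2 ≤
      ∫ x, (a - mag μ site (insert e S')
            (Function.update c' e (g * T (g * mag μ site S' c' (site e)) x)) v) ^ 2 ∂unif ∧
    ∫ x, (a - mag μ site (insert e S')
            (Function.update c' e (g * T (g * mag μ site S' c' (site e)) x)) v) ^ 2 ∂unif ≤
      (a - mag μ site S' c' v) ^ 2 + 4 * g ^ 2 * θ ^ (2 * G.dist v (site e)) := by
  simp only [mag_step g0 g1 hc' he']
  set m' := mag μ site S' c' (site e) with hm'
  set J' := cov μ site S' c' v (site e) with hJ'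
  set n := G.dist v (site e) with hn
  have hm1' : |m'| ≤ 1 := abs_mag_le hc' _
  set X : ℝ → ℝ := fun x => - incr g m' J' x with hX
  have hXm : Measurable X := (measurable_incr g m' J').neg
  have hXb : ∀ x, |X x| ≤ 2 * g * |J'| := fun x => by
    rw [hX, abs_neg]
    exact abs_incr_le g0 g1 hm1' x
  have hXi : Integrable X unif := (integrable_incr g0 g1 hm1').neg
  have hX0 : ∫ x, X x ∂unif = 0 := by
    rw [hX, integral_neg, integral_incr g0 g1 hm1', neg_zero]
  have hXi2 : Integrable (fun x => X x ^ 2) unif := by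
    refine Integrable.of_bound (hXm.pow_const 2).aestronglyMeasurable
      ((2 * g * |J'|) ^ 2) (Filter.Eventually.of_forall fun x => ?_)
    rw [Real.norm_eq_abs, abs_pow]
    exact pow_le_pow_left₀ (abs_nonneg _) (hXb x) 2
  have e1 : ∀ x, a - (mag μ site S' c' v + incr g m' J' x) =
      (a - mag μ site S' c' v) + X x := fun x => by rw [hX]; ring
  simp only [e1]
  rw [integral_sq_add hXi hXi2 hX0]
  have hX2nn : 0 ≤ ∫ x, X x ^ 2 ∂unif := integral_nonneg fun x => sq_nonneg _
  refine ⟨by linarith, ?_⟩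
  have hJ1 : |J'| ≤ θ ^ n := hp.cov_le S' c' hc'
  have hint : ∫ x, X x ^ 2 ∂unif ≤ (2 * g * θ ^ n) ^ 2 := by
    calc ∫ x, X x ^ 2 ∂unif ≤ ∫ _, (2 * g * θ ^ n) ^ 2 ∂unif := by
          refine integral_mono hXi2 (integrable_const _) fun x => ?_
          simp only
          rw [← sq_abs (X x)]
          refine pow_le_pow_left₀ (abs_nonneg _) ((hXb x).trans ?_) 2
          exact mul_le_mul_of_nonneg_left hJ1 (by linarith)
      _ = _ := by simp
  have e5 : (2 * g * θ ^ n) ^ 2 = 4 * g ^ 2 * θ ^ (2 * n) := by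
    rw [mul_comm 2 n, pow_mul]
    ring
  linarith

end step

end Vale.Agent.P161
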