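import Mathlib
import Vale.Agent.P161.Law
import Vale.Agent.P161.Step

open MeasureTheory

namespace Vale.Agent.P161

universe u

variable {V : Type u} {ι : Type*} {R : Type*} [LinearOrder R]
  {μ : Measure (V → Bool)} {γ : ℝ} {site : ι → V} {r : ι → R} {S S' : Finset ι}

theorem measurable_mag [Countable V] [IsProbabilityMeasure μ] {Ω : Type*}
    [MeasurableSpace Ω] {c : Ω → ι → ℝ} (hc : ∀ i, Measurable fun ω => c ω i) (v : V) :
    Measurable fun ω => mag μ site S (c ω) v := by
  have hwt : Measurable (fun p : Ω × (V → Bool) => wt site S (c p.1) p.2) := by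
    unfold wt
    refine Finset.measurable_fun_prod _ fun i _ => ?_
    refine measurable_const.add (((hc i).comp measurable_fst).mul ?_)
    exact (measurable_spin_apply (site i)).comp measurable_snd
  unfold mag evid
  refine Measurable.div ?_ ?_
  · have h1 : Measurable (fun p : Ω × (V → Bool) => spin (p.2 v) * wt site S (c p.1) p.2) :=
      ((measurable_spin_apply v).comp measurable_snd).mul hwt
    exact (h1.stronglyMeasurable.integral_prod_right (ν := μ)).measurable
  · exact (hwt.stronglyMeasurable.integral_prod_right (ν := μ)).measurable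

/-- The observations produced by the sampler, multiplied by `γ`. -/
noncomputable def gobs (μ : Measure (V → Bool)) (γ : ℝ) (site : ι → V) (r : ι → R)
    (S : Finset ι) (u : ι → ℝ) (i : ι) : ℝ := γ * samp μ γ site r S u i

theorem abs_obs_le [IsProbabilityMeasure μ] (h0 : 0 ≤ γ) (h1 : γ ≤ 1 / 2) (u : ι → ℝ) (i : ι) :
    |gobs μ γ site r S u i| < 1 := by
  unfold gobs
  have := abs_samp_le (μ := μ) (site := site) (r := r) (S := S) (u := u) h0
    (by linarith : γ < 1) i
  rw [abs_mul, abs_of_nonneg h0]
  nlinarith [abs_nonneg (samp μ γ site r S u i)]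

open Classical in
theorem pre_insert_of_lt {e i : ι} (h : r i ≤ r e) : pre r (insert e S) i = pre r S i := by
  ext j
  simp only [mem_pre, Finset.mem_insert]
  constructor
  · rintro ⟨rfl | h1, h2⟩
    · exact absurd h2 (not_lt.mpr h)
    · exact ⟨h1, h2⟩
  · rintro ⟨h1, h2⟩
    exact ⟨Or.inr h1, h2⟩

open Classical in
theorem pre_insert_self {e : ι} (h : ∀ i ∈ S, r i < r e) : pre r (insert e S) e = S := by
  ext j
  simp only [mem_pre, Finset.mem_insert]
  constructor
  · rintro ⟨rfl | h1, h2⟩
    · exact absurd h2 (lt_irrefl _)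
    · exact h1
  · intro h1
    exact ⟨Or.inr h1, h j h1⟩

open Classical in
theorem samp_insert_of_mem {e : ι} (h : ∀ i ∈ S, r i < r e) (u : ι → ℝ) (x : ℝ) {i : ι}
    (hi : i ∈ S) :
    samp μ γ site r (insert e S) (Function.update u e x) i = samp μ γ site r S u i := by
  have hie := h i hi
  refine samp_congr μ γ site (pre_insert_of_lt hie.le) (fun j hj => ?_) ?_
  · rw [Function.update_of_ne]
    rintro rfl
    rw [pre_insert_of_lt hie.le, mem_pre] at hj
    exact lt_irrefl _ (hie.trans hj.2)
  · rw [Function.update_of_ne]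
    rintro rfl
    exact lt_irrefl _ hie

open Classical in
theorem samp_insert_self {e : ι} (h : ∀ i ∈ S, r i < r e) (u : ι → ℝ) (x : ℝ) :
    samp μ γ site r (insert e S) (Function.update u e x) e =
      T (γ * mag μ site S (gobs μ γ site r S u) (site e)) x := by
  rw [samp_eq, pre_insert_self h, Function.update_self]
  congr 2
  refine mag_congr (fun i hi => ?_) _
  rw [samp_insert_of_mem h u x hi]
  rfl

open Classical in
theorem mag_samp_insert {e : ι} (h : ∀ i ∈ S, r i < r e) (u : ι → ℝ) (x : ℝ) (v : V) :
    mag μ site (insert e S) (gobs μ γ site r (insert e S) (Function.update u e x)) v =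
      mag μ site (insert e S) (Function.update (gobs μ γ site r S u) e
        (γ * T (γ * mag μ site S (gobs μ γ site r S u) (site e)) x)) v := by
  refine mag_congr (fun i hi => ?_) _
  rw [Finset.mem_insert] at hi
  have he : e ∉ S := fun he => lt_irrefl _ (h e he)
  rcases hi with rfl | hi
  · rw [Function.update_self]
    unfold gobs
    rw [samp_insert_self h]
    rfl
  · rw [Function.update_of_ne (by rintro rfl; exact he hi)]
    unfold gobs
    rw [samp_insert_of_mem h u x hi]

open Classical in
theorem mag_samp_insert' {e : ι} (h : ∀ i ∈ S, r i < r e) (u : ι → ℝ) (x : ℝ)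
    {S₁ : Finset ι} (hS : S₁ ⊆ S) (v : V) :
    mag μ site S₁ (gobs μ γ site r S₁ (Function.update u e x)) v =
      mag μ site S₁ (gobs μ γ site r S₁ u) v := by
  refine mag_congr (fun i hi => ?_) _
  have he : e ∉ S := fun he => lt_irrefl _ (h e he)
  unfold gobs
  congr 1
  have hie : r i < r e := h i (hS hi)
  refine samp_congr μ γ site rfl (fun j hj => ?_) ?_
  · rw [Function.update_of_ne]
    rintro rfl
    rw [mem_pre] at hj
    exact he (hS hj.1)
  · rw [Function.update_of_ne]
    rintro rfl
    exact he (hS hi)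

open Classical in
/-- The mean square difference of the posterior means at `v`, for the sampler on the events of
`S` in `Q` and for the sampler on `S`. -/
noncomputable def msd (μ : Measure (V → Bool)) (γ : ℝ) (site : ι → V) (r : ι → R)
    (Q : ι → Prop) (S : Finset ι) (v : V) : ℝ :=
  ∫ u, (mag μ site (S.filter Q) (gobs μ γ site r (S.filter Q) u) v -
    mag μ site S (gobs μ γ site r S u) v) ^ 2 ∂(Pu ι)

theorem measurable_mag_obs [Countable V] [IsProbabilityMeasure μ] (v : V) :
    Measurable fun u => mag μ site S (gobs μ γ site r S u) v := by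
  refine measurable_mag (fun i => ?_) v
  unfold gobs
  refine measurable_const.mul ?_
  exact measurable_samp (r := fun _ => r) (u := fun u => u) (fun i j => MeasurableSet.const _)
    (fun i => measurable_pi_apply i) i

theorem abs_mag_obs_le [IsProbabilityMeasure μ] (h0 : 0 ≤ γ) (h1 : γ ≤ 1 / 2) (u : ι → ℝ)
    (v : V) : |mag μ site S (gobs μ γ site r S u) v| ≤ 1 :=
  abs_mag_le (fun i _ => abs_obs_le h0 h1 u i) v

theorem sq_sub_le_four {a b : ℝ} (ha : |a| ≤ 1) (hb : |b| ≤ 1) : (a - b) ^ 2 ≤ 4 := by
  obtain ⟨h1, h2⟩ := abs_le.mp ha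
  obtain ⟨h3, h4⟩ := abs_le.mp hb
  nlinarith

theorem integrable_of_meas_bdd {Ω : Type*} [MeasurableSpace Ω] {P : Measure Ω}
    [IsFiniteMeasure P] {f : Ω → ℝ} (hf : Measurable f) {C : ℝ} (hC : ∀ x, |f x| ≤ C) :
    Integrable f P :=
  Integrable.of_bound hf.aestronglyMeasurable C (Filter.Eventually.of_forall hC)

theorem measurable_sq_diff [Countable V] [IsProbabilityMeasure μ] (v : V) :
    Measurable fun u => (mag μ site S (gobs μ γ site r S u) v -
      mag μ site S' (gobs μ γ site r S' u) v) ^ 2 :=
  ((measurable_mag_obs v).sub (measurable_mag_obs v)).pow_const 2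

theorem integrable_sq_diff [Countable V] [IsProbabilityMeasure μ] (h0 : 0 ≤ γ)
    (h1 : γ ≤ 1 / 2) (v : V) :
    Integrable (fun u => (mag μ site S (gobs μ γ site r S u) v -
      mag μ site S' (gobs μ γ site r S' u) v) ^ 2) (Pu ι) := by
  refine integrable_of_meas_bdd (measurable_sq_diff v) (C := 4) fun u => ?_
  rw [abs_of_nonneg (sq_nonneg _)]
  exact sq_sub_le_four (abs_mag_obs_le h0 h1 u v) (abs_mag_obs_le h0 h1 u v)

theorem msd_nonneg (Q : ι → Prop) (v : V) : 0 ≤ msd μ γ site r Q S v := by
  unfold msd
  exact integral_nonneg fun u => sq_nonneg _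

theorem msd_le_four [Countable V] [IsProbabilityMeasure μ] (h0 : 0 ≤ γ)
    (h1 : γ ≤ 1 / 2) (Q : ι → Prop) (v : V) : msd μ γ site r Q S v ≤ 4 := by
  unfold msd
  calc _ ≤ ∫ _, (4 : ℝ) ∂(Pu ι) := by
        refine integral_mono (integrable_sq_diff h0 h1 v) (integrable_const _) fun u => ?_
        exact sq_sub_le_four (abs_mag_obs_le h0 h1 u v) (abs_mag_obs_le h0 h1 u v)
    _ = 4 := by simp

open Classical in
theorem integrable_inner {F : (ι → ℝ) → ℝ} (hF : Measurable F) {C : ℝ} (hC : ∀ u, |F u| ≤ C)
    (e : ι) : Integrable (fun u => ∫ x, F (Function.update u e x) ∂unif) (Pu ι) := by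
  have hm : Measurable (fun p : (ι → ℝ) × ℝ => Function.update p.1 e p.2) := by
    refine measurable_pi_lambda _ fun i => ?_
    by_cases hi : i = e
    · subst hi
      simp only [Function.update_self]
      exact measurable_snd
    · simp only [Function.update_of_ne hi]
      exact (measurable_pi_apply i).comp measurable_fst
  have h2 : Measurable (fun p : (ι → ℝ) × ℝ => F (Function.update p.1 e p.2)) := hF.comp hm
  refine integrable_of_meas_bdd
    (h2.stronglyMeasurable.integral_prod_right (ν := unif)).measurable (C := C) fun u => ?_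
  calc |∫ x, F (Function.update u e x) ∂unif| ≤ ∫ x, |F (Function.update u e x)| ∂unif :=
        abs_integral_le_integral_abs
    _ ≤ ∫ _, C ∂unif := by
        refine integral_mono ?_ (integrable_const _) fun x => hC _
        refine integrable_of_meas_bdd ?_ (C := C) fun x => ?_
        · exact (h2.comp (measurable_prodMk_left (x := u))).abs
        · rw [abs_abs]; exact hC _
    _ = C := by simp

open Classical in
theorem msd_insert {G : SimpleGraph V} {θ : ℝ} [Countable V] [IsProbabilityMeasure μ]
    (h0 : 0 ≤ θ) (g0 : 0 ≤ γ) (g1 : γ ≤ 1 / 2) (Q : ι → Prop) {e : ι}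
    (h : ∀ i ∈ S, r i < r e) {v : V} {p : ℕ → V} (hp : PathData G θ μ site v (site e) p) :
    msd μ γ site r Q S v ≤ msd μ γ site r Q (insert e S) v ∧
    (Q e → msd μ γ site r Q (insert e S) v ≤ msd μ γ site r Q S v +
      γ ^ 2 * C1 θ * ((G.dist v (site e) : ℝ) + 1) * θ ^ (2 * G.dist v (site e)) *
        ∑ j ∈ Finset.range (G.dist v (site e) + 1), msd μ γ site r Q S (p j)) ∧
    (¬ Q e → msd μ γ site r Q (insert e S) v ≤ msd μ γ site r Q S v +
      4 * γ ^ 2 * θ ^ (2 * G.dist v (site e))) := by
  have he : e ∉ S := fun he => lt_irrefl _ (h e he)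
  have hres : msd μ γ site r Q (insert e S) v =
      ∫ u, ∫ x, (mag μ site ((insert e S).filter Q)
          (gobs μ γ site r ((insert e S).filter Q) (Function.update u e x)) v -
        mag μ site (insert e S) (gobs μ γ site r (insert e S) (Function.update u e x)) v) ^ 2
          ∂unif ∂(Pu ι) := by
    unfold msd
    refine integral_resample e (measurable_sq_diff v) ⟨4, fun u => ?_⟩
    rw [abs_of_nonneg (sq_nonneg _)]
    exact sq_sub_le_four (abs_mag_obs_le g0 g1 u v) (abs_mag_obs_le g0 g1 u v)
  have hin := integrable_inner (measurable_sq_diff (μ := μ) (γ := γ) (site := site) (r := r)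
    (S := (insert e S).filter Q) (S' := insert e S) v) (C := 4) (fun u => by
      rw [abs_of_nonneg (sq_nonneg _)]
      exact sq_sub_le_four (abs_mag_obs_le g0 g1 u v) (abs_mag_obs_le g0 g1 u v)) e
  by_cases hQ : Q e
  · have hf : (insert e S).filter Q = insert e (S.filter Q) := by
      rw [Finset.filter_insert, if_pos hQ]
    have hfl : ∀ i ∈ S.filter Q, r i < r e := fun i hi => h i (Finset.mem_filter.mp hi).1
    have hef : e ∉ S.filter Q := fun h' => he (Finset.mem_filter.mp h').1
    rw [hf] at hres hin
    simp only [mag_samp_insert hfl, mag_samp_insert h] at hres hin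
    have hstep := fun u => step_two (G := G) (θ := θ) (μ := μ) (site := site) (v := v) (p := p)
      h0 g0 g1 (S := S.filter Q) (S' := S) (c := gobs μ γ site r (S.filter Q) u)
      (c' := gobs μ γ site r S u) (fun i _ => abs_obs_le g0 g1 u i)
      (fun i _ => abs_obs_le g0 g1 u i) hef he hp
    refine ⟨?_, fun _ => ?_, fun hQ' => absurd hQ hQ'⟩
    · rw [hres]
      unfold msd
      exact integral_mono (integrable_sq_diff g0 g1 v) hin fun u => (hstep u).1
    · rw [hres]
      calc _ ≤ ∫ u, ((mag μ site (S.filter Q) (gobs μ γ site r (S.filter Q) u) v -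
              mag μ site S (gobs μ γ site r S u) v) ^ 2 +
            γ ^ 2 * C1 θ * ((G.dist v (site e) : ℝ) + 1) * θ ^ (2 * G.dist v (site e)) *
              ∑ j ∈ Finset.range (G.dist v (site e) + 1),
                (mag μ site (S.filter Q) (gobs μ γ site r (S.filter Q) u) (p j) -
                  mag μ site S (gobs μ γ site r S u) (p j)) ^ 2) ∂(Pu ι) := by
            refine integral_mono hin ?_ fun u => (hstep u).2
            refine (integrable_sq_diff g0 g1 v).add ?_
            refine (integrable_finsetSum _ fun j _ => ?_).const_mul _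
            exact integrable_sq_diff g0 g1 (p j)
        _ = _ := by
            rw [integral_add (integrable_sq_diff g0 g1 v)
              ((integrable_finsetSum _ fun j _ => integrable_sq_diff g0 g1 (p j)).const_mul _),
              integral_const_mul, integral_finsetSum _
              fun j _ => integrable_sq_diff g0 g1 (p j)]
            rfl
  · have hf : (insert e S).filter Q = S.filter Q := by
      rw [Finset.filter_insert, if_neg hQ]
    rw [hf] at hres hin
    simp only [mag_samp_insert' h _ _ (Finset.filter_subset Q S), mag_samp_insert h] at hres hin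
    have hstep := fun u => step_one (G := G) (θ := θ) (μ := μ) (site := site) (v := v) (p := p)
      g0 g1 (S' := S) (c' := gobs μ γ site r S u)
      (fun i _ => abs_obs_le g0 g1 u i) he hp
      (mag μ site (S.filter Q) (gobs μ γ site r (S.filter Q) u) v)
    refine ⟨?_, fun hQ' => absurd hQ' hQ, fun _ => ?_⟩
    · rw [hres]
      unfold msd
      exact integral_mono (integrable_sq_diff g0 g1 v) hin fun u => (hstep u).1
    · rw [hres]
      calc _ ≤ ∫ u, ((mag μ site (S.filter Q) (gobs μ γ site r (S.filter Q) u) v -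
              mag μ site S (gobs μ γ site r S u) v) ^ 2 +
              4 * γ ^ 2 * θ ^ (2 * G.dist v (site e))) ∂(Pu ι) := by
            refine integral_mono hin ?_ fun u => (hstep u).2
            exact (integrable_sq_diff g0 g1 v).add (integrable_const _)
        _ = _ := by
            rw [integral_add (integrable_sq_diff g0 g1 v) (integrable_const _)]
            simp [msd]

theorem msd_insert' {G : SimpleGraph V} {θ : ℝ} [Countable V] [IsProbabilityMeasure μ]
    (h0 : 0 ≤ θ) (g0 : 0 ≤ γ) (g1 : γ ≤ 1 / 2) (Q : ι → Prop) {e : ι}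
    (hS' : ∀ i, i ∈ S' ↔ i = e ∨ i ∈ S)
    (h : ∀ i ∈ S, r i < r e) {v w : V} (hw : site e = w) {p : ℕ → V}
    (hp : PathData G θ μ site v w p) :
    msd μ γ site r Q S v ≤ msd μ γ site r Q S' v ∧
    (Q e → msd μ γ site r Q S' v ≤ msd μ γ site r Q S v +
      γ ^ 2 * C1 θ * ((G.dist v w : ℝ) + 1) * θ ^ (2 * G.dist v w) *
        ∑ j ∈ Finset.range (G.dist v w + 1), msd μ γ site r Q S (p j)) ∧
    (¬ Q e → msd μ γ site r Q S' v ≤ msd μ γ site r Q S v +
      4 * γ ^ 2 * θ ^ (2 * G.dist v w)) := by
  classical
  subst hw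
  have hS : S' = @insert _ _ (@Finset.instInsert ι fun a b => Classical.propDecidable (a = b))
      e S := by
    ext i
    rw [hS']
    simp
  rw [hS]
  exact msd_insert h0 g0 g1 Q h hp

end Vale.Agent.P161
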