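import Mathlib
import Vale.Agent.P161.Insert

open MeasureTheory

namespace Vale.Agent.P161

universe u

variable {V : Type u} {G : SimpleGraph V} {θ γ : ℝ} {μ : Measure (V → Bool)}

open Classical in
/-- The events of the rounds before `k` at the vertices of `D`, and those of the round `k` at
the vertices of `W`. -/
noncomputable def evs (D : Finset V) (k : ℕ) (W : Finset V) : Finset (V × ℕ) :=
  D ×ˢ Finset.range k ∪ W ×ˢ {k}

open Classical in
theorem mem_evs {D W : Finset V} {k : ℕ} {e : V × ℕ} :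
    e ∈ evs D k W ↔ (e.1 ∈ D ∧ e.2 < k) ∨ (e.1 ∈ W ∧ e.2 = k) := by
  unfold evs
  rw [Finset.mem_union, Finset.mem_product, Finset.mem_product, Finset.mem_range,
    Finset.mem_singleton]

theorem evs_self (D : Finset V) (k : ℕ) : evs D k D = D ×ˢ Finset.range (k + 1) := by
  ext e
  rw [mem_evs, Finset.mem_product, Finset.mem_range]
  constructor
  · rintro (⟨h1, h2⟩ | ⟨h1, h2⟩)
    · exact ⟨h1, by omega⟩
    · exact ⟨h1, by omega⟩
  · rintro ⟨h1, h2⟩
    rcases Nat.lt_succ_iff_lt_or_eq.mp h2 with h3 | h3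
    · exact Or.inl ⟨h1, h3⟩
    · exact Or.inr ⟨h1, h3⟩

theorem evs_empty (D : Finset V) (k : ℕ) : evs D k ∅ = D ×ˢ Finset.range k := by
  ext e
  rw [mem_evs, Finset.mem_product, Finset.mem_range]
  simp

theorem mem_evs_insert [DecidableEq V] (D W : Finset V) (k : ℕ) (a : V) (i : V × ℕ) :
    i ∈ evs D k (insert a W) ↔ i = (a, k) ∨ i ∈ evs D k W := by
  obtain ⟨v, j⟩ := i
  simp only [mem_evs, Finset.mem_insert, Prod.mk.injEq]
  tauto

theorem rk_lt_of_mem_evs {U : V → ℝ} (hU : Function.Injective U) {D W : Finset V} {k : ℕ}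
    {a : V} (ha : a ∉ W) (hW : ∀ w ∈ W, U w ≤ U a) :
    ∀ i ∈ evs D k W, rk U i < rk U (a, k) := by
  intro i hi
  rw [rk_lt]
  rcases mem_evs.mp hi with ⟨_, h2⟩ | ⟨h1, h2⟩
  · exact Or.inl h2
  · refine Or.inr ⟨h2, lt_of_le_of_ne (hW _ h1) fun h => ha ?_⟩
    have h3 : i.1 = a := hU h
    rw [← h3]
    exact h1

/-- The coefficient of the interaction between `v` and `w`. -/
noncomputable def Kc (G : SimpleGraph V) (θ γ : ℝ) (v w : V) : ℝ :=
  γ ^ 2 * C1 θ * ((G.dist v w : ℝ) + 1) * θ ^ (2 * G.dist v w)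

theorem Kc_nonneg (h0 : 0 ≤ θ) (v w : V) : 0 ≤ Kc G θ γ v w := by
  have : 0 ≤ C1 θ := by unfold C1; positivity
  unfold Kc
  positivity

open Classical in
theorem round_bound [Countable V] [IsProbabilityMeasure μ] (h0 : 0 ≤ θ) (g0 : 0 ≤ γ)
    (g1 : γ ≤ 1 / 2) {U : V → ℝ} (hU : Function.Injective U) (D D' : Finset V) (k : ℕ)
    {P : V → V → ℕ → V}
    (hP : ∀ v w, PathData G θ μ (Prod.fst : V × ℕ → V) v w (P v w)) (W : Finset V) :
    ∀ v, msd μ γ Prod.fst (rk U) (fun e => e.1 ∈ D) (evs D' k W) v ≤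
      msd μ γ Prod.fst (rk U) (fun e => e.1 ∈ D) (evs D' k ∅) v +
      ∑ w ∈ W, (if w ∈ D then Kc G θ γ v w * ∑ j ∈ Finset.range (G.dist v w + 1),
          msd μ γ Prod.fst (rk U) (fun e => e.1 ∈ D) (evs D' k W) (P v w j)
        else 4 * γ ^ 2 * θ ^ (2 * G.dist v w)) := by
  induction W using Finset.induction_on_max_value U with
  | empty => intro v; simp
  | insert a W ha hW ih =>
    intro v
    have hlt := rk_lt_of_mem_evs (D := D') (k := k) hU ha hW
    have hins := mem_evs_insert D' W k a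
    have hmono : ∀ w, msd μ γ Prod.fst (rk U) (fun e => e.1 ∈ D) (evs D' k W) w ≤
        msd μ γ Prod.fst (rk U) (fun e => e.1 ∈ D) (evs D' k (insert a W)) w := by
      intro w
      exact (msd_insert' (ι := V × ℕ) (R := ℕ ×ₗ ℝ) (r := rk U) (μ := μ) (γ := γ) (G := G)
        (θ := θ) (site := Prod.fst) (S := evs D' k W) (S' := evs D' k (insert a W))
        (e := (a, k)) (v := w) (w := a) (p := P w a) h0 g0 g1
        (fun e => e.1 ∈ D) hins hlt rfl (hP w a)).1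
    have hstep : msd μ γ Prod.fst (rk U) (fun e => e.1 ∈ D) (evs D' k (insert a W)) v ≤
        msd μ γ Prod.fst (rk U) (fun e => e.1 ∈ D) (evs D' k W) v +
        (if a ∈ D then Kc G θ γ v a * ∑ j ∈ Finset.range (G.dist v a + 1),
          msd μ γ Prod.fst (rk U) (fun e => e.1 ∈ D) (evs D' k W) (P v a j)
        else 4 * γ ^ 2 * θ ^ (2 * G.dist v a)) := by
      have := msd_insert' (ι := V × ℕ) (R := ℕ ×ₗ ℝ) (r := rk U) (μ := μ) (γ := γ) (G := G)
        (θ := θ) (site := Prod.fst) (S := evs D' k W) (S' := evs D' k (insert a W))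
        (e := (a, k)) (v := v) (w := a) (p := P v a) h0 g0 g1
        (fun e => e.1 ∈ D) hins hlt rfl (hP v a)
      split_ifs with haD
      · exact this.2.1 haD
      · exact this.2.2 haD
    have hterm : ∀ w, (if w ∈ D then Kc G θ γ v w * ∑ j ∈ Finset.range (G.dist v w + 1),
          msd μ γ Prod.fst (rk U) (fun e => e.1 ∈ D) (evs D' k W) (P v w j)
        else 4 * γ ^ 2 * θ ^ (2 * G.dist v w)) ≤
        (if w ∈ D then Kc G θ γ v w * ∑ j ∈ Finset.range (G.dist v w + 1),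
          msd μ γ Prod.fst (rk U) (fun e => e.1 ∈ D) (evs D' k (insert a W)) (P v w j)
        else 4 * γ ^ 2 * θ ^ (2 * G.dist v w)) := by
      intro w
      split_ifs with hw
      · exact mul_le_mul_of_nonneg_left (Finset.sum_le_sum fun j _ => hmono _) (Kc_nonneg h0 v w)
      · exact le_rfl
    rw [Finset.sum_insert ha]
    have h5 := ih v
    have h6 := Finset.sum_le_sum (s := W) fun w _ => hterm w
    have h7 := hterm a
    linarith

/-- The weight of the vertex `v` around the centre `o`. -/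
noncomputable def wgt (G : SimpleGraph V) (ρ : ℝ) (o : V) (n : ℕ) (v : V) : ℝ :=
  ρ ^ (n + 1 - G.dist o v)

variable {ρ : ℝ}

theorem wgt_pos (hρ : 0 < ρ) (o : V) (n : ℕ) (v : V) : 0 < wgt G ρ o n v := pow_pos hρ _

theorem pow_le_wgt (hρ : 0 < ρ) (hρ' : ρ ≤ 1) (o : V) (n : ℕ) (v : V) :
    ρ ^ (n + 1) ≤ wgt G ρ o n v :=
  pow_le_pow_of_le_one hρ.le hρ' (by omega)

theorem wgt_mul_le (hG : G.Connected) (hρ : 0 < ρ) (hρ' : ρ ≤ 1) (o : V) (n : ℕ) {v u : V}
    {N : ℕ} (h : G.dist v u ≤ N) : wgt G ρ o n u * ρ ^ N ≤ wgt G ρ o n v := by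
  unfold wgt
  rw [← pow_add]
  refine pow_le_pow_of_le_one hρ.le hρ' ?_
  have h1 := hG.dist_triangle (u := o) (v := v) (w := u)
  omega

theorem pow_dist_le_wgt (hG : G.Connected) (hρ : 0 < ρ) (hρ' : ρ ≤ 1) (o : V) (n : ℕ) {v w : V}
    (h : n < G.dist o w) : ρ ^ G.dist v w ≤ wgt G ρ o n v := by
  unfold wgt
  refine pow_le_pow_of_le_one hρ.le hρ' ?_
  have h1 := hG.dist_triangle (u := o) (v := v) (w := w)
  omega

open Classical in
/-- The term of `w` in the bound of a round. -/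
theorem term_bound (hG : G.Connected) [G.LocallyFinite] (hρ : 0 < ρ) (hρ' : ρ ≤ 1)
    {q : ℝ} (hq : 0 ≤ q) (hqρ : θ ^ 2 = q * ρ) {o : V} {n : ℕ} {P : V → V → ℕ → V}
    (hP : ∀ v w, PathData G θ μ (Prod.fst : V × ℕ → V) v w (P v w)) {y : V → ℝ} {B : ℝ}
    (hB : 0 ≤ B) (hy : ∀ v, y v ≤ B * wgt G ρ o n v) (v w : V) :
    (if w ∈ ball G o n then Kc G θ γ v w * ∑ j ∈ Finset.range (G.dist v w + 1), y (P v w j)
        else 4 * γ ^ 2 * θ ^ (2 * G.dist v w)) ≤
      γ ^ 2 * wgt G ρ o n v * (C1 θ * B + 4) *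
        (((G.dist v w : ℝ) + 1) ^ 2 * q ^ G.dist v w) := by
  have hC1 := one_le_C1 θ
  have hω := wgt_pos (G := G) hρ o n v
  have hpow : θ ^ (2 * G.dist v w) = q ^ G.dist v w * ρ ^ G.dist v w := by
    rw [pow_mul, hqρ, mul_pow]
  set N := G.dist v w with hN
  have hqN : 0 ≤ q ^ N := pow_nonneg hq N
  have hρN : 0 ≤ ρ ^ N := pow_nonneg hρ.le N
  have hN1 : (1 : ℝ) ≤ (N : ℝ) + 1 := by
    have : (0 : ℝ) ≤ N := Nat.cast_nonneg N
    linarith
  split_ifs with hw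
  · have hsum : (∑ j ∈ Finset.range (N + 1), y (P v w j)) * ρ ^ N ≤
        ((N : ℝ) + 1) * (B * wgt G ρ o n v) := by
      rw [Finset.sum_mul]
      calc ∑ j ∈ Finset.range (N + 1), y (P v w j) * ρ ^ N
          ≤ ∑ _j ∈ Finset.range (N + 1), B * wgt G ρ o n v := by
            refine Finset.sum_le_sum fun j hj => ?_
            have hjN : j ≤ N := Nat.lt_succ_iff.mp (Finset.mem_range.mp hj)
            have h1 := (hP v w).dist_le j hjN
            have h2 := wgt_mul_le hG hρ hρ' o n h1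
            calc y (P v w j) * ρ ^ N ≤ B * wgt G ρ o n (P v w j) * ρ ^ N :=
                  mul_le_mul_of_nonneg_right (hy _) hρN
              _ = B * (wgt G ρ o n (P v w j) * ρ ^ N) := by ring
              _ ≤ B * wgt G ρ o n v := mul_le_mul_of_nonneg_left h2 hB
        _ = _ := by
            rw [Finset.sum_const, Finset.card_range, nsmul_eq_mul]
            push_cast
            ring
    have hcoef : 0 ≤ γ ^ 2 * C1 θ * ((N : ℝ) + 1) * q ^ N := by positivity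
    calc Kc G θ γ v w * ∑ j ∈ Finset.range (N + 1), y (P v w j)
        = γ ^ 2 * C1 θ * ((N : ℝ) + 1) * q ^ N *
            ((∑ j ∈ Finset.range (N + 1), y (P v w j)) * ρ ^ N) := by
          unfold Kc
          rw [← hN, hpow]
          ring
      _ ≤ γ ^ 2 * C1 θ * ((N : ℝ) + 1) * q ^ N * (((N : ℝ) + 1) * (B * wgt G ρ o n v)) :=
          mul_le_mul_of_nonneg_left hsum hcoef
      _ = γ ^ 2 * wgt G ρ o n v * (C1 θ * B) * (((N : ℝ) + 1) ^ 2 * q ^ N) := by ring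
      _ ≤ _ := by
          refine mul_le_mul_of_nonneg_right ?_ (by positivity)
          refine mul_le_mul_of_nonneg_left (by linarith) ?_
          positivity
  · have hdist : n < G.dist o w := by
      rw [mem_ball hG] at hw
      omega
    have h1 := pow_dist_le_wgt hG hρ hρ' o n (v := v) hdist
    rw [← hN] at h1
    rw [hpow]
    calc 4 * γ ^ 2 * (q ^ N * ρ ^ N) = 4 * γ ^ 2 * q ^ N * ρ ^ N := by ring
      _ ≤ 4 * γ ^ 2 * q ^ N * wgt G ρ o n v := mul_le_mul_of_nonneg_left h1 (by positivity)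
      _ = γ ^ 2 * wgt G ρ o n v * 4 * (1 * q ^ N) := by ring
      _ ≤ γ ^ 2 * wgt G ρ o n v * (C1 θ * B + 4) * (((N : ℝ) + 1) ^ 2 * q ^ N) := by
          have h2 : (1 : ℝ) ≤ ((N : ℝ) + 1) ^ 2 := by nlinarith
          have h3 : 0 ≤ C1 θ * B := by positivity
          refine mul_le_mul ?_ (mul_le_mul_of_nonneg_right h2 hqN) (by positivity) (by positivity)
          exact mul_le_mul_of_nonneg_left (by linarith) (by positivity)

open Classical in
theorem round_weighted (hG : G.Connected) [G.LocallyFinite] [Countable V]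
    [IsProbabilityMeasure μ] (h0 : 0 ≤ θ) (g0 : 0 ≤ γ) (g1 : γ ≤ 1 / 2) (hρ : 0 < ρ)
    (hρ' : ρ ≤ 1) {q : ℝ} (hq : 0 ≤ q) (hqρ : θ ^ 2 = q * ρ) {C : ℝ} (hC : 0 ≤ C)
    (hsum : ∀ (v : V) (W : Finset V),
      ∑ w ∈ W, ((G.dist v w : ℝ) + 1) ^ 2 * q ^ G.dist v w ≤ C)
    (hγ : γ ^ 2 * (C1 θ * C) ≤ 1 / 2)
    {P : V → V → ℕ → V} (hP : ∀ v w, PathData G θ μ (Prod.fst : V × ℕ → V) v w (P v w))
    {U : V → ℝ} (hU : Function.Injective U) (o : V) (n : ℕ) (D' : Finset V) (k : ℕ) {A : ℝ}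
    (hA : ∀ v, msd μ γ Prod.fst (rk U) (fun e => e.1 ∈ ball G o n) (evs D' k ∅) v ≤
      A * wgt G ρ o n v) (W : Finset V) :
    ∀ v, msd μ γ Prod.fst (rk U) (fun e => e.1 ∈ ball G o n) (evs D' k W) v ≤
      (2 * A + 4) * wgt G ρ o n v := by
  set y : V → ℝ := fun v =>
    msd μ γ Prod.fst (rk U) (fun e => e.1 ∈ ball G o n) (evs D' k W) v with hy
  have hy0 : ∀ v, 0 ≤ y v := fun v => msd_nonneg _ v
  have hy4 : ∀ v, y v ≤ 4 := fun v => msd_le_four g0 g1 _ v
  have hω : ∀ v, 0 < wgt G ρ o n v := fun v => wgt_pos hρ o n v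
  have hωl : ∀ v, ρ ^ (n + 1) ≤ wgt G ρ o n v := fun v => pow_le_wgt hρ hρ' o n v
  have hC1 := one_le_C1 θ
  have hbdd : BddAbove (Set.range fun v => y v / wgt G ρ o n v) := by
    refine ⟨4 / ρ ^ (n + 1), ?_⟩
    rintro _ ⟨v, rfl⟩
    exact div_le_div₀ (by norm_num) (hy4 v) (pow_pos hρ _) (hωl v)
  have : Nonempty V := ⟨o⟩
  set M := ⨆ v, y v / wgt G ρ o n v with hM
  have hM1 : ∀ v, y v ≤ M * wgt G ρ o n v := by
    intro v
    have := le_ciSup hbdd v
    rwa [div_le_iff₀ (hω v)] at this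
  have hM0 : 0 ≤ M := by
    have := hM1 o
    have h2 := hy0 o
    by_contra h3
    push Not at h3
    have := mul_neg_of_neg_of_pos h3 (hω o)
    linarith
  have hstep : ∀ v, y v ≤ (A + M / 2 + 2) * wgt G ρ o n v := by
    intro v
    have h1 := round_bound h0 g0 g1 hU (ball G o n) D' k hP W v
    have h2 : ∑ w ∈ W, (if w ∈ ball G o n then Kc G θ γ v w *
          ∑ j ∈ Finset.range (G.dist v w + 1), y (P v w j)
        else 4 * γ ^ 2 * θ ^ (2 * G.dist v w)) ≤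
        γ ^ 2 * wgt G ρ o n v * (C1 θ * M + 4) * C := by
      calc _ ≤ ∑ w ∈ W, γ ^ 2 * wgt G ρ o n v * (C1 θ * M + 4) *
            (((G.dist v w : ℝ) + 1) ^ 2 * q ^ G.dist v w) :=
            Finset.sum_le_sum fun w _ =>
              term_bound hG hρ hρ' hq hqρ hP hM0 hM1 v w
        _ = γ ^ 2 * wgt G ρ o n v * (C1 θ * M + 4) *
            ∑ w ∈ W, (((G.dist v w : ℝ) + 1) ^ 2 * q ^ G.dist v w) := by
            rw [Finset.mul_sum]
        _ ≤ _ := by
            refine mul_le_mul_of_nonneg_left (hsum v W) ?_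
            have := (hω v).le
            positivity
    have h3 : γ ^ 2 * wgt G ρ o n v * (C1 θ * M + 4) * C ≤ (M / 2 + 2) * wgt G ρ o n v := by
      have h4 : γ ^ 2 * (C1 θ * M + 4) * C ≤ M / 2 + 2 := by
        have h5 : γ ^ 2 * C ≤ γ ^ 2 * (C1 θ * C) := by
          refine mul_le_mul_of_nonneg_left ?_ (sq_nonneg _)
          nlinarith
        have h6 : γ ^ 2 * (C1 θ * C) * M ≤ 1 / 2 * M := mul_le_mul_of_nonneg_right hγ hM0
        calc γ ^ 2 * (C1 θ * M + 4) * C = γ ^ 2 * (C1 θ * C) * M + 4 * (γ ^ 2 * C) := by ring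
          _ ≤ 1 / 2 * M + 4 * (1 / 2) := by linarith
          _ = M / 2 + 2 := by ring
      calc _ = (γ ^ 2 * (C1 θ * M + 4) * C) * wgt G ρ o n v := by ring
        _ ≤ _ := mul_le_mul_of_nonneg_right h4 (hω v).le
    calc y v ≤ _ := h1
      _ ≤ A * wgt G ρ o n v + (M / 2 + 2) * wgt G ρ o n v := add_le_add (hA v) (h2.trans h3)
      _ = _ := by ring
  have hM2 : M ≤ A + M / 2 + 2 := by
    refine ciSup_le fun v => ?_
    rw [div_le_iff₀ (hω v)]
    exact hstep v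
  intro v
  calc y v ≤ M * wgt G ρ o n v := hM1 v
    _ ≤ _ := mul_le_mul_of_nonneg_right (by linarith) (hω v).le

theorem contraction [G.LocallyFinite] (hG : G.IsTree) {d : ℕ} (hd : G.IsRegularOfDegree d)
    (hμ : IsTreeIsing G θ μ) (h0 : 0 ≤ θ) (h1 : θ < 1) (hθ : ((d : ℝ) - 1) * θ ^ 2 < 1) :
    ∃ γ : ℝ, 0 < γ ∧ γ ≤ 1 / 2 ∧ ∃ ρ : ℝ, 0 < ρ ∧ ρ < 1 ∧
      ∀ U : V → ℝ, Function.Injective U → ∀ (o : V) (n : ℕ) (D' : Finset V),
        ball G o n ⊆ D' → ∀ k : ℕ,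
        ∫ u, (ssamp μ γ (ball G o n) U u (o, k) - ssamp μ γ D' U u (o, k)) ^ 2 ∂(Pu (V × ℕ))
          ≤ 2 ^ (k + 1) * ρ ^ n := by
  classical
  have := hμ.isProb
  have : Countable V := countable_of_locallyFinite hG.connected
  set ρ : ℝ := (1 + max 0 (((d : ℝ) - 1) * θ ^ 2)) / 2 with hρdef
  have hρ : 0 < ρ := by
    have : 0 ≤ max 0 (((d : ℝ) - 1) * θ ^ 2) := le_max_left _ _
    linarith
  have hρ1 : ρ < 1 := by
    have : max 0 (((d : ℝ) - 1) * θ ^ 2) < 1 := max_lt one_pos hθ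
    linarith
  have hρ2 : ((d : ℝ) - 1) * θ ^ 2 < ρ := by
    have h2 : max 0 (((d : ℝ) - 1) * θ ^ 2) < 1 := max_lt one_pos hθ
    have h3 : ((d : ℝ) - 1) * θ ^ 2 ≤ max 0 (((d : ℝ) - 1) * θ ^ 2) := le_max_right _ _
    linarith
  set q : ℝ := θ ^ 2 / ρ with hqdef
  have hq : 0 ≤ q := by positivity
  have hqρ : θ ^ 2 = q * ρ := by rw [hqdef]; field_simp
  have hq1 : ((d : ℝ) - 1) * q < 1 := by
    rw [hqdef, ← mul_div_assoc, div_lt_one hρ]
    exact hρ2
  obtain ⟨C, hC, hsum⟩ := sum_bound hG.connected hd hq hq1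
  have hC1 := one_le_C1 θ
  set X := C1 θ * C with hX
  have hX0 : 0 ≤ X := by positivity
  set γ : ℝ := 1 / (2 * (1 + X)) with hγdef
  have hγ0 : 0 < γ := by positivity
  have hγ1 : γ ≤ 1 / 2 := by
    rw [hγdef]
    exact div_le_div_of_nonneg_left zero_le_one (by norm_num) (by linarith)
  have hγX : γ ^ 2 * X ≤ 1 / 2 := by
    have h2 : γ * X ≤ 1 := by
      rw [hγdef, div_mul_eq_mul_div, div_le_one (by positivity)]
      linarith
    calc γ ^ 2 * X = γ * (γ * X) := by ring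
      _ ≤ γ * 1 := mul_le_mul_of_nonneg_left h2 hγ0.le
      _ ≤ 1 / 2 := by linarith
  choose P hP using fun v w => exists_pathData hG hμ h0 h1 (Prod.fst : V × ℕ → V) v w
  refine ⟨γ, hγ0, hγ1, ρ, hρ, hρ1, fun U hU o n D' hD k => ?_⟩
  have hrounds : ∀ k : ℕ, ∀ v, msd μ γ Prod.fst (rk U) (fun e => e.1 ∈ ball G o n)
      (evs D' k ∅) v ≤ (4 * (2 ^ k - 1)) * wgt G ρ o n v := by
    intro k
    induction k with
    | zero =>
      intro v
      have h2 : evs D' 0 ∅ = ∅ := by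
        rw [evs_empty]
        simp
      rw [h2]
      unfold msd
      simp
    | succ k ih =>
      intro v
      have h2 := round_weighted hG.connected h0 hγ0.le hγ1 hρ hρ1.le hq hqρ hC hsum hγX hP hU o n
        D' k ih D' v
      rw [evs_self] at h2
      rw [evs_empty]
      refine h2.trans (le_of_eq ?_)
      ring
  -- the set of the events before `(o, k)`
  set W := D'.filter (fun w => U w < U o) with hW
  have hpre : pre (rk U) (D' ×ˢ Finset.range (k + 1)) (o, k) = evs D' k W := by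
    ext i
    rw [mem_pre, mem_evs, rk_lt, Finset.mem_product, Finset.mem_range, hW, Finset.mem_filter]
    constructor
    · rintro ⟨⟨h2, h3⟩, h4 | ⟨h4, h5⟩⟩
      · exact Or.inl ⟨h2, h4⟩
      · exact Or.inr ⟨⟨h2, h5⟩, h4⟩
    · rintro (⟨h2, h3⟩ | ⟨⟨h2, h3⟩, h4⟩)
      · exact ⟨⟨h2, by omega⟩, Or.inl h3⟩
      · exact ⟨⟨h2, by omega⟩, Or.inr ⟨h4, h3⟩⟩
  obtain ⟨Q, hQ⟩ : ∃ Q : V × ℕ → Prop, Q = fun e => e.1 ∈ ball G o n := ⟨_, rfl⟩
  have hpreD : pre (rk U) (ball G o n ×ˢ Finset.range (k + 1)) (o, k) =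
      (evs D' k W).filter Q := by
    rw [← hpre]
    ext i
    simp only [mem_pre, Finset.mem_filter, Finset.mem_product, Finset.mem_range, hQ]
    constructor
    · rintro ⟨⟨h2, h3⟩, h4⟩
      exact ⟨⟨⟨hD h2, h3⟩, h4⟩, h2⟩
    · rintro ⟨⟨⟨h2, h3⟩, h4⟩, h5⟩
      exact ⟨⟨h5, h3⟩, h4⟩
  have hs : ∀ (D : Finset V) (u : V × ℕ → ℝ), ssamp μ γ D U u (o, k) =
      T (γ * mag μ Prod.fst (pre (rk U) (D ×ˢ Finset.range (k + 1)) (o, k))
        (gobs μ γ Prod.fst (rk U) (pre (rk U) (D ×ˢ Finset.range (k + 1)) (o, k)) u) o)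
        (u (o, k)) := by
    intro D u
    unfold ssamp
    rw [samp_eq]
    congr 2
    refine mag_congr (fun i hi => ?_) _
    unfold gobs
    congr 1
    have hi' := (mem_pre.mp hi).2
    exact samp_congr μ γ Prod.fst (pre_pre hi'.le).symm (fun _ _ => rfl) rfl
  have hdiff : ∀ u : V × ℕ → ℝ,
      (ssamp μ γ (ball G o n) U u (o, k) - ssamp μ γ D' U u (o, k)) ^ 2 ≤
      1 / 4 * (mag μ Prod.fst ((evs D' k W).filter Q)
        (gobs μ γ Prod.fst (rk U) ((evs D' k W).filter Q) u) o -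
        mag μ Prod.fst (evs D' k W) (gobs μ γ Prod.fst (rk U) (evs D' k W) u) o) ^ 2 := by
    intro u
    rw [hs, hs, hpre, hpreD]
    set m := mag μ Prod.fst ((evs D' k W).filter Q)
        (gobs μ γ Prod.fst (rk U) ((evs D' k W).filter Q) u) o
    set m' := mag μ Prod.fst (evs D' k W) (gobs μ γ Prod.fst (rk U) (evs D' k W) u) o
    have hm : |m| ≤ 1 := abs_mag_obs_le hγ0.le hγ1 u o
    have hm' : |m'| ≤ 1 := abs_mag_obs_le hγ0.le hγ1 u o
    have h2 := T_lipschitz (c := 1 / 2) (by norm_num) (abs_gm_lt hγ0.le hγ1 hm)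
      (abs_gm_lt hγ0.le hγ1 hm') (u (o, k))
    have h3 : |γ * m - γ * m'| ≤ 1 / 2 * |m - m'| := by
      rw [← mul_sub, abs_mul, abs_of_pos hγ0]
      exact mul_le_mul_of_nonneg_right hγ1 (abs_nonneg _)
    have h4 : |T (γ * m) (u (o, k)) - T (γ * m') (u (o, k))| ≤ 1 / 2 * |m - m'| := by
      refine h2.trans ?_
      norm_num
      norm_num at h3
      exact h3
    rw [← sq_abs (T (γ * m) (u (o, k)) - T (γ * m') (u (o, k)))]
    calc _ ≤ (1 / 2 * |m - m'|) ^ 2 := pow_le_pow_left₀ (abs_nonneg _) h4 2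
      _ = 1 / 4 * (m - m') ^ 2 := by rw [mul_pow, sq_abs]; norm_num
  have hfinal := round_weighted hG.connected h0 hγ0.le hγ1 hρ hρ1.le hq hqρ hC hsum hγX hP hU o n
    D' k (hrounds k) W o
  have hωo : wgt G ρ o n o = ρ ^ (n + 1) := by
    unfold wgt
    rw [SimpleGraph.dist_self]
    simp
  rw [hωo, ← hQ] at hfinal
  calc ∫ u, (ssamp μ γ (ball G o n) U u (o, k) - ssamp μ γ D' U u (o, k)) ^ 2 ∂(Pu (V × ℕ))
      ≤ ∫ u, 1 / 4 * (mag μ Prod.fst ((evs D' k W).filter Q)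
        (gobs μ γ Prod.fst (rk U) ((evs D' k W).filter Q) u) o -
        mag μ Prod.fst (evs D' k W) (gobs μ γ Prod.fst (rk U) (evs D' k W) u) o) ^ 2
          ∂(Pu (V × ℕ)) := by
        refine integral_mono_of_nonneg (Filter.Eventually.of_forall fun u => sq_nonneg _)
          ((integrable_sq_diff hγ0.le hγ1 o).const_mul _) (Filter.Eventually.of_forall hdiff)
    _ = 1 / 4 * msd μ γ Prod.fst (rk U) Q (evs D' k W) o := by
        rw [integral_const_mul]
        rfl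
    _ ≤ 1 / 4 * ((2 * (4 * (2 ^ k - 1)) + 4) * ρ ^ (n + 1)) :=
        mul_le_mul_of_nonneg_left hfinal (by norm_num)
    _ ≤ 2 ^ (k + 1) * ρ ^ n := by
        have h5 : 0 < ρ ^ n := pow_pos hρ n
        have h6 : ρ ^ (n + 1) ≤ ρ ^ n := pow_le_pow_of_le_one hρ.le hρ1.le (Nat.le_succ n)
        have h7 : (1 : ℝ) ≤ 2 ^ k := one_le_pow₀ (by norm_num)
        have h8 : 0 < ρ ^ (n + 1) := pow_pos hρ _
        rw [pow_succ (2 : ℝ) k]
        nlinarith

end Vale.Agent.P161
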