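import Mathlib
import Vale.Agent.P161.PuDef

/-!
# Strong law of large numbers for the labels
-/

open MeasureTheory ProbabilityTheory Filter Topology

namespace Vale.Agent.P161

universe u

/-- Strong law of large numbers along a sequence of distinct coordinates of an infinite product
of copies of `ν`. -/
theorem lln_infinitePi {ι : Type*} (ν : Measure ℝ) [IsProbabilityMeasure ν] {f : ℝ → ℝ}
    (hf : Measurable f) (hint : Integrable f ν) {e : ℕ → ι} (he : Function.Injective e) :
    ∀ᵐ u ∂(Measure.infinitePi fun _ : ι => ν),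
      Tendsto (fun K : ℕ => (∑ k ∈ Finset.range K, f (u (e k))) / (K : ℝ)) atTop
        (𝓝 (∫ x, f x ∂ν)) := by
  set P : Measure (ι → ℝ) := Measure.infinitePi fun _ : ι => ν with hP
  have hmp : ∀ i : ι, MeasurePreserving (fun u : ι → ℝ => u i) P ν := fun i =>
    measurePreserving_eval_infinitePi (fun _ : ι => ν) i
  have hX : ∀ k : ℕ, Measurable (fun u : ι → ℝ => f (u (e k))) := fun k =>
    hf.comp (measurable_pi_apply _)
  have hiInd : iIndepFun (fun (i : ι) (ω : ι → ℝ) ↦ f (ω i)) P :=
    iIndepFun_infinitePi (P := fun _ : ι => ν) (X := fun _ => f) (fun _ => hf)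
  have hint0 : Integrable (fun u : ι → ℝ => f (u (e 0))) P :=
    (hmp (e 0)).integrable_comp_of_integrable hint
  have hident : ∀ k : ℕ, IdentDistrib (fun u : ι → ℝ => f (u (e k)))
      (fun u : ι → ℝ => f (u (e 0))) P P := by
    intro k
    have h1 : IdentDistrib (fun u : ι → ℝ => u (e k)) (fun u : ι → ℝ => u (e 0)) P P := by
      refine ⟨(measurable_pi_apply _).aemeasurable, (measurable_pi_apply _).aemeasurable, ?_⟩
      rw [(hmp (e k)).map_eq, (hmp (e 0)).map_eq]
    exact h1.comp hf
  have hpair : Pairwise (Function.onFun (fun X Y => IndepFun X Y P)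
      (fun (k : ℕ) (u : ι → ℝ) => f (u (e k)))) := by
    intro i j hij
    exact hiInd.indepFun (he.ne hij)
  have h := strong_law_ae_real (μ := P) (fun (k : ℕ) (u : ι → ℝ) => f (u (e k))) hint0 hpair hident
  have hval : ∫ u, f (u (e 0)) ∂P = ∫ x, f x ∂ν := by
    rw [← (hmp (e 0)).map_eq, integral_map (measurable_pi_apply _).aemeasurable
      hf.aestronglyMeasurable]
  rw [hval] at h
  exact h

/-- The averages of the noisy observations of a spin with bias `a` converge to `a / 3`. -/
theorem lln_T {V : Type*} [Countable V] {a : ℝ} (ha : |a| < 1) :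
    ∀ᵐ u ∂(Pu (V × ℕ)), ∀ v : V,
      Tendsto (fun K : ℕ => (∑ k ∈ Finset.range K, T a (u (v, k))) / (K : ℝ)) atTop
        (𝓝 (a / 3)) := by
  rw [ae_all_iff]
  intro v
  have h := lln_infinitePi (ι := V × ℕ) unif (measurable_T_left a) (integrable_T ha)
    (e := fun k => (v, k)) (fun i j hij => by simpa using hij)
  rw [integral_T_id ha] at h
  exact h

end Vale.Agent.P161
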