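import Mathlib
import Vale.Agent.P161.Law
import Vale.Agent.P161.LLN
import Vale.Agent.P161.Assembly

open MeasureTheory Filter Topology

namespace Vale.Agent.P161

universe u

theorem ae_summable_abs {Ω : Type*} [MeasurableSpace Ω] {P : Measure Ω} {f : ℕ → Ω → ℝ}
    (hf : ∀ n, Integrable (f n) P) (hs : Summable fun n => ∫ ω, |f n ω| ∂P) :
    ∀ᵐ ω ∂P, Summable fun n => |f n ω| := by
  have h1 : ∫⁻ ω, ∑' n, ‖f n ω‖ₑ ∂P ≠ ⊤ := by
    rw [lintegral_tsum fun n => (hf n).aestronglyMeasurable.enorm]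
    have h2 : ∀ n, ∫⁻ ω, ‖f n ω‖ₑ ∂P = ENNReal.ofReal (∫ ω, |f n ω| ∂P) := by
      intro n
      have := ofReal_integral_norm_eq_lintegral_enorm (hf n)
      rw [← this]
      rfl
    simp only [h2]
    exact hs.tsum_ofReal_ne_top
  have h3 : ∀ᵐ ω ∂P, ∑' n, ‖f n ω‖ₑ < ⊤ :=
    ae_lt_top' (AEMeasurable.tsum fun n => (hf n).aestronglyMeasurable.enorm) h1
  filter_upwards [h3] with ω hω
  have h4 := ENNReal.summable_toReal hω.ne
  refine h4.congr fun n => ?_
  simp

theorem ae_summable_of_sq {Ω : Type*} [MeasurableSpace Ω] {P : Measure Ω} [IsProbabilityMeasure P]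
    {f : ℕ → Ω → ℝ} {B : ℝ} (hf : ∀ n, Measurable (f n)) (hB : ∀ n ω, |f n ω| ≤ B) {C r : ℝ}
    (hC : 0 ≤ C) (hr : 0 < r) (hr1 : r < 1) (hsq : ∀ n, ∫ ω, (f n ω) ^ 2 ∂P ≤ C * r ^ n) :
    ∀ᵐ ω ∂P, Summable fun n => |f n ω| := by
  have hint : ∀ n, Integrable (f n) P := fun n =>
    Integrable.of_bound (hf n).aestronglyMeasurable B (ae_of_all _ fun ω => hB n ω)
  have hint2 : ∀ n, Integrable (fun ω => (f n ω) ^ 2) P := fun n =>
    Integrable.of_bound ((hf n).pow_const 2).aestronglyMeasurable (B ^ 2) (ae_of_all _ fun ω => by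
      rw [Real.norm_eq_abs, abs_pow]
      exact pow_le_pow_left₀ (abs_nonneg _) (hB n ω) 2)
  set t := Real.sqrt r with ht
  have ht0 : 0 < t := Real.sqrt_pos.2 hr
  have ht1 : t < 1 := by
    rw [ht, Real.sqrt_lt' one_pos]; simpa using hr1
  have htt : t * t = r := Real.mul_self_sqrt hr.le
  refine ae_summable_abs hint ?_
  refine Summable.of_nonneg_of_le (fun n => integral_nonneg fun ω => abs_nonneg _) (fun n => ?_)
    ((summable_geometric_of_lt_one ht0.le ht1).mul_left ((C + 1) / 2))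
  have h1 : ∀ ω, |f n ω| ≤ ((f n ω) ^ 2 * (t ^ n)⁻¹ + t ^ n) / 2 := by
    intro ω
    have htn : 0 < t ^ n := pow_pos ht0 n
    have h2 : 0 ≤ (|f n ω| - t ^ n) ^ 2 * (t ^ n)⁻¹ := by positivity
    have h3 : (|f n ω| - t ^ n) ^ 2 * (t ^ n)⁻¹ = (f n ω) ^ 2 * (t ^ n)⁻¹ - 2 * |f n ω| + t ^ n := by
      rw [← sq_abs (f n ω)]; field_simp; ring
    rw [h3] at h2
    linarith
  calc ∫ ω, |f n ω| ∂P ≤ ∫ ω, ((f n ω) ^ 2 * (t ^ n)⁻¹ + t ^ n) / 2 ∂P := by
        refine integral_mono (hint n).abs ?_ h1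
        exact (((hint2 n).mul_const _).add (integrable_const _)).div_const 2
    _ = ((∫ ω, (f n ω) ^ 2 ∂P) * (t ^ n)⁻¹ + t ^ n) / 2 := by
        rw [integral_div, integral_add ((hint2 n).mul_const _) (integrable_const _),
          integral_mul_const]
        simp
    _ ≤ (C * r ^ n * (t ^ n)⁻¹ + t ^ n) / 2 := by
        have htn : 0 < (t ^ n)⁻¹ := inv_pos.2 (pow_pos ht0 n)
        have := mul_le_mul_of_nonneg_right (hsq n) htn.le
        linarith
    _ = (C + 1) / 2 * t ^ n := by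
        have htn : t ^ n ≠ 0 := (pow_pos ht0 n).ne'
        rw [← htt, mul_pow]
        field_simp

variable {V : Type u} {G : SimpleGraph V} {θ γ ρ : ℝ} {μ : Measure (V → Bool)}

theorem abs_ssamp_le [IsProbabilityMeasure μ] (h0 : 0 ≤ γ) (h1 : γ < 1) (D : Finset V)
    (U : V → ℝ) (u : V × ℕ → ℝ) (e : V × ℕ) : |ssamp μ γ D U u e| ≤ 1 :=
  abs_samp_le h0 h1 e

/-- Fubini for the order labels and the driving labels. -/
theorem integral_split [Countable V] {h : (V × ℕ → ℝ) → ℝ} (hm : Measurable h) {C : ℝ}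
    (hC : ∀ om, |h om| ≤ C) :
    ∫ om, h om ∂(Pu (V × ℕ)) = ∫ U, ∫ u, h (joinLab U u) ∂(Pu (V × ℕ)) ∂(Pu V) := by
  conv_lhs => rw [← map_joinLab (V := V)]
  rw [integral_map measurable_joinLab.aemeasurable hm.aestronglyMeasurable, integral_prod]
  exact Integrable.of_bound (hm.comp measurable_joinLab).aestronglyMeasurable C
    (ae_of_all _ fun p => hC _)

def ConBound (G : SimpleGraph V) [G.LocallyFinite] (μ : Measure (V → Bool)) (γ ρ : ℝ) : Prop :=
  ∀ U : V → ℝ, Function.Injective U → ∀ (o : V) (n : ℕ) (D' : Finset V),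
    ball G o n ⊆ D' → ∀ k : ℕ,
    ∫ u, (ssamp μ γ (ball G o n) U u (o, k) - ssamp μ γ D' U u (o, k)) ^ 2 ∂(Pu (V × ℕ))
      ≤ 2 ^ (k + 1) * ρ ^ n

theorem con_om [Countable V] [IsProbabilityMeasure μ] [G.LocallyFinite] (h0 : 0 ≤ γ) (h1 : γ < 1)
    (hcon : ConBound G μ γ ρ) (o : V) (n : ℕ) (D' : Finset V) (hD : ball G o n ⊆ D') (k : ℕ) :
    ∫ om, (ssamp μ γ (ball G o n) (ordLab om) (drvLab om) (o, k) -
      ssamp μ γ D' (ordLab om) (drvLab om) (o, k)) ^ 2 ∂(Pu (V × ℕ)) ≤ 2 ^ (k + 1) * ρ ^ n := by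
  have hm : Measurable (fun om : V × ℕ → ℝ =>
      (ssamp μ γ (ball G o n) (ordLab om) (drvLab om) (o, k) -
        ssamp μ γ D' (ordLab om) (drvLab om) (o, k)) ^ 2) :=
    ((measurable_ssamp _ _).sub (measurable_ssamp _ _)).pow_const 2
  have hb : ∀ om : V × ℕ → ℝ, |(ssamp μ γ (ball G o n) (ordLab om) (drvLab om) (o, k) -
        ssamp μ γ D' (ordLab om) (drvLab om) (o, k)) ^ 2| ≤ 4 := by
    intro om
    rw [abs_pow]
    have h2 := abs_ssamp_le h0 h1 (ball G o n) (ordLab om) (drvLab om) (o, k) (μ := μ)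
    have h3 := abs_ssamp_le h0 h1 D' (ordLab om) (drvLab om) (o, k) (μ := μ)
    have h4 := abs_sub (ssamp μ γ (ball G o n) (ordLab om) (drvLab om) (o, k))
      (ssamp μ γ D' (ordLab om) (drvLab om) (o, k))
    calc _ ≤ (2 : ℝ) ^ 2 := pow_le_pow_left₀ (abs_nonneg _) (by linarith) 2
      _ = 4 := by norm_num
  rw [integral_split hm hb]
  have hinj : ∀ᵐ U ∂(Pu V), Function.Injective U := ae_injective_Pu
  calc ∫ U, ∫ u, (ssamp μ γ (ball G o n) (ordLab (joinLab U u)) (drvLab (joinLab U u)) (o, k) -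
        ssamp μ γ D' (ordLab (joinLab U u)) (drvLab (joinLab U u)) (o, k)) ^ 2
        ∂(Pu (V × ℕ)) ∂(Pu V) ≤ ∫ _U, (2 : ℝ) ^ (k + 1) * ρ ^ n ∂(Pu V) := by
        refine integral_mono_ae ?_ (integrable_const _) ?_
        · have := Integrable.of_bound (μ := (Pu V).prod (Pu (V × ℕ)))
            (hm.comp measurable_joinLab).aestronglyMeasurable 4 (ae_of_all _ fun p => hb _)
          exact this.integral_prod_left
        · filter_upwards [hinj] with U hU
          exact hcon U hU o n D' hD k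
    _ = _ := by simp

theorem ball_mono' [G.LocallyFinite] (hG : G.Connected) (o : V) {m n : ℕ} (h : m ≤ n) :
    ball G o m ⊆ ball G o n := by
  intro v hv
  rw [mem_ball hG] at hv ⊢
  omega

theorem ball_subset_ball [G.LocallyFinite] (hG : G.Connected) (o v : V) (n : ℕ) :
    ball G v n ⊆ ball G o (n + G.dist o v) := by
  intro w hw
  rw [mem_ball hG] at hw ⊢
  have := hG.dist_triangle (u := o) (v := v) (w := w)
  omega

theorem ae_tendsto_slim [Countable V] [IsProbabilityMeasure μ] [G.LocallyFinite]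
    (hG : G.Connected) (h0 : 0 ≤ γ) (h1 : γ < 1) (hρ : 0 < ρ) (hρ1 : ρ < 1)
    (hcon : ConBound G μ γ ρ) :
    ∀ᵐ om ∂(Pu (V × ℕ)), ∀ e : V × ℕ,
      Tendsto (fun n : ℕ => ssamp μ γ (ball G e.1 n) (ordLab om) (drvLab om) e) atTop
        (𝓝 (slim G μ γ om e)) := by
  rw [ae_all_iff]
  rintro ⟨v, k⟩
  have h := ae_summable_of_sq (P := Pu (V × ℕ))
    (f := fun n om => ssamp μ γ (ball G v n) (ordLab om) (drvLab om) (v, k) -
      ssamp μ γ (ball G v (n + 1)) (ordLab om) (drvLab om) (v, k)) (B := 2)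
    (fun n => (measurable_ssamp _ _).sub (measurable_ssamp _ _))
    (fun n om => by
      have h2 := abs_ssamp_le h0 h1 (ball G v n) (ordLab om) (drvLab om) (v, k) (μ := μ)
      have h3 := abs_ssamp_le h0 h1 (ball G v (n + 1)) (ordLab om) (drvLab om) (v, k) (μ := μ)
      have h4 := abs_sub (ssamp μ γ (ball G v n) (ordLab om) (drvLab om) (v, k))
        (ssamp μ γ (ball G v (n + 1)) (ordLab om) (drvLab om) (v, k))
      linarith) (C := 2 ^ (k + 1)) (r := ρ) (by positivity) hρ hρ1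
    (fun n => con_om h0 h1 hcon v n _ (ball_mono' hG v (Nat.le_succ n)) k)
  filter_upwards [h] with om hom
  have hcau : CauchySeq fun n : ℕ => ssamp μ γ (ball G v n) (ordLab om) (drvLab om) (v, k) := by
    refine cauchySeq_of_summable_dist ?_
    refine hom.congr fun n => ?_
    rw [Real.dist_eq]
  obtain ⟨l, hl⟩ := cauchySeq_tendsto_of_complete hcau
  have : slim G μ γ om (v, k) = l := hl.limsup_eq
  rw [this]
  exact hl

theorem ae_tendsto_ball [Countable V] [IsProbabilityMeasure μ] [G.LocallyFinite]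
    (hG : G.Connected) (h0 : 0 ≤ γ) (h1 : γ < 1) (hρ : 0 < ρ) (hρ1 : ρ < 1)
    (hcon : ConBound G μ γ ρ) (o : V) :
    ∀ᵐ om ∂(Pu (V × ℕ)), ∀ e : V × ℕ,
      Tendsto (fun n : ℕ => ssamp μ γ (ball G o n) (ordLab om) (drvLab om) e) atTop
        (𝓝 (slim G μ γ om e)) := by
  have hs := ae_tendsto_slim hG h0 h1 hρ hρ1 hcon
  have hd : ∀ e : V × ℕ, ∀ᵐ om ∂(Pu (V × ℕ)), Summable fun n : ℕ =>
      |ssamp μ γ (ball G e.1 n) (ordLab om) (drvLab om) e -
        ssamp μ γ (ball G o (n + G.dist o e.1)) (ordLab om) (drvLab om) e| := by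
    rintro ⟨v, k⟩
    exact ae_summable_of_sq (P := Pu (V × ℕ))
      (f := fun n om => ssamp μ γ (ball G v n) (ordLab om) (drvLab om) (v, k) -
        ssamp μ γ (ball G o (n + G.dist o v)) (ordLab om) (drvLab om) (v, k)) (B := 2)
      (fun n => (measurable_ssamp _ _).sub (measurable_ssamp _ _))
      (fun n om => by
        have h2 := abs_ssamp_le h0 h1 (ball G v n) (ordLab om) (drvLab om) (v, k) (μ := μ)
        have h3 := abs_ssamp_le h0 h1 (ball G o (n + G.dist o v)) (ordLab om) (drvLab om) (v, k)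
          (μ := μ)
        have h4 := abs_sub (ssamp μ γ (ball G v n) (ordLab om) (drvLab om) (v, k))
          (ssamp μ γ (ball G o (n + G.dist o v)) (ordLab om) (drvLab om) (v, k))
        linarith) (C := 2 ^ (k + 1)) (r := ρ) (by positivity) hρ hρ1
      (fun n => con_om h0 h1 hcon v n _ (ball_subset_ball hG o v n) k)
  rw [← ae_all_iff] at hd
  filter_upwards [hs, hd] with om h1 h2 e
  have h3 := (h2 e).tendsto_atTop_zero
  rw [← tendsto_add_atTop_iff_nat (G.dist o e.1)]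
  have h4 : Tendsto (fun n : ℕ => ssamp μ γ (ball G e.1 n) (ordLab om) (drvLab om) e -
        ssamp μ γ (ball G o (n + G.dist o e.1)) (ordLab om) (drvLab om) e) atTop (𝓝 0) :=
    (tendsto_zero_iff_abs_tendsto_zero _).2 h3
  have h5 := (h1 e).sub h4
  simpa using h5

/-- The noisy observations of the true spins. -/
noncomputable def obs (γ : ℝ) (p : (V → Bool) × (V × ℕ → ℝ)) (e : V × ℕ) : ℝ :=
  T (γ * spin (p.1 e.1)) (p.2 e)

theorem measurable_obs [Countable V] : Measurable (obs γ : (V → Bool) × (V × ℕ → ℝ) → _) := by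
  refine measurable_pi_lambda _ fun e => ?_
  unfold obs
  refine measurable_T.comp (Measurable.prodMk ?_ ?_)
  · exact measurable_const.mul ((measurable_spin_apply e.1).comp measurable_fst)
  · exact (measurable_pi_apply e).comp measurable_snd

theorem rk_injective {U : V → ℝ} (hU : Function.Injective U) : Function.Injective (rk U) := by
  rintro ⟨v, k⟩ ⟨w, l⟩ h
  unfold rk at h
  have h2 := toLex.injective h
  simp only [Prod.mk.injEq] at h2
  rw [h2.1, hU h2.2]

theorem law_finite [Countable V] [IsProbabilityMeasure μ] [G.LocallyFinite]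
    (h0 : 0 ≤ γ) (h1 : γ < 1) (A : Finset (V × ℕ)) (D : Finset V)
    (hA : ∀ e ∈ A, e.1 ∈ D) {F : (V × ℕ → ℝ) → ℝ} (hF : Measurable F)
    (hb : ∃ C, ∀ x, |F x| ≤ C) (hFA : DependsOn F (A : Set (V × ℕ))) :
    ∫ om, F (ssamp μ γ D (ordLab om) (drvLab om)) ∂(Pu (V × ℕ)) =
      ∫ p, F (obs γ p) ∂(μ.prod (Pu (V × ℕ))) := by
  obtain ⟨C, hC⟩ := hb
  have hms : Measurable (fun om : V × ℕ → ℝ => ssamp μ γ D (ordLab om) (drvLab om)) :=
    measurable_pi_lambda _ fun e => measurable_ssamp D e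
  have e0 := integral_split (h := fun om => F (ssamp μ γ D (ordLab om) (drvLab om)))
    (hF.comp hms) (fun om => hC _)
  rw [e0, integral_prod]
  · have hinj : ∀ᵐ U ∂(Pu V), Function.Injective U := ae_injective_Pu
    obtain ⟨K, hK⟩ : ∃ K : ℕ, ∀ e ∈ A, e.2 < K := by
      refine ⟨A.sup (fun e => e.2) + 1, fun e he => ?_⟩
      exact Nat.lt_succ_of_le (Finset.le_sup (f := fun e : V × ℕ => e.2) he)
    have hfix : ∀ᵐ U ∂(Pu V), ∫ u, F (ssamp μ γ D (ordLab (joinLab U u)) (drvLab (joinLab U u)))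
        ∂(Pu (V × ℕ)) = ∫ σ, ∫ u, F (obs γ (σ, u)) ∂(Pu (V × ℕ)) ∂μ := by
      filter_upwards [hinj] with U hU
      have h2 : ∀ u : V × ℕ → ℝ, F (ssamp μ γ D (ordLab (joinLab U u)) (drvLab (joinLab U u))) =
          F (samp μ γ Prod.fst (rk U) (D ×ˢ Finset.range K) u) := by
        intro u
        rw [ordLab_joinLab, drvLab_joinLab]
        refine hFA fun e he => ?_
        exact ssamp_eq μ γ D U u (hK e he)
      simp only [h2]
      refine law_samp h0 h1 ((rk_injective hU).injOn) hF ⟨C, hC⟩ ?_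
      refine hFA.mono fun e he => ?_
      rw [Finset.mem_coe, Finset.mem_product, Finset.mem_range]
      exact ⟨hA e he, hK e he⟩
    rw [integral_congr_ae hfix]
    simp
  · exact Integrable.of_bound (hF.comp measurable_obs).aestronglyMeasurable C
      (ae_of_all _ fun p => hC _)

theorem law_slim [Countable V] [IsProbabilityMeasure μ] [G.LocallyFinite] [Nonempty V]
    (hG : G.Connected) (h0 : 0 ≤ γ) (h1 : γ < 1) (hρ : 0 < ρ) (hρ1 : ρ < 1)
    (hcon : ConBound G μ γ ρ) :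
    (Pu (V × ℕ)).map (fun om => slim G μ γ om) = (μ.prod (Pu (V × ℕ))).map (obs γ) := by
  have hsm : Measurable (fun om : V × ℕ → ℝ => slim G μ γ om) := measurable_slim_pi
  have hom : Measurable (obs γ : (V → Bool) × (V × ℕ → ℝ) → _) := measurable_obs
  have : IsProbabilityMeasure ((μ.prod (Pu (V × ℕ))).map (obs γ)) :=
    Measure.isProbabilityMeasure_map hom.aemeasurable
  have hlim2 : IsProjectiveLimit ((μ.prod (Pu (V × ℕ))).map (obs γ))
      (fun I : Finset (V × ℕ) => ((μ.prod (Pu (V × ℕ))).map (obs γ)).map I.restrict) :=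
    fun I => rfl
  refine IsProjectiveLimit.unique (P := fun I : Finset (V × ℕ) =>
    ((μ.prod (Pu (V × ℕ))).map (obs γ)).map I.restrict) ?_ hlim2
  intro I
  have : IsProbabilityMeasure ((Pu (V × ℕ)).map (fun om => slim G μ γ om)) :=
    Measure.isProbabilityMeasure_map hsm.aemeasurable
  refine ext_of_forall_integral_eq_of_IsFiniteMeasure fun f => ?_
  have hfm : Measurable f := f.continuous.measurable
  have hfI : Measurable (fun x : V × ℕ → ℝ => f (I.restrict x)) :=
    hfm.comp (Finset.measurable_restrict I)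
  rw [integral_map (Finset.measurable_restrict I).aemeasurable hfm.aestronglyMeasurable,
    integral_map (Finset.measurable_restrict I).aemeasurable hfm.aestronglyMeasurable]
  have i1 : ∫ x, f (I.restrict x) ∂((Pu (V × ℕ)).map (fun om => slim G μ γ om)) =
      ∫ om, f (I.restrict (slim G μ γ om)) ∂(Pu (V × ℕ)) :=
    integral_map hsm.aemeasurable hfI.aestronglyMeasurable
  have i2 : ∫ x, f (I.restrict x) ∂((μ.prod (Pu (V × ℕ))).map (obs γ)) =
      ∫ p, f (I.restrict (obs γ p)) ∂(μ.prod (Pu (V × ℕ))) :=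
    integral_map hom.aemeasurable hfI.aestronglyMeasurable
  rw [i1, i2]
  obtain ⟨o⟩ := (inferInstance : Nonempty V)
  have hFdep : DependsOn (fun x : V × ℕ → ℝ => f (I.restrict x)) (I : Set (V × ℕ)) := by
    intro x y h
    simp only
    congr 1
    funext i
    exact h i i.2
  obtain ⟨n₀, hn₀⟩ : ∃ n₀ : ℕ, ∀ n ≥ n₀, ∀ e ∈ I, e.1 ∈ ball G o n := by
    refine ⟨I.sup (fun e => G.dist o e.1), fun n hn e he => ?_⟩
    rw [mem_ball hG]
    exact (Finset.le_sup (f := fun e : V × ℕ => G.dist o e.1) he).trans hn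
  have hconv : Tendsto (fun n : ℕ => ∫ om, f (I.restrict (fun e =>
      ssamp μ γ (ball G o n) (ordLab om) (drvLab om) e)) ∂(Pu (V × ℕ))) atTop
      (𝓝 (∫ om, f (I.restrict (slim G μ γ om)) ∂(Pu (V × ℕ)))) := by
    refine tendsto_integral_of_dominated_convergence (fun _ => ‖f‖) (fun n => ?_)
      (integrable_const _) (fun n => ae_of_all _ fun om => f.norm_coe_le_norm _) ?_
    · exact (hfm.comp ((Finset.measurable_restrict I).comp
        (measurable_pi_lambda _ fun e => measurable_ssamp (ball G o n) e))).aestronglyMeasurable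
    · filter_upwards [ae_tendsto_ball hG h0 h1 hρ hρ1 hcon o] with om hom
      refine (f.continuous.tendsto _).comp ?_
      rw [tendsto_pi_nhds]
      intro i
      exact hom i
  have hconst : ∀ᶠ n : ℕ in atTop, ∫ om, f (I.restrict (fun e =>
      ssamp μ γ (ball G o n) (ordLab om) (drvLab om) e)) ∂(Pu (V × ℕ)) =
      ∫ p, f (I.restrict (obs γ p)) ∂(μ.prod (Pu (V × ℕ))) := by
    filter_upwards [eventually_ge_atTop n₀] with n hn
    exact law_finite (G := G) h0 h1 I (ball G o n) (hn₀ n hn)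
      (F := fun x : V × ℕ → ℝ => f (I.restrict x)) (hfm.comp (Finset.measurable_restrict I))
      ⟨‖f‖, fun x => f.norm_coe_le_norm _⟩ hFdep
  exact tendsto_nhds_unique hconv (tendsto_const_nhds.congr' (by
    filter_upwards [hconst] with n hn using hn.symm))

theorem decode_obs [Countable V] (hγ : 0 < γ) (h1 : γ < 1) [IsProbabilityMeasure μ] :
    ∀ᵐ p ∂(μ.prod (Pu (V × ℕ))), decode (obs γ p) = p.1 := by
  have h2 : ∀ᵐ u ∂(Pu (V × ℕ)), ∀ s : Bool, ∀ v : V,
      Tendsto (fun K : ℕ => (∑ k ∈ Finset.range K, T (γ * spin s) (u (v, k))) / (K : ℝ)) atTop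
        (𝓝 (γ * spin s / 3)) := by
    rw [ae_all_iff]
    intro s
    refine lln_T ?_
    rw [abs_mul, abs_spin, mul_one, abs_of_pos hγ]
    exact h1
  have h3 : ∀ᵐ p ∂(μ.prod (Pu (V × ℕ))), ∀ s : Bool, ∀ v : V,
      Tendsto (fun K : ℕ => (∑ k ∈ Finset.range K, T (γ * spin s) (p.2 (v, k))) / (K : ℝ)) atTop
        (𝓝 (γ * spin s / 3)) :=
    (Measure.quasiMeasurePreserving_snd (μ := μ) (ν := Pu (V × ℕ))).ae h2
  filter_upwards [h3] with p hp
  funext v
  unfold decode
  have h4 : limsup (fun K : ℕ => (∑ k ∈ Finset.range K, obs γ p (v, k)) / (K : ℝ)) atTop =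
      γ * spin (p.1 v) / 3 := (hp (p.1 v) v).limsup_eq
  rw [h4]
  cases hv : p.1 v with
  | true =>
    have : 0 < γ * spin true / 3 := by unfold spin; simp; positivity
    simp only [this, decide_true]
  | false =>
    have : ¬ 0 < γ * spin false / 3 := by
      unfold spin
      simp only [Bool.false_eq_true, if_false, not_lt]
      linarith
    simp only [this, decide_false]

theorem hlaw [Countable V] [IsProbabilityMeasure μ] [G.LocallyFinite] [Nonempty V]
    (hG : G.Connected) (hγ : 0 < γ) (h1 : γ < 1) (hρ : 0 < ρ) (hρ1 : ρ < 1)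
    (hcon : ConBound G μ γ ρ) :
    (Pu (V × ℕ)).map (fun om => decode (slim G μ γ om)) = μ := by
  have hsm : Measurable (fun om : V × ℕ → ℝ => slim G μ γ om) := measurable_slim_pi
  have hom : Measurable (obs γ : (V → Bool) × (V × ℕ → ℝ) → _) := measurable_obs
  have e1 : (fun om : V × ℕ → ℝ => decode (slim G μ γ om)) =
      decode ∘ (fun om => slim G μ γ om) := rfl
  rw [e1, ← Measure.map_map measurable_decode hsm, law_slim hG hγ.le h1 hρ hρ1 hcon,
    Measure.map_map measurable_decode hom]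
  have e2 : (decode ∘ obs γ : (V → Bool) × (V × ℕ → ℝ) → (V → Bool)) =ᵐ[μ.prod (Pu (V × ℕ))]
      Prod.fst := decode_obs hγ h1
  rw [Measure.map_congr e2, Measure.map_fst_prod, measure_univ, one_smul]

end Vale.Agent.P161
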