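import Mathlib
import Vale.Agent.P161.Contraction
import Vale.Agent.P161.Hlaw
import Vale.Agent.P161.Assembly
import Vale.Agent.P161.Ising

open MeasureTheory

namespace Vale.Agent.P161

universe u

variable {V : Type u} {G : SimpleGraph V} {θ : ℝ} {μ : Measure (V → Bool)}

theorem isFactorOfIID_of_contraction [G.LocallyFinite] (hG : G.IsTree)
    (hμ : IsTreeIsing G θ μ) {γ : ℝ} (hγ : 0 < γ) (hγ' : γ ≤ 1 / 2) {ρ : ℝ} (hρ : 0 < ρ)
    (hρ' : ρ < 1)
    (hcon : ∀ U : V → ℝ, Function.Injective U → ∀ (o : V) (n : ℕ) (D' : Finset V),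
        ball G o n ⊆ D' → ∀ k : ℕ,
        ∫ u, (ssamp μ γ (ball G o n) U u (o, k) - ssamp μ γ D' U u (o, k)) ^ 2 ∂(Pu (V × ℕ))
          ≤ 2 ^ (k + 1) * ρ ^ n) :
    IsFactorOfIID G μ := by
  have := hμ.isProb
  have : Countable V := countable_of_locallyFinite hG.connected
  have : Nonempty V := hG.connected.nonempty
  exact isFactorOfIID_of_law hG hμ (hlaw hG.connected hγ (by linarith) hρ hρ' hcon)

end Vale.Agent.P161
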